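import Vale.Agent.Lib.P181.Lift

open Finset

set_option linter.unusedSectionVars false

namespace Vale.Agent.Lib.P181

variable {X : Type*} [Fintype X] [DecidableEq X] {a b : ℕ}

section columns

/-- The columns of a column-major array. -/
def cols2 (w : Fin b → Fin a → X) : Sym (Sym X a) b := symOf fun j => symOf (w j)

/-- The rows of a column-major array. -/
def rows2 (w : Fin b → Fin a → X) : Sym (Sym X b) a := symOf fun i => symOf fun j => w j i

theorem rows2_comp_perm (w : Fin b → Fin a → X) (π : Equiv.Perm (Fin b)) :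
    rows2 (fun j => w (π j)) = rows2 w := by
  unfold rows2
  congr 1
  funext i
  exact symOf_comp_perm (fun j => w j i) π

theorem psi_apply2 {Ψ : (Sym (Sym X b) a →₀ ℂ) →ₗ[ℂ] (Sym (Sym X a) b →₀ ℂ)}
    (hΨ : IsFoulkesHowe Ψ) (f : Sym (Sym X b) a →₀ ℂ) (P' : Sym (Sym X a) b) :
    Ψ f P' = ∑ w : Fin b → Fin a → X,
      if cols2 w = P' then sc (rows2 w) * f (rows2 w) else 0 := by
  rw [psi_apply hΨ]
  refine Fintype.sum_equiv (Equiv.piComm fun _ _ => X) _ _ fun T => ?_
  rfl

open Classical in
/-- Passing from unordered to ordered columns. -/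
theorem sum_cols2 (A : (Fin b → Fin a → X) → ℂ) (hA : ∀ w (π : Equiv.Perm (Fin b)),
    A (fun j => w (π j)) = A w) (C₀ : Fin b → Sym X a) :
    (∑ w : Fin b → Fin a → X, if cols2 w = symOf C₀ then A w else 0) =
      (((univ.filter fun C : Fin b → Sym X a => symOf C = symOf C₀).card : ℕ) : ℂ) *
        ∑ w ∈ univ.filter (fun w : Fin b → Fin a → X => ∀ j, symOf (w j) = C₀ j), A w := by
  let col : (Fin b → Fin a → X) → (Fin b → Sym X a) := fun w j => symOf (w j)
  have hB : ∀ C : Fin b → Sym X a, symOf C = symOf C₀ →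
      ∑ w ∈ univ.filter (fun w : Fin b → Fin a → X => col w = C), A w =
        ∑ w ∈ univ.filter (fun w : Fin b → Fin a → X => ∀ j, symOf (w j) = C₀ j), A w := by
    intro C hC
    obtain ⟨π, hπ⟩ := exists_perm_of_symOf_eq hC.symm
    refine Finset.sum_nbij' (fun w j => w (π.symm j)) (fun w j => w (π j)) ?_ ?_ ?_ ?_ ?_
    · intro w hw
      have hw' : col w = C := (mem_filter.mp hw).2
      refine mem_filter.mpr ⟨mem_univ _, fun j => ?_⟩
      have := congrFun hw' (π.symm j)
      simp only [col] at this
      rw [this, hπ]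
      simp
    · intro w hw
      have hw' := (mem_filter.mp hw).2
      refine mem_filter.mpr ⟨mem_univ _, ?_⟩
      funext j
      simp only [col]
      rw [hw', hπ]
    · intro w _
      funext j
      simp
    · intro w _
      funext j
      simp
    · intro w _
      exact (hA w π.symm).symm
  rw [← Finset.sum_fiberwise univ col]
  have h1 : ∀ C : Fin b → Sym X a,
      ∑ w ∈ univ.filter (fun w : Fin b → Fin a → X => col w = C),
        (if cols2 w = symOf C₀ then A w else 0) =
      if symOf C = symOf C₀ then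
        ∑ w ∈ univ.filter (fun w : Fin b → Fin a → X => ∀ j, symOf (w j) = C₀ j), A w else 0 := by
    intro C
    by_cases hC : symOf C = symOf C₀
    · rw [if_pos hC, ← hB C hC]
      refine Finset.sum_congr rfl fun w hw => ?_
      have hw' : col w = C := (mem_filter.mp hw).2
      have : cols2 w = symOf C₀ := by
        rw [← hC, ← hw']
        rfl
      rw [if_pos this]
    · rw [if_neg hC]
      refine Finset.sum_eq_zero fun w hw => ?_
      have hw' : col w = C := (mem_filter.mp hw).2
      have : cols2 w ≠ symOf C₀ := by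
        intro h
        apply hC
        rw [← hw', ← h]
        rfl
      rw [if_neg this]
  rw [Finset.sum_congr rfl fun C _ => h1 C, ← Finset.sum_filter, Finset.sum_const, nsmul_eq_mul]

end columns

variable {ι : Type*} [Fintype ι] [DecidableEq ι]

/-- Extension of a letter map by `none ↦ x₀`. -/
def hh (h : ι → X) (x₀ : X) : Option ι → X := fun o => o.elim x₀ h

/-- The monomial with letters `h S` and the rest `x₀`. -/
noncomputable def symM (h : ι → X) (x₀ : X) (n : ℕ) (S : Finset ι) : Sym X n :=
  open Classical in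
  if hS : S.card ≤ n then
    Sym.mk (Multiset.map (hh h x₀) (hatM S n)) (by
      rw [Multiset.card_map, card_hatM S n hS])
  else Sym.replicate n x₀

theorem symOf_hh_eq_symM (h : ι → X) (x₀ : X) {n : ℕ} {S : Finset ι} (hS : S.card ≤ n)
    {u : Fin n → Option ι} (hu : Multiset.map u univ.val = hatM S n) :
    symOf (fun k => hh h x₀ (u k)) = symM h x₀ n S := by
  unfold symM
  rw [dif_pos hS]
  apply Subtype.ext
  show Multiset.map (fun k => hh h x₀ (u k)) univ.val = Multiset.map (hh h x₀) (hatM S n)
  rw [← hu, Multiset.map_map]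
  rfl

open Classical in
/-- The function attached to `f`. -/
noncomputable def fOf (f' : Sym (Sym X b) a → ℂ) (h : ι → X) (x₀ : X) :
    (Fin a → Finset ι) → ℂ :=
  fun R => if ∀ i, (R i).card ≤ b then f' (symOf fun i => symM h x₀ b (R i)) else 0

theorem sy_fOf (f' : Sym (Sym X b) a → ℂ) (h : ι → X) (x₀ : X) : Sy (fOf f' h x₀) := by
  intro τ R
  unfold fOf
  have e : (∀ i, (R (τ i)).card ≤ b) ↔ ∀ i, (R i).card ≤ b :=
    ⟨fun h' i => by simpa using h' (τ.symm i), fun h' i => h' (τ i)⟩
  simp only [e]
  rw [symOf_comp_perm (fun i => symM h x₀ b (R i)) τ]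

theorem rb_fOf (f' : Sym (Sym X b) a → ℂ) (h : ι → X) (x₀ : X) : RB b (fOf f' h x₀) := by
  intro R i hi
  unfold fOf
  rw [if_neg]
  intro h'
  exact absurd (h' i) (not_le.mpr hi)

/-- The array of a pair of fillings. -/
noncomputable def liftArr (R : Fin a → Finset ι) (Q : Fin b → Finset ι) : Fin b → Fin a → Option ι :=
  fun j i => el (R i ∩ Q j)

/-- The rows of an array of letters. -/
noncomputable def unlift (w : Fin b → Fin a → Option ι) : Fin a → Finset ι :=
  open Classical in fun i => univ.filter fun x => ∃ j, w j i = some x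

open Classical in
/-- The arrangements of `hatM S n`. -/
noncomputable def hatW (S : Finset ι) (n : ℕ) : Finset (Fin n → Option ι) :=
  univ.filter fun u => Multiset.map u univ.val = hatM S n

theorem mem_hatW {S : Finset ι} {n : ℕ} {u : Fin n → Option ι} :
    u ∈ hatW S n ↔ Multiset.map u univ.val = hatM S n := by
  classical
  simp [hatW]

theorem perp_symm {R : Fin a → Finset ι} {Q : Fin b → Finset ι} (h : Perp R Q) : Perp Q R := by
  intro j i
  rw [inter_comm]
  exact h i j

theorem biUnion_inter_of_isFill {m : ℕ} {R : Fin m → Finset ι} {D S : Finset ι} (hR : IsFill R D)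
    (hS : S ⊆ D) : (univ.biUnion fun i => R i ∩ S) = S := by
  ext x
  simp only [mem_biUnion, mem_univ, true_and, mem_inter]
  constructor
  · rintro ⟨_, _, h⟩
    exact h
  · intro h
    obtain ⟨i, hi⟩ := (hR.mem_iff x).mp (hS h)
    exact ⟨i, hi, h⟩

theorem card_le_of_perp {m : ℕ} {R : Fin m → Finset ι}
    {D S : Finset ι} (hR : IsFill R D) (hS : S ⊆ D) (h : ∀ i, (R i ∩ S).card ≤ 1) :
    S.card ≤ m := by
  rw [← biUnion_inter_of_isFill hR hS]
  calc _ ≤ ∑ i : Fin m, (R i ∩ S).card := card_biUnion_le
    _ ≤ ∑ _i : Fin m, 1 := Finset.sum_le_sum fun i _ => h i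
    _ = m := by simp

theorem map_lift_col {D : Finset ι} {R : Fin a → Finset ι} {Q : Fin b → Finset ι}
    (hR : IsFill R D) (hQ : IsFill Q D) (hp : Perp R Q) (j : Fin b) :
    Multiset.map (liftArr R Q j) univ.val = hatM (Q j) a := by
  have := map_el (fun i => R i ∩ Q j) (fun k l hkl => by
    refine Finset.disjoint_of_subset_left inter_subset_left ?_
    exact Finset.disjoint_of_subset_right inter_subset_left (hR.1 k l hkl)) (fun i => hp i j)
  rwa [biUnion_inter_of_isFill hR (hQ.subset j)] at this

theorem map_lift_row {D : Finset ι} {R : Fin a → Finset ι} {Q : Fin b → Finset ι}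
    (hR : IsFill R D) (hQ : IsFill Q D) (hp : Perp R Q) (i : Fin a) :
    Multiset.map (fun j => liftArr R Q j i) univ.val = hatM (R i) b := by
  have := map_el (fun j => Q j ∩ R i) (fun k l hkl => by
    refine Finset.disjoint_of_subset_left inter_subset_left ?_
    exact Finset.disjoint_of_subset_right inter_subset_left (hQ.1 k l hkl))
    (fun j => perp_symm hp j i)
  rw [biUnion_inter_of_isFill hQ (hR.subset i)] at this
  rw [← this]
  unfold liftArr
  congr 1
  funext j
  rw [inter_comm]

theorem el_eq_some_of_mem {S : Finset ι} {x : ι} (h : S.card ≤ 1) (hx : x ∈ S) :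
    el S = some x := by
  rcases eq_or_of_card_le_one h with h' | ⟨y, h'⟩
  · rw [h'] at hx
    simp at hx
  · rw [h'] at hx ⊢
    rw [mem_singleton.mp hx, el_singleton]

theorem sum_perp_lift {D : Finset ι} {Q : Fin b → Finset ι} (hQ : IsFill Q D)
    (G : (Fin a → Finset ι) → ℂ) (G' : (Fin b → Fin a → Option ι) → ℂ)
    (hG : ∀ R, IsFill R D → Perp R Q → G R = G' (liftArr R Q)) :
    ∑ R ∈ fill a D, ind (Perp R Q) * G R =
      ∑ w ∈ Fintype.piFinset (fun j => hatW (Q j) a), G' w := by
  classical
  have h1 : ∑ R ∈ fill a D, ind (Perp R Q) * G R =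
      ∑ R ∈ (fill a D).filter (fun R => Perp R Q), G R := by
    rw [Finset.sum_filter]
    refine Finset.sum_congr rfl fun R _ => ?_
    by_cases hp : Perp R Q
    · rw [ind_true hp, if_pos hp, one_mul]
    · rw [ind_false hp, if_neg hp, zero_mul]
  rw [h1]
  refine Finset.sum_nbij' (fun R => liftArr R Q) unlift ?_ ?_ ?_ ?_ ?_
  · intro R hR
    obtain ⟨hR1, hR2⟩ := mem_filter.mp hR
    refine Fintype.mem_piFinset.mpr fun j => mem_hatW.mpr ?_
    exact map_lift_col (mem_fill.mp hR1) hQ hR2 j
  · intro w hw
    have hw' : ∀ j, Multiset.map (w j) univ.val = hatM (Q j) a := fun j =>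
      mem_hatW.mp (Fintype.mem_piFinset.mp hw j)
    have hmem : ∀ {x i}, x ∈ unlift w i ↔ ∃ j, w j i = some x := by
      intro x i
      simp [unlift]
    have hcol : ∀ {j j' i i' x}, w j i = some x → w j' i' = some x → j = j' := by
      intro j j' i i' x h1 h2
      exact hQ.eq_of_mem (arr_mem (hw' j) h1) (arr_mem (hw' j') h2)
    refine mem_filter.mpr ⟨mem_fill.mpr ?_, ?_⟩
    · rw [isFill_iff]
      refine ⟨fun x => ?_, fun x i i' hi hi' => ?_⟩
      · constructor
        · intro hx
          obtain ⟨j, hj⟩ := (hQ.mem_iff x).mp hx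
          obtain ⟨i, hi⟩ := arr_exists (hw' j) hj
          exact ⟨i, hmem.mpr ⟨j, hi⟩⟩
        · rintro ⟨i, hi⟩
          obtain ⟨j, hj⟩ := hmem.mp hi
          exact hQ.subset j (arr_mem (hw' j) hj)
      · obtain ⟨j, hj⟩ := hmem.mp hi
        obtain ⟨j', hj'⟩ := hmem.mp hi'
        have := hcol hj hj'
        subst this
        exact arr_unique (hw' j) hj hj'
    · intro i j
      rw [Finset.card_le_one]
      intro x hx y hy
      obtain ⟨hx1, hx2⟩ := mem_inter.mp hx
      obtain ⟨hy1, hy2⟩ := mem_inter.mp hy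
      obtain ⟨j1, hj1⟩ := hmem.mp hx1
      obtain ⟨j2, hj2⟩ := hmem.mp hy1
      have e1 : j1 = j := hQ.eq_of_mem (arr_mem (hw' j1) hj1) hx2
      have e2 : j2 = j := hQ.eq_of_mem (arr_mem (hw' j2) hj2) hy2
      subst e1
      subst e2
      rw [hj1] at hj2
      exact Option.some.inj hj2
  · intro R hR
    obtain ⟨hR1, hR2⟩ := mem_filter.mp hR
    have hR' := mem_fill.mp hR1
    funext i
    ext x
    simp only [unlift, mem_filter, mem_univ, true_and]
    constructor
    · rintro ⟨j, hj⟩
      exact (mem_inter.mp (mem_of_el_eq_some hj)).1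
    · intro hx
      obtain ⟨j, hj⟩ := (hQ.mem_iff x).mp (hR'.subset i hx)
      exact ⟨j, el_eq_some_of_mem (hR2 i j) (mem_inter.mpr ⟨hx, hj⟩)⟩
  · intro w hw
    have hw' : ∀ j, Multiset.map (w j) univ.val = hatM (Q j) a := fun j =>
      mem_hatW.mp (Fintype.mem_piFinset.mp hw j)
    have hmem : ∀ {x i}, x ∈ unlift w i ↔ ∃ j, w j i = some x := by
      intro x i
      simp [unlift]
    have hcol : ∀ {j j' i i' x}, w j i = some x → w j' i' = some x → j = j' := by
      intro j j' i i' x h1 h2
      exact hQ.eq_of_mem (arr_mem (hw' j) h1) (arr_mem (hw' j') h2)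
    funext j i
    show el (unlift w i ∩ Q j) = w j i
    cases hu : w j i with
    | none =>
      have : unlift w i ∩ Q j = ∅ := by
        ext x
        simp only [mem_inter, notMem_empty, iff_false, not_and]
        intro hx hxQ
        obtain ⟨j', hj'⟩ := hmem.mp hx
        have e : j' = j := hQ.eq_of_mem (arr_mem (hw' j') hj') hxQ
        subst e
        rw [hj'] at hu
        exact absurd hu (by simp)
      rw [this, el_empty]
    | some x =>
      have : unlift w i ∩ Q j = {x} := by
        ext y
        simp only [mem_inter, mem_singleton]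
        constructor
        · rintro ⟨hy, hyQ⟩
          obtain ⟨j', hj'⟩ := hmem.mp hy
          have e : j' = j := hQ.eq_of_mem (arr_mem (hw' j') hj') hyQ
          subst e
          rw [hj'] at hu
          exact Option.some.inj hu
        · rintro rfl
          exact ⟨hmem.mpr ⟨j, hu⟩, arr_mem (hw' j) hu⟩
      rw [this, el_singleton]
  · intro R hR
    obtain ⟨hR1, hR2⟩ := mem_filter.mp hR
    exact hG R (mem_fill.mp hR1) hR2

open Classical in
/-- From lifted arrays to arrays of letters. -/
theorem sum_lift_to_letters (h : ι → X) (x₀ : X) {Q : Fin b → Finset ι} (hQa : ∀ j, (Q j).card ≤ a) :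
    ∃ l : ℕ, ∀ A : (Fin b → Fin a → X) → ℂ,
      ∑ w ∈ Fintype.piFinset (fun j => hatW (Q j) a), A (fun j i => hh h x₀ (w j i)) =
        (l : ℂ) * ∑ w ∈ univ.filter (fun w : Fin b → Fin a → X =>
          ∀ j, symOf (w j) = symM h x₀ a (Q j)), A w := by
  set T := univ.filter (fun w : Fin b → Fin a → X => ∀ j, symOf (w j) = symM h x₀ a (Q j)) with hT
  set S := Fintype.piFinset (fun j => hatW (Q j) a) with hS
  let g : (Fin b → Fin a → Option ι) → (Fin b → Fin a → X) := fun w j i => hh h x₀ (w j i)
  have hg : ∀ w ∈ S, g w ∈ T := by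
    intro w hw
    refine mem_filter.mpr ⟨mem_univ _, fun j => ?_⟩
    exact symOf_hh_eq_symM h x₀ (hQa j) (mem_hatW.mp (Fintype.mem_piFinset.mp hw j))
  let N : Fin b → (Fin a → X) → ℕ := fun j t =>
    ((hatW (Q j) a).filter fun u => (fun i => hh h x₀ (u i)) = t).card
  have hN : ∀ j t t', symOf t = symOf t' → N j t = N j t' := by
    intro j t t' htt
    obtain ⟨ρ, hρ⟩ := exists_perm_of_symOf_eq htt
    refine Finset.card_nbij' (fun u k => u (ρ k)) (fun u k => u (ρ.symm k)) ?_ ?_ ?_ ?_
    · intro u hu
      obtain ⟨hu1, hu2⟩ := mem_filter.mp (Finset.mem_coe.mp hu)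
      refine Finset.mem_coe.mpr (mem_filter.mpr ⟨mem_hatW.mpr ?_, ?_⟩)
      · have : symOf (fun k => u (ρ k)) = symOf u := symOf_comp_perm u ρ
        rw [symOf_eq_iff] at this
        rw [this]
        exact mem_hatW.mp hu1
      · funext k
        rw [hρ, ← hu2]
    · intro u hu
      obtain ⟨hu1, hu2⟩ := mem_filter.mp (Finset.mem_coe.mp hu)
      refine Finset.mem_coe.mpr (mem_filter.mpr ⟨mem_hatW.mpr ?_, ?_⟩)
      · have : symOf (fun k => u (ρ.symm k)) = symOf u := symOf_comp_perm u ρ.symm
        rw [symOf_eq_iff] at this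
        rw [this]
        exact mem_hatW.mp hu1
      · funext k
        have := congrFun hu2 (ρ.symm k)
        rw [this, hρ]
        simp
    · intro u _
      funext k
      simp
    · intro u _
      funext k
      simp
  have hfib : ∀ w ∈ T, (S.filter fun z => g z = w).card = ∏ j, N j (w j) := by
    intro w _
    have : (S.filter fun z => g z = w) =
        Fintype.piFinset fun j => (hatW (Q j) a).filter fun u => (fun i => hh h x₀ (u i)) = w j := by
      ext z
      simp only [mem_filter, hS, Fintype.mem_piFinset]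
      constructor
      · rintro ⟨h1, h2⟩ j
        exact ⟨h1 j, congrFun h2 j⟩
      · intro h1
        exact ⟨fun j => (h1 j).1, funext fun j => (h1 j).2⟩
    rw [this, Fintype.card_piFinset]
  by_cases hTne : T.Nonempty
  · obtain ⟨w₀, hw₀⟩ := hTne
    refine ⟨∏ j, N j (w₀ j), fun A => ?_⟩
    rw [← Finset.sum_fiberwise_of_maps_to hg, Finset.mul_sum]
    refine Finset.sum_congr rfl fun w hw => ?_
    have e : ∀ z ∈ S.filter (fun z => g z = w), A (fun j i => hh h x₀ (z j i)) = A w := by
      intro z hz
      have := (mem_filter.mp hz).2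
      show A (g z) = A w
      rw [this]
    rw [Finset.sum_congr rfl e, Finset.sum_const, hfib w hw, nsmul_eq_mul]
    congr 1
    have hprod : ∏ j, N j (w j) = ∏ j, N j (w₀ j) := by
      refine Finset.prod_congr rfl fun j _ => hN j _ _ ?_
      rw [(mem_filter.mp hw).2 j, (mem_filter.mp hw₀).2 j]
    rw [hprod]
  · refine ⟨0, fun A => ?_⟩
    rw [not_nonempty_iff_eq_empty] at hTne
    have hSe : S = ∅ := by
      rw [← not_nonempty_iff_eq_empty]
      rintro ⟨w, hw⟩
      have := hg w hw
      rw [hTne] at this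
      simp at this
    rw [hSe, hTne]
    simp

open Classical in
/-- The kernel condition for the function attached to `f`. -/
theorem kq_fOf {Ψ : (Sym (Sym X b) a →₀ ℂ) →ₗ[ℂ] (Sym (Sym X a) b →₀ ℂ)} (hΨ : IsFoulkesHowe Ψ)
    {f : Sym (Sym X b) a →₀ ℂ} (hf : Ψ f = 0) (h : ι → X) (x₀ : X) (D : Finset ι) :
    KQ b D (fOf (fun P => sc P * f P) h x₀) := by
  intro Q hQ
  have hQ' := mem_fill.mp hQ
  by_cases hQa : ∀ j, (Q j).card ≤ a
  · let A : (Fin b → Fin a → X) → ℂ := fun w => sc (rows2 w) * f (rows2 w)
    have hA : ∀ w (π : Equiv.Perm (Fin b)), A (fun j => w (π j)) = A w := by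
      intro w π
      simp only [A]
      rw [rows2_comp_perm]
    have h1 := sum_perp_lift (a := a) hQ' (fOf (fun P => sc P * f P) h x₀)
      (fun w => A (fun j i => hh h x₀ (w j i))) ?_
    · rw [h1]
      obtain ⟨l, hl⟩ := sum_lift_to_letters h x₀ hQa
      rw [hl A]
      have h2 := sum_cols2 A hA (fun j => symM h x₀ a (Q j))
      have h3 := psi_apply2 hΨ f (symOf fun j => symM h x₀ a (Q j))
      rw [hf, Finsupp.zero_apply] at h3
      have h2' : (((univ.filter fun C : Fin b → Sym X a =>
          symOf C = symOf fun j => symM h x₀ a (Q j)).card : ℕ) : ℂ) *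
          ∑ w ∈ univ.filter (fun w : Fin b → Fin a → X => ∀ j, symOf (w j) = symM h x₀ a (Q j)),
            A w = 0 := by
        rw [h3]
        exact h2.symm
      have hne : (((univ.filter fun C : Fin b → Sym X a =>
          symOf C = symOf fun j => symM h x₀ a (Q j)).card : ℕ) : ℂ) ≠ 0 := by
        have : (univ.filter fun C : Fin b → Sym X a =>
            symOf C = symOf fun j => symM h x₀ a (Q j)).Nonempty :=
          ⟨_, mem_filter.mpr ⟨mem_univ _, rfl⟩⟩
        exact_mod_cast this.card_pos.ne'
      rw [(mul_eq_zero.mp h2').resolve_left hne, mul_zero]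
    · intro R hR hp
      have hrow : ∀ i, (R i).card ≤ b := fun i =>
        card_le_of_perp hQ' (hR.subset i) (fun j => perp_symm hp j i)
      simp only [fOf, A]
      rw [if_pos hrow]
      have : rows2 (fun j i => hh h x₀ (liftArr R Q j i)) = symOf fun i => symM h x₀ b (R i) := by
        unfold rows2
        congr 1
        funext i
        exact symOf_hh_eq_symM h x₀ (hrow i) (map_lift_row hR hQ' hp i)
      rw [this]
  · obtain ⟨j, hj⟩ := not_forall.mp hQa
    refine Finset.sum_eq_zero fun R hR => ?_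
    have hR' := mem_fill.mp hR
    rw [ind_false, zero_mul]
    intro hp
    exact hj (card_le_of_perp hR' (hQ'.subset j) (fun i => hp i j))

/-- The bridge: the combinatorial statement gives the vanishing of the coefficient. -/
theorem bridge {Ψ : (Sym (Sym X b) a →₀ ℂ) →ₗ[ℂ] (Sym (Sym X a) b →₀ ℂ)} (hΨ : IsFoulkesHowe Ψ)
    {f : Sym (Sym X b) a →₀ ℂ} (hf : Ψ f = 0) (v : Fin a → Fin b → X) (x₀ : X)
    (D : Finset (Fin a × Fin b)) (hD : ∀ c, c ∉ D → v c.1 c.2 = x₀) (hC : CC a b D) :
    f (rowsOf v) = 0 := by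
  classical
  let h : Fin a × Fin b → X := fun c => v c.1 c.2
  let R₀ : Fin a → Finset (Fin a × Fin b) := fun i => D.filter fun c => c.1 = i
  have hR₀ : R₀ ∈ fill a D := by
    rw [mem_fill, isFill_iff]
    refine ⟨fun x => ?_, fun x i j hi hj => ?_⟩
    · constructor
      · intro hx
        exact ⟨x.1, mem_filter.mpr ⟨hx, rfl⟩⟩
      · rintro ⟨i, hi⟩
        exact (mem_filter.mp hi).1
    · rw [← (mem_filter.mp hi).2, ← (mem_filter.mp hj).2]
  have hrow : ∀ i, symM h x₀ b (R₀ i) = symOf (v i) ∧ (R₀ i).card ≤ b := by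
    intro i
    let S : Fin b → Finset (Fin a × Fin b) := fun j => if (i, j) ∈ D then {(i, j)} else ∅
    have hS1 : ∀ j, (S j).card ≤ 1 := by
      intro j
      simp only [S]
      split_ifs <;> simp
    have hSmem : ∀ j c, c ∈ S j → c = (i, j) := by
      intro j c hc
      simp only [S] at hc
      split_ifs at hc
      · exact mem_singleton.mp hc
      · simp at hc
    have hS2 : ∀ k l, k ≠ l → Disjoint (S k) (S l) := by
      intro k l hkl
      refine Finset.disjoint_left.mpr fun c hc hc' => hkl ?_
      have e1 := hSmem k c hc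
      have e2 := hSmem l c hc'
      rw [e1] at e2
      exact congrArg Prod.snd e2
    have hU : (univ.biUnion S) = R₀ i := by
      ext c
      simp only [mem_biUnion, mem_univ, true_and, R₀, mem_filter]
      constructor
      · rintro ⟨j, hj⟩
        have e := hSmem j c hj
        subst e
        simp only [S] at hj
        split_ifs at hj with h'
        · exact ⟨h', rfl⟩
        · simp at hj
      · rintro ⟨hc, rfl⟩
        refine ⟨c.2, ?_⟩
        simp only [S, Prod.mk.eta, hc, if_true, mem_singleton]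
    have hm := map_el S hS2 hS1
    have hcard := (map_el_aux S hS2 hS1 univ).1
    rw [hU] at hm hcard
    have hcard' : (R₀ i).card ≤ b := by simpa using hcard
    refine ⟨?_, hcard'⟩
    rw [← symOf_hh_eq_symM h x₀ hcard' hm]
    congr 1
    funext j
    by_cases hj : (i, j) ∈ D
    · simp only [S, if_pos hj, el_singleton, hh, h, Option.elim]
    · simp only [S, if_neg hj, el_empty, hh, Option.elim]
      exact (hD (i, j) hj).symm
  have := hC _ (sy_fOf (fun P => sc P * f P) h x₀) (rb_fOf _ h x₀) (kq_fOf hΨ hf h x₀ D) R₀ hR₀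
  simp only [fOf] at this
  rw [if_pos fun i => (hrow i).2] at this
  have e : (symOf fun i => symM h x₀ b (R₀ i)) = rowsOf v := by
    unfold rowsOf
    congr 1
    funext i
    exact (hrow i).1
  rw [e] at this
  exact (mul_eq_zero.mp this).resolve_left (sc_ne_zero _)

end Vale.Agent.Lib.P181
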