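import Vale.Agent.Lib.P181.Main

/-!
Vanishing on fillings with many nonempty rows, from the hypothesis `HH`.
-/

open Finset

set_option linter.unusedSectionVars false

namespace Vale.Agent.Lib.P181

variable {ι : Type*} [DecidableEq ι] {n : ℕ}

theorem nne_comp_perm (R : Fin n → Finset ι) (τ : Equiv.Perm (Fin n)) :
    nne (fun i => R (τ i)) = nne R := by
  unfold nne
  refine Finset.card_nbij' τ τ.symm ?_ ?_ ?_ ?_
  · intro i hi
    exact Finset.mem_coe.mpr (mem_filter.mpr ⟨mem_univ _, (mem_filter.mp (Finset.mem_coe.mp hi)).2⟩)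
  · intro i hi
    refine Finset.mem_coe.mpr (mem_filter.mpr ⟨mem_univ _, ?_⟩)
    simpa using (mem_filter.mp (Finset.mem_coe.mp hi)).2
  · intro i _
    simp
  · intro i _
    simp

theorem nne_cons_le (S : Finset ι) (R'' : Fin n → Finset ι) :
    nne (Fin.cons S R'' : Fin (n + 1) → Finset ι) ≤ nne R'' + 1 := by
  unfold nne
  rw [Finset.card_filter, Finset.card_filter, Fin.sum_univ_succ]
  simp only [Fin.cons_zero, Fin.cons_succ]
  split_ifs <;> omega

/-- Rows can be moved to the first place, keeping track of the nonempty rows. -/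
theorem exists_cons_of_row' {D : Finset ι} {F : (Fin (n + 1) → Finset ι) → ℂ} (hSy : Sy F)
    {R : Fin (n + 1) → Finset ι} (hR : IsFill R D) (i : Fin (n + 1)) :
    ∃ R'' ∈ fill n (D \ R i), nne R ≤ nne R'' + 1 ∧ F (Fin.cons (R i) R'') = F R := by
  have hR1 := isFill_comp_perm hR (Equiv.swap 0 i)
  have hcons : (Fin.cons (R i) (Fin.tail fun k => R (Equiv.swap 0 i k)) :
      Fin (n + 1) → Finset ι) = fun k => R (Equiv.swap 0 i k) := by
    have : R i = (fun k => R (Equiv.swap 0 i k)) 0 := by simp
    rw [this]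
    exact Fin.cons_self_tail (α := fun _ => Finset ι) (fun k => R (Equiv.swap 0 i k))
  have h2 : IsFill (Fin.cons (R i) (Fin.tail fun k => R (Equiv.swap 0 i k)) :
      Fin (n + 1) → Finset ι) D := by
    rw [hcons]; exact hR1
  rw [isFill_cons_iff] at h2
  refine ⟨_, mem_fill.mpr h2.2, ?_, ?_⟩
  · have := nne_cons_le (R i) (Fin.tail fun k => R (Equiv.swap 0 i k))
    rw [hcons, nne_comp_perm] at this
    exact this
  · rw [hcons, hSy]

theorem two_le_nne {R : Fin n → Finset ι} {i j : Fin n} (hij : i ≠ j) (hi : (R i).Nonempty)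
    (hj : (R j).Nonempty) : 2 ≤ nne R := by
  unfold nne
  have : ({i, j} : Finset (Fin n)) ⊆ univ.filter fun k => (R k).Nonempty := by
    intro k hk
    simp only [mem_insert, mem_singleton] at hk
    rcases hk with rfl | rfl
    · exact mem_filter.mpr ⟨mem_univ _, hi⟩
    · exact mem_filter.mpr ⟨mem_univ _, hj⟩
  have hc := card_le_card this
  rwa [card_pair hij] at hc

theorem exists_other_row {R : Fin n → Finset ι} (h : 2 ≤ nne R) (i : Fin n) :
    ∃ k, k ≠ i ∧ (R k).Nonempty := by
  by_contra hcon
  have : (univ.filter fun k => (R k).Nonempty) ⊆ {i} := by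
    intro k hk
    rw [mem_singleton]
    by_contra hki
    exact hcon ⟨k, hki, (mem_filter.mp hk).2⟩
  have := card_le_card this
  unfold nne at h
  simp at this
  omega

theorem exists_big_row {R : Fin n → Finset ι} {D : Finset ι} (hR : IsFill R D)
    (h : n * (n - 1) < D.card) : ∃ i, n ≤ (R i).card := by
  by_contra hcon
  have hall : ∀ i, (R i).card ≤ n - 1 := by
    intro i
    have : ¬ n ≤ (R i).card := fun h' => hcon ⟨i, h'⟩
    omega
  rw [card_fill_row_le hR] at h
  have : ∑ i, (R i).card ≤ ∑ _i : Fin n, (n - 1) := Finset.sum_le_sum fun i _ => hall i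
  simp at this
  omega

/-- Vanishing in the case `j = 2`, with no condition on the size of `D`. -/
theorem claim2 {b n : ℕ} (hn : n ≤ b) {D : Finset ι} {F : (Fin n → Finset ι) → ℂ}
    (hSy : Sy F) (hRB : RB b F) (hH : HH n b D 2 F) :
    ∀ R ∈ fill n D, 2 ≤ nne R → F R = 0 := by
  have hfull : ∀ R ∈ fill n D, 2 ≤ nne R → ∀ i, b ≤ (R i).card → F R = 0 := by
    intro R hR h2 i hi
    by_cases hgt : b < (R i).card
    · exact hRB R i hgt
    · have hcard : (R i).card = b := by omega
      cases n with
      | zero => exact i.elim0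
      | succ n =>
        have hR' := mem_fill.mp hR
        obtain ⟨R'', hR'', _, hF⟩ := exists_cons_of_row' hSy hR' i
        rw [← hF]
        have hp := peel (j := 1) hH (hR'.subset i) (by omega) (le_of_eq hcard)
        obtain ⟨k, hk, x, hx⟩ := exists_other_row h2 i
        have hne : (D \ R i).Nonempty := by
          refine ⟨x, mem_sdiff.mpr ⟨hR'.subset k hx, fun hxi => hk ?_⟩⟩
          exact hR'.eq_of_mem hx hxi
        exact t1' (by omega) hne (sy_cons hSy) (rb_cons hRB) hp R'' hR''
  have hE : HE n 2 D F := by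
    intro J hJ hc R' hR'
    by_cases hall : ∀ i, (R' i).card < b
    · exact hH J hJ hc R' hR' hall
    · obtain ⟨i, hi⟩ := not_forall.mp hall
      unfold up
      refine Finset.sum_eq_zero fun A hA => ?_
      obtain ⟨hA1, hA2⟩ := mem_asg.mp hA
      have hfill := isFill_union hJ (mem_fill.mp hR') hA1
      refine hfull _ (mem_fill.mpr hfill) ?_ i ?_
      · obtain ⟨x, hx, y, hy, hxy⟩ := Finset.one_lt_card.mp (by omega : 1 < J.card)
        obtain ⟨k, hk⟩ := (hA1.mem_iff x).mp hx
        obtain ⟨l, hl⟩ := (hA1.mem_iff y).mp hy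
        have hkl : k ≠ l := by
          rintro rfl
          exact hxy (Finset.card_le_one.mp (hA2 k) x hk y hl)
        exact two_le_nne hkl ⟨x, mem_union_right _ hk⟩ ⟨y, mem_union_right _ hl⟩
      · calc b ≤ (R' i).card := by omega
          _ ≤ _ := card_le_card subset_union_left
  exact exact2 hSy hE

/-- Vanishing on fillings with at least `k + 3` nonempty rows, for large `D`. -/
theorem claimK {b : ℕ} (k : ℕ) : ∀ (n : ℕ), n ≤ b → ∀ (D : Finset ι)
    (F : (Fin n → Finset ι) → ℂ), Sy F → RB b F → HH n b D (k + 3) F →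
    k * b + n * (n - 1) < D.card → ∀ R ∈ fill n D, k + 3 ≤ nne R → F R = 0 := by
  induction k with
  | zero =>
    intro n hn D F hSy hRB hH hcard R hR hnne
    have hR' := mem_fill.mp hR
    obtain ⟨i, hi⟩ := exists_big_row hR' (by omega)
    by_cases hgt : b < (R i).card
    · exact hRB R i hgt
    · cases n with
      | zero => exact i.elim0
      | succ n =>
        obtain ⟨R'', hR'', hnn, hF⟩ := exists_cons_of_row' hSy hR' i
        rw [← hF]
        have hp := peel (j := 2) hH (hR'.subset i) hi (by omega)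
        exact claim2 (by omega) (sy_cons hSy) (rb_cons hRB) hp R'' hR'' (by omega)
  | succ k ih =>
    intro n hn D F hSy hRB hH hcard R hR hnne
    have hR' := mem_fill.mp hR
    have hle : n * (n - 1) < D.card := by
      have : 0 ≤ (k + 1) * b := Nat.zero_le _
      omega
    obtain ⟨i, hi⟩ := exists_big_row hR' hle
    by_cases hgt : b < (R i).card
    · exact hRB R i hgt
    · cases n with
      | zero => exact i.elim0
      | succ n =>
        obtain ⟨R'', hR'', hnn, hF⟩ := exists_cons_of_row' hSy hR' i
        rw [← hF]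
        have hp := peel (j := k + 3) hH (hR'.subset i) hi (by omega)
        refine ih n (by omega) _ _ (sy_cons hSy) (rb_cons hRB) hp ?_ R'' hR'' (by omega)
        rw [card_sdiff_of_subset (hR'.subset i)]
        have h1 : (k + 1) * b = k * b + b := by ring
        have h2 : n * (n - 1) ≤ (n + 1) * (n + 1 - 1) := by
          apply Nat.mul_le_mul <;> omega
        omega

end Vale.Agent.Lib.P181
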