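import Vale.Agent.Lib.P181.Level
import Vale.Agent.Lib.P181.Bridge

/-!
Collapsing a letter: from depth `d - 1` to depth `d` when all rows are forced to be nonempty.
-/

open Finset

set_option linter.unusedSectionVars false

namespace Vale.Agent.Lib.P181

variable {ι : Type*} [DecidableEq ι] {n : ℕ}

theorem mem_oneAt {z x : ι} {i k : Fin n} : x ∈ oneAt z i k ↔ k = i ∧ x = z := by
  unfold oneAt
  split_ifs with h <;> simp [h]

theorem sum_fill_singleton {D : Finset ι} {z : ι} (hz : z ∈ D) (g : (Fin n → Finset ι) → ℂ) :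
    ∑ R ∈ fill n D, g R =
      ∑ R' ∈ fill n (D \ {z}), ∑ i, g (fun k => R' k ∪ oneAt z i k) := by
  rw [sum_fill_split (singleton_subset_iff.mpr hz)]
  refine Finset.sum_congr rfl fun R' _ => ?_
  rw [← up_singleton]
  unfold up
  refine Finset.sum_congr ?_ fun _ _ => rfl
  ext A
  rw [mem_fill, mem_asg]
  constructor
  · intro h
    refine ⟨h, fun i => ?_⟩
    calc (A i).card ≤ ({z} : Finset ι).card := card_le_card (h.subset i)
      _ = 1 := card_singleton z
  · exact fun h => h.1

theorem perp_insert {m : ℕ} {E : Finset ι} {z : ι} (hz : z ∉ E) {R' : Fin n → Finset ι}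
    {Q' : Fin m → Finset ι} (hR' : IsFill R' E) (hQ' : IsFill Q' E) (i : Fin n) (j : Fin m) :
    Perp (fun k => R' k ∪ oneAt z i k) (fun l => Q' l ∪ oneAt z j l) ↔
      Perp R' Q' ∧ R' i ∩ Q' j = ∅ := by
  have hzR : ∀ k, z ∉ R' k := fun k h => hz (hR'.subset k h)
  have hzQ : ∀ l, z ∉ Q' l := fun l h => hz (hQ'.subset l h)
  constructor
  · intro h
    constructor
    · intro k l
      refine (card_le_card ?_).trans (h k l)
      exact inter_subset_inter subset_union_left subset_union_left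
    · rw [← not_nonempty_iff_eq_empty]
      rintro ⟨x, hx⟩
      obtain ⟨hx1, hx2⟩ := mem_inter.mp hx
      have h1 : x ∈ (R' i ∪ oneAt z i i) ∩ (Q' j ∪ oneAt z j j) :=
        mem_inter.mpr ⟨mem_union_left _ hx1, mem_union_left _ hx2⟩
      have h2 : z ∈ (R' i ∪ oneAt z i i) ∩ (Q' j ∪ oneAt z j j) :=
        mem_inter.mpr ⟨mem_union_right _ (mem_oneAt.mpr ⟨rfl, rfl⟩),
          mem_union_right _ (mem_oneAt.mpr ⟨rfl, rfl⟩)⟩
      have := Finset.card_le_one.mp (h i j) x h1 z h2
      subst this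
      exact hzR i hx1
  · rintro ⟨h1, h2⟩ k l
    rw [Finset.card_le_one]
    intro x hx y hy
    have key : ∀ w, w ∈ (R' k ∪ oneAt z i k) ∩ (Q' l ∪ oneAt z j l) →
        (w ∈ R' k ∧ w ∈ Q' l) ∨ (k = i ∧ l = j ∧ w = z) := by
      intro w hw
      obtain ⟨hw1, hw2⟩ := mem_inter.mp hw
      rcases mem_union.mp hw1 with a1 | a1 <;> rcases mem_union.mp hw2 with a2 | a2
      · exact Or.inl ⟨a1, a2⟩
      · obtain ⟨_, rfl⟩ := mem_oneAt.mp a2
        exact absurd a1 (hzR k)
      · obtain ⟨_, rfl⟩ := mem_oneAt.mp a1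
        exact absurd a2 (hzQ l)
      · obtain ⟨e1, e2⟩ := mem_oneAt.mp a1
        obtain ⟨e3, _⟩ := mem_oneAt.mp a2
        exact Or.inr ⟨e1, e3, e2⟩
    rcases key x hx with ⟨a1, a2⟩ | ⟨e1, e2, e3⟩ <;> rcases key y hy with ⟨b1, b2⟩ | ⟨f1, f2, f3⟩
    · exact Finset.card_le_one.mp (h1 k l) x (mem_inter.mpr ⟨a1, a2⟩) y (mem_inter.mpr ⟨b1, b2⟩)
    · subst f1 f2 f3
      have : x ∈ R' k ∩ Q' l := mem_inter.mpr ⟨a1, a2⟩
      rw [h2] at this
      simp at this
    · subst e1 e2 e3
      have : y ∈ R' k ∩ Q' l := mem_inter.mpr ⟨b1, b2⟩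
      rw [h2] at this
      simp at this
    · rw [e3, f3]

/-- The collapse of a letter. -/
noncomputable def collapseF (b : ℕ) (z : ι) (F : (Fin n → Finset ι) → ℂ) :
    (Fin n → Finset ι) → ℂ :=
  fun R' => ∑ i, ((b - (R' i).card : ℕ) : ℂ) * F (fun k => R' k ∪ oneAt z i k)

theorem sy_collapseF {b : ℕ} {z : ι} {F : (Fin n → Finset ι) → ℂ} (hSy : Sy F) :
    Sy (collapseF b z F) := by
  intro τ R
  unfold collapseF
  refine Fintype.sum_equiv τ _ _ fun i => ?_
  rw [← hSy τ (fun k => R k ∪ oneAt z (τ i) k)]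
  congr 2
  funext k
  congr 1
  unfold oneAt
  simp

theorem rb_collapseF {b : ℕ} {z : ι} {F : (Fin n → Finset ι) → ℂ} (hRB : RB b F) :
    RB b (collapseF b z F) := by
  intro R k hk
  unfold collapseF
  refine Finset.sum_eq_zero fun i _ => ?_
  rw [hRB _ k (lt_of_lt_of_le hk (card_le_card subset_union_left)), mul_zero]

theorem biUnion_inter_of_isFill' {m : ℕ} {R : Fin m → Finset ι} {D S : Finset ι} (hR : IsFill R D)
    (hS : S ⊆ D) : (univ.biUnion fun i => R i ∩ S) = S := by
  ext x
  simp only [mem_biUnion, mem_univ, true_and, mem_inter]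
  constructor
  · rintro ⟨_, _, h⟩
    exact h
  · intro h
    obtain ⟨i, hi⟩ := (hR.mem_iff x).mp (hS h)
    exact ⟨i, hi, h⟩

theorem card_eq_sum_inter {m : ℕ} {E S : Finset ι} {Q : Fin m → Finset ι} (hQ : IsFill Q E)
    (hS : S ⊆ E) : S.card = ∑ j, (Q j ∩ S).card := by
  conv_lhs => rw [← biUnion_inter_of_isFill' hQ hS]
  rw [card_biUnion]
  intro k _ l _ hkl
  exact Finset.disjoint_of_subset_left inter_subset_left
    (Finset.disjoint_of_subset_right inter_subset_left (hQ.1 k l hkl))

theorem sum_ind_inter_empty {m : ℕ} {E S : Finset ι} {Q : Fin m → Finset ι} (hQ : IsFill Q E)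
    (hS : S ⊆ E) (h1 : ∀ j, (S ∩ Q j).card ≤ 1) :
    ∑ j, ind (S ∩ Q j = ∅) = ((m - S.card : ℕ) : ℂ) := by
  classical
  have hind : ∀ j, ind (S ∩ Q j = ∅) = ((1 - (S ∩ Q j).card : ℕ) : ℂ) := by
    intro j
    by_cases h : S ∩ Q j = ∅
    · rw [ind_true h, h]
      simp
    · rw [ind_false h]
      have : (S ∩ Q j).card = 1 := by
        have h2 := h1 j
        have h3 : (S ∩ Q j).card ≠ 0 := fun h' => h (card_eq_zero.mp h')
        omega
      rw [this]
      simp
  rw [Finset.sum_congr rfl fun j _ => hind j, ← Nat.cast_sum]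
  congr 1
  have hS' : S.card = ∑ j, (S ∩ Q j).card := by
    rw [card_eq_sum_inter hQ hS]
    refine Finset.sum_congr rfl fun j _ => ?_
    rw [inter_comm]
  rw [hS']
  have : ∑ j : Fin m, (1 - (S ∩ Q j).card) + ∑ j : Fin m, (S ∩ Q j).card = m := by
    rw [← Finset.sum_add_distrib]
    have : ∀ j : Fin m, 1 - (S ∩ Q j).card + (S ∩ Q j).card = 1 := by
      intro j
      have := h1 j
      omega
    simp [this]
  omega

theorem kq_collapseF {a b : ℕ} {D : Finset ι} {z : ι} (hz : z ∈ D)
    {F : (Fin a → Finset ι) → ℂ} (hK : KQ b D F) : KQ b (D \ {z}) (collapseF b z F) := by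
  intro Q' hQ'
  have hQ'' := mem_fill.mp hQ'
  have hzE : z ∉ D \ {z} := by simp
  have hA : ∀ j : Fin b, IsFill (oneAt (n := b) z j) {z} := by
    intro j
    rw [isFill_iff]
    constructor
    · intro y
      simp only [mem_singleton, mem_oneAt]
      constructor
      · rintro rfl
        exact ⟨j, rfl, rfl⟩
      · rintro ⟨_, _, h⟩
        exact h
    · intro y l m hl hm
      rw [(mem_oneAt.mp hl).1, (mem_oneAt.mp hm).1]
  have hj : ∀ j : Fin b, ∑ R' ∈ fill a (D \ {z}), ∑ i,
      ind (Perp R' Q') * ind (R' i ∩ Q' j = ∅) * F (fun k => R' k ∪ oneAt z i k) = 0 := by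
    intro j
    have hfill := isFill_union (singleton_subset_iff.mpr hz) hQ'' (hA j)
    have := hK _ (mem_fill.mpr hfill)
    rw [sum_fill_singleton hz] at this
    rw [← this]
    refine Finset.sum_congr rfl fun R' hR' => ?_
    refine Finset.sum_congr rfl fun i _ => ?_
    rw [ind_congr (perp_insert hzE (mem_fill.mp hR') hQ'' i j), ind_and]
  have hsum := Finset.sum_eq_zero (s := univ) fun j (_ : j ∈ univ) => hj j
  rw [Finset.sum_comm] at hsum
  rw [← hsum]
  refine Finset.sum_congr rfl fun R' hR' => ?_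
  have hR'' := mem_fill.mp hR'
  rw [Finset.sum_comm]
  unfold collapseF
  rw [Finset.mul_sum]
  refine Finset.sum_congr rfl fun i _ => ?_
  by_cases hp : Perp R' Q'
  · rw [ind_true hp]
    have := sum_ind_inter_empty hQ'' (hR''.subset i) (fun j => hp i j)
    rw [← this, Finset.sum_mul, Finset.mul_sum]
    refine Finset.sum_congr rfl fun j _ => ?_
    ring
  · rw [ind_false hp]
    simp

/-- Sum of squares of the row sizes. -/
def sqSum (R : Fin n → Finset ι) : ℕ := ∑ i, (R i).card ^ 2

/-- From depth `d - 1` to depth `d`, when all rows are forced to be nonempty. -/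
theorem top_collapse {a b : ℕ} {D : Finset ι} (hD : (a - 1) * b < D.card)
    (hC : ∀ z ∈ D, CC a b (D \ {z})) : CC a b D := by
  classical
  intro F hSy hRB hK
  by_contra hne
  have hne' : ((fill a D).filter fun R => F R ≠ 0).Nonempty := by
    obtain ⟨R, hR⟩ := not_forall.mp hne
    obtain ⟨hR1, hR2⟩ := Classical.not_imp.mp hR
    exact ⟨R, mem_filter.mpr ⟨hR1, hR2⟩⟩
  obtain ⟨R₀, hR₀, hmax⟩ := Finset.exists_max_image _ sqSum hne'
  obtain ⟨hR₀1, hR₀2⟩ := mem_filter.mp hR₀
  have hR₀' := mem_fill.mp hR₀1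
  have hrows : ∀ i, (R₀ i).card ≤ b := by
    intro i
    by_contra h
    exact hR₀2 (hRB R₀ i (by omega))
  have hDne : D.Nonempty := card_pos.mp (by omega)
  obtain ⟨x₀, hx₀⟩ := hDne
  obtain ⟨i₁, _⟩ := (hR₀'.mem_iff x₀).mp hx₀
  obtain ⟨i₀, _, hmin⟩ := Finset.exists_min_image (univ : Finset (Fin a))
    (fun i => (R₀ i).card) ⟨i₁, mem_univ _⟩
  have hnonempty : (R₀ i₀).Nonempty := by
    by_contra hemp
    rw [not_nonempty_iff_eq_empty] at hemp
    have hsum := card_fill_row_le hR₀'
    rw [← Finset.add_sum_erase _ _ (mem_univ i₀), hemp, card_empty, zero_add] at hsum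
    have : ∑ i ∈ univ.erase i₀, (R₀ i).card ≤ ∑ _i ∈ univ.erase i₀, b :=
      Finset.sum_le_sum fun i _ => hrows i
    simp only [sum_const, card_erase_of_mem (mem_univ i₀), card_univ, Fintype.card_fin,
      smul_eq_mul] at this
    omega
  obtain ⟨z, hz⟩ := hnonempty
  have hzD : z ∈ D := hR₀'.subset i₀ hz
  set R' : Fin a → Finset ι := fun i => R₀ i \ {z} with hR'def
  have hR'fill : R' ∈ fill a (D \ {z}) := mem_fill.mpr (isFill_sdiff {z} hR₀')
  have hG := hC z hzD _ (sy_collapseF hSy) (rb_collapseF hRB) (kq_collapseF hzD hK) R' hR'fill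
  unfold collapseF at hG
  have hzi : ∀ i, i ≠ i₀ → z ∉ R₀ i := fun i hi h => hi (hR₀'.eq_of_mem h hz)
  have hR'i : ∀ i, i ≠ i₀ → R' i = R₀ i := by
    intro i hi
    simp only [hR'def]
    rw [sdiff_singleton_eq_erase, erase_eq_of_notMem (hzi i hi)]
  have hcard0 : (R' i₀).card + 1 = (R₀ i₀).card := by
    simp only [hR'def]
    rw [sdiff_singleton_eq_erase, card_erase_add_one hz]
  rw [Finset.sum_eq_single i₀] at hG
  · have e : (fun k => R' k ∪ oneAt z i₀ k) = R₀ := by
      funext k
      by_cases hk : k = i₀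
      · subst hk
        simp only [oneAt, if_true, hR'def]
        exact sdiff_union_of_subset (singleton_subset_iff.mpr hz)
      · simp only [oneAt, if_neg hk, union_empty]
        exact hR'i k hk
    rw [e] at hG
    refine hR₀2 ((mul_eq_zero.mp hG).resolve_left ?_)
    have h1 := hrows i₀
    have : b - (R' i₀).card ≠ 0 := by omega
    exact_mod_cast this
  · intro i _ hi
    set R₁ : Fin a → Finset ι := fun k => R' k ∪ oneAt z i k with hR₁
    have hF1 : F R₁ = 0 := by
      by_contra hF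
      have hR₁fill : R₁ ∈ fill a D := by
        have hA : IsFill (oneAt (n := a) z i) {z} := by
          rw [isFill_iff]
          constructor
          · intro y
            simp only [mem_singleton, mem_oneAt]
            constructor
            · rintro rfl
              exact ⟨i, rfl, rfl⟩
            · rintro ⟨_, _, h⟩
              exact h
          · intro y l m hl hm
            rw [(mem_oneAt.mp hl).1, (mem_oneAt.mp hm).1]
        exact mem_fill.mpr (isFill_union (singleton_subset_iff.mpr hzD)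
          (mem_fill.mp hR'fill) hA)
      have hle := hmax R₁ (mem_filter.mpr ⟨hR₁fill, hF⟩)
      have hi2 : i ∈ univ.erase i₀ := mem_erase.mpr ⟨hi, mem_univ _⟩
      have hsplit : ∀ T : Fin a → Finset ι, sqSum T = (T i₀).card ^ 2 + ((T i).card ^ 2 +
          ∑ l ∈ (univ.erase i₀).erase i, (T l).card ^ 2) := by
        intro T
        unfold sqSum
        rw [← Finset.add_sum_erase _ _ (mem_univ i₀), ← Finset.add_sum_erase _ _ hi2]
      rw [hsplit R₁, hsplit R₀] at hle
      have hrest : ∑ l ∈ (univ.erase i₀).erase i, (R₁ l).card ^ 2 =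
          ∑ l ∈ (univ.erase i₀).erase i, (R₀ l).card ^ 2 := by
        refine Finset.sum_congr rfl fun l hl => ?_
        have hl1 : l ≠ i := (mem_erase.mp hl).1
        have hl2 : l ≠ i₀ := (mem_erase.mp (mem_erase.mp hl).2).1
        simp only [hR₁, oneAt, if_neg hl1, union_empty]
        rw [hR'i l hl2]
      have hr0 : (R₁ i₀).card = (R' i₀).card := by
        simp only [hR₁, oneAt, if_neg (Ne.symm hi), union_empty]
      have hri : (R₁ i).card = (R₀ i).card + 1 := by
        simp only [hR₁, oneAt, if_true]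
        have e : R₀ i ∪ {z} = insert z (R₀ i) := by
          ext y
          simp
        rw [hR'i i hi, e, card_insert_of_notMem (hzi i hi)]
      rw [hrest, hr0, hri, ← hcard0] at hle
      have hmin' := hmin i (mem_univ _)
      rw [← hcard0] at hmin'
      nlinarith
    rw [hF1, mul_zero]
  · intro h
    exact absurd (mem_univ i₀) h

/-- Depth `(a - 1) * b` is enough for all depths. -/
theorem cc_full_of_depth {a b : ℕ} (h : ∀ D : Finset ι, D.card ≤ (a - 1) * b → CC a b D) :
    ∀ D : Finset ι, CC a b D := by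
  intro D
  induction' hk : D.card using Nat.strong_induction_on with k ih generalizing D
  by_cases hD : D.card ≤ (a - 1) * b
  · exact h D hD
  · refine top_collapse (by omega) fun z hz => ?_
    refine ih (D \ {z}).card ?_ _ rfl
    rw [card_sdiff_of_subset (singleton_subset_iff.mpr hz), card_singleton]
    have := card_pos.mpr ⟨z, hz⟩
    omega

end Vale.Agent.Lib.P181
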