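import Vale.Agent.Lib.P181.Explicit

/-!
The polynomial bound: low rows vanish, iterated collapse and the peeling of all rows.
-/

open Finset

set_option linter.unusedSectionVars false

namespace Vale.Agent.Lib.P181

variable {ι : Type*} [DecidableEq ι] {n : ℕ}

/-- A sum over subsets of a fixed size of every large set vanishes: then each term vanishes. -/
theorem inclusion_lemma (N : Finset ι) (u : Finset ι → ℂ) (k l : ℕ) (hkl : k ≤ l)
    (hl : ∀ U ⊆ N, U.card = l → ∑ W ∈ powersetCard k U, u W = 0)
    (hN : k + l ≤ N.card) : ∀ T ⊆ N, T.card = k → u T = 0 := by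
  classical
  let G : Finset ι → ℂ := fun U => ∑ W ∈ powersetCard k U, u W
  have hdouble : ∀ U : Finset ι, ∑ x ∈ U, G (U.erase x) = ((U.card - k : ℕ) : ℂ) * G U := by
    intro U
    simp only [G]
    rw [Finset.sum_comm' (t' := powersetCard k U) (s' := fun W => U \ W)]
    · rw [Finset.mul_sum]
      refine Finset.sum_congr rfl fun W hW => ?_
      rw [Finset.sum_const, nsmul_eq_mul]
      obtain ⟨hW1, hW2⟩ := mem_powersetCard.mp hW
      rw [card_sdiff_of_subset hW1, hW2]
    · intro x W
      simp only [mem_powersetCard, mem_sdiff]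
      constructor
      · rintro ⟨hx, hW, hc⟩
        refine ⟨⟨?_, fun hxW => ?_⟩, hW.trans (erase_subset _ _), hc⟩
        · exact hx
        · exact (mem_erase.mp (hW hxW)).1 rfl
      · rintro ⟨⟨hx, hxW⟩, hW, hc⟩
        exact ⟨hx, fun y hy => mem_erase.mpr ⟨fun h => hxW (h ▸ hy), hW hy⟩, hc⟩
  have hG0' : ∀ s : ℕ, ∀ U ⊆ N, U.card = l + s → G U = 0 := by
    intro s
    induction s with
    | zero =>
      intro U hU hc
      exact hl U hU (by simpa using hc)
    | succ s ih =>
      intro U hU hc
      have h := hdouble U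
      have h0 : ∑ x ∈ U, G (U.erase x) = 0 := by
        refine Finset.sum_eq_zero fun x hx => ?_
        refine ih _ ((erase_subset _ _).trans hU) ?_
        rw [card_erase_of_mem hx]
        omega
      rw [h0] at h
      have hne : ((U.card - k : ℕ) : ℂ) ≠ 0 := by
        have : U.card - k ≠ 0 := by omega
        exact_mod_cast this
      exact (mul_eq_zero.mp h.symm).resolve_left hne
  have hG0 : ∀ U ⊆ N, l ≤ U.card → G U = 0 := by
    intro U hU hm
    obtain ⟨s, hs⟩ := Nat.exists_eq_add_of_le hm
    exact hG0' s U hU hs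
  have hg : ∀ A : Finset ι, A ⊆ N → ∀ B : Finset ι, B ⊆ N → Disjoint A B →
      A.card + B.card + l ≤ N.card →
      ∑ W ∈ (powersetCard k N).filter (fun W => A ⊆ W ∧ Disjoint W B), u W = 0 := by
    intro A
    induction A using Finset.induction_on with
    | empty =>
      intro _ B hB _ hc
      have : (powersetCard k N).filter (fun W => ∅ ⊆ W ∧ Disjoint W B) =
          powersetCard k (N \ B) := by
        ext W
        simp only [mem_filter, mem_powersetCard, empty_subset, true_and]
        constructor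
        · rintro ⟨⟨h1, h2⟩, h3⟩
          refine ⟨fun x hx => mem_sdiff.mpr ⟨h1 hx, Finset.disjoint_left.mp h3 hx⟩, h2⟩
        · rintro ⟨h1, h2⟩
          refine ⟨⟨h1.trans sdiff_subset, h2⟩, Finset.disjoint_left.mpr fun x hx hxB => ?_⟩
          exact (mem_sdiff.mp (h1 hx)).2 hxB
      rw [this]
      refine hG0 (N \ B) sdiff_subset ?_
      rw [card_sdiff_of_subset hB]
      simp only [card_empty] at hc
      omega
    | insert x A' hx ih =>
      intro hA B hB hd hc
      have hxN : x ∈ N := hA (mem_insert_self x A')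
      have hxB : x ∉ B := Finset.disjoint_left.mp hd (mem_insert_self x A')
      have hA'N : A' ⊆ N := (subset_insert x A').trans hA
      have hd' : Disjoint A' B :=
        Finset.disjoint_of_subset_left (subset_insert x A') hd
      have hd2 : Disjoint A' (insert x B) := by
        rw [Finset.disjoint_insert_right]
        exact ⟨hx, hd'⟩
      rw [card_insert_of_notMem hx] at hc
      have e1 := ih hA'N B hB hd' (by omega)
      have e2 := ih hA'N (insert x B) (insert_subset hxN hB) hd2
        (by rw [card_insert_of_notMem hxB]; omega)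
      rw [← Finset.sum_filter_add_sum_filter_not _ (fun W => x ∈ W)] at e1
      have f1 : ((powersetCard k N).filter (fun W => A' ⊆ W ∧ Disjoint W B)).filter
          (fun W => x ∈ W) =
          (powersetCard k N).filter (fun W => insert x A' ⊆ W ∧ Disjoint W B) := by
        ext W
        simp only [mem_filter, insert_subset_iff]
        tauto
      have f2 : ((powersetCard k N).filter (fun W => A' ⊆ W ∧ Disjoint W B)).filter
          (fun W => ¬ x ∈ W) =
          (powersetCard k N).filter (fun W => A' ⊆ W ∧ Disjoint W (insert x B)) := by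
        ext W
        simp only [mem_filter, Finset.disjoint_insert_right]
        tauto
      rw [f1, f2, e2, add_zero] at e1
      exact e1
  intro T hT hc
  have := hg T hT ∅ (empty_subset _) (disjoint_empty_right _) (by simp; omega)
  have e : (powersetCard k N).filter (fun W => T ⊆ W ∧ Disjoint W ∅) = {T} := by
    ext W
    simp only [mem_filter, mem_powersetCard, disjoint_empty_right, and_true, mem_singleton]
    constructor
    · rintro ⟨⟨_, h2⟩, h3⟩
      exact (Finset.eq_of_subset_of_card_le h3 (by omega)).symm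
    · rintro rfl
      exact ⟨⟨hT, hc⟩, Subset.refl _⟩
  rw [e, sum_singleton] at this
  exact this

/-- Rows at most `τ` vanish, at level `τ + γ`: the base case. -/
theorem zlow_base {a γ τ : ℕ} (ha : 0 < a) (hγ : a * a ≤ 2 * a + 2 * γ) (hτ : τ + 1 = a)
    (D : Finset ι) (F : (Fin a → Finset ι) → ℂ) (hSy : Sy F) (hRB : RB (τ + γ) F)
    (hK : KQ (τ + γ) D F) (R : Fin a → Finset ι) (hR : R ∈ fill a D)
    (hrows : ∀ i, (R i).card ≤ τ) : F R = 0 := by
  have hD : D.card ≤ a * τ := by
    rw [card_fill_row_le (mem_fill.mp hR)]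
    calc ∑ i, (R i).card ≤ ∑ _i : Fin a, τ := Finset.sum_le_sum fun i _ => hrows i
      _ = a * τ := by simp
  refine main_t1 (τ + γ) a D ha (by omega) ?_ F hSy hRB hK R hR
  have : a * τ + a = a * a := by
    rw [← hτ]; ring
  omega

/-- Rows at most `τ` vanish, at level `τ + γ`: the step. -/
theorem zlow_step {a γ τ : ℕ} (hτ : a ≤ τ + 1)
    (ih : ∀ (D : Finset ι) (F : (Fin a → Finset ι) → ℂ), Sy F → RB (τ + γ) F → KQ (τ + γ) D F →
      ∀ R ∈ fill a D, (∀ i, (R i).card ≤ τ) → F R = 0)
    (D : Finset ι) (F : (Fin a → Finset ι) → ℂ) (hSy : Sy F) (hK : KQ (τ + γ + 1) D F)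
    (R : Fin a → Finset ι) (hR : R ∈ fill a D)
    (hrows : ∀ i, (R i).card ≤ τ + 1) : F R = 0 := by
  have hH : HH a (τ + 1) D 0 (trunc (τ + 1) F) := by
    intro J hJ _ R' hR' hr
    have hG := ih (D \ J) (trunc (τ + γ) (up F J)) (sy_trunc (sy_up hSy)) (rb_trunc _ _)
      (kq_trunc hJ hK) R' hR' (fun i => by have := hr i; omega)
    rw [trunc_of_le (fun i => by have := hr i; omega)] at hG
    rw [← hG]
    unfold up
    refine Finset.sum_congr rfl fun A hA => ?_
    refine trunc_of_le fun i => ?_
    have h1 := (mem_asg.mp hA).2 i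
    have h2 := hr i
    calc (R' i ∪ A i).card ≤ (R' i).card + (A i).card := card_union_le _ _
      _ ≤ τ + 1 := by omega
  have := t0 a hτ D (trunc (τ + 1) F) (sy_trunc hSy) (rb_trunc _ _) hH R hR
  rwa [trunc_of_le hrows] at this

/-- Rows at most `τ` vanish at level `τ + γ`. -/
theorem zlow {a γ : ℕ} (ha : 0 < a) (hγ : a * a ≤ 2 * a + 2 * γ) (τ : ℕ) (hτ : a ≤ τ + 1) :
    ∀ (D : Finset ι) (F : (Fin a → Finset ι) → ℂ), Sy F → RB (τ + γ) F → KQ (τ + γ) D F →
      ∀ R ∈ fill a D, (∀ i, (R i).card ≤ τ) → F R = 0 := by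
  induction τ with
  | zero =>
    intro D F hSy hRB hK R hR hrows
    exact zlow_base ha hγ (by omega) D F hSy hRB hK R hR hrows
  | succ τ ih =>
    intro D F hSy hRB hK R hR hrows
    by_cases h : a ≤ τ + 1
    · refine zlow_step h (ih h) D F hSy ?_ R hR hrows
      have e : τ + γ + 1 = τ + 1 + γ := by omega
      rw [e]
      exact hK
    · exact zlow_base ha hγ (by omega) D F hSy hRB hK R hR hrows

/-- The weight of the iterated collapse. -/
noncomputable def wt (b : ℕ) (R' A : Fin n → Finset ι) : ℂ :=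
  ∏ i, (((b - (R' i).card).descFactorial (A i).card : ℕ) : ℂ)

theorem isFill_oneAt (z : ι) (i : Fin n) : IsFill (oneAt (n := n) z i) {z} := by
  rw [isFill_iff]
  constructor
  · intro y
    simp only [mem_singleton, mem_oneAt]
    constructor
    · rintro rfl
      exact ⟨i, rfl, rfl⟩
    · rintro ⟨_, _, h⟩
      exact h
  · intro y l m hl hm
    rw [(mem_oneAt.mp hl).1, (mem_oneAt.mp hm).1]

/-- One step on the weights. -/
theorem wt_step {b : ℕ} {z : ι} {R' A : Fin n → Finset ι} (hzR : ∀ k, z ∉ R' k)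
    (hzA : ∀ k, z ∉ A k) (i : Fin n) :
    ((b - (R' i).card : ℕ) : ℂ) * wt b (fun k => R' k ∪ oneAt z i k) A =
      wt b R' (fun k => A k ∪ oneAt z i k) := by
  classical
  unfold wt
  rw [← Finset.mul_prod_erase univ _ (mem_univ i), ← Finset.mul_prod_erase univ _ (mem_univ i)]
  have hrest : ∏ k ∈ univ.erase i,
      (((b - (R' k ∪ oneAt z i k).card).descFactorial (A k).card : ℕ) : ℂ) =
      ∏ k ∈ univ.erase i,
      (((b - (R' k).card).descFactorial (A k ∪ oneAt z i k).card : ℕ) : ℂ) := by
    refine Finset.prod_congr rfl fun k hk => ?_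
    have hk' : k ≠ i := (mem_erase.mp hk).1
    simp only [oneAt, if_neg hk', union_empty]
  rw [hrest, ← mul_assoc]
  congr 1
  have h1 : (R' i ∪ oneAt z i i).card = (R' i).card + 1 := by
    simp only [oneAt, if_true]
    rw [card_union_of_disjoint (by simpa using hzR i), card_singleton]
  have h2 : (A i ∪ oneAt z i i).card = (A i).card + 1 := by
    simp only [oneAt, if_true]
    rw [card_union_of_disjoint (by simpa using hzA i), card_singleton]
  rw [h1, h2]
  generalize (A i).card = c
  generalize (R' i).card = r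
  by_cases h : b - r = 0
  · rw [h]
    simp
  · obtain ⟨m, hm⟩ : ∃ m, b - r = m + 1 := ⟨b - r - 1, by omega⟩
    have : b - (r + 1) = m := by omega
    rw [this, hm, Nat.succ_descFactorial_succ]
    push_cast
    ring

/-- The iterated collapse over a set of letters. -/
theorem exists_collapse {a b : ℕ} {D : Finset ι} {F : (Fin a → Finset ι) → ℂ} (hSy : Sy F)
    (hRB : RB b F) (hK : KQ b D F) (Y : Finset ι) :
    Y ⊆ D → ∃ G : (Fin a → Finset ι) → ℂ, Sy G ∧ RB b G ∧ KQ b (D \ Y) G ∧
      ∀ R' ∈ fill a (D \ Y), G R' = ∑ A ∈ fill a Y, wt b R' A * F (fun i => R' i ∪ A i) := by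
  induction Y using Finset.induction_on with
  | empty =>
    intro _
    refine ⟨F, hSy, hRB, by simpa using hK, fun R' _ => ?_⟩
    have hf : fill a (∅ : Finset ι) = {fun _ => ∅} := by
      ext S
      rw [mem_singleton]
      constructor
      · intro hS
        funext i
        exact Finset.subset_empty.mp ((mem_fill.mp hS).subset i)
      · rintro rfl
        rw [mem_fill, isFill_iff]
        simp
    rw [hf, sum_singleton]
    simp [wt]
  | insert z Y hz ih =>
    intro hY
    obtain ⟨G, hG1, hG2, hG3, hG4⟩ := ih ((subset_insert z Y).trans hY)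
    have hzD : z ∈ D \ Y := mem_sdiff.mpr ⟨hY (mem_insert_self z Y), hz⟩
    have eD : (D \ Y) \ {z} = D \ insert z Y := by
      ext x
      simp only [mem_sdiff, mem_singleton, mem_insert, not_or]
      tauto
    refine ⟨collapseF b z G, sy_collapseF hG1, rb_collapseF hG2, ?_, fun R' hR' => ?_⟩
    · rw [← eD]
      exact kq_collapseF hzD hG3
    · have hR'1 : IsFill R' ((D \ Y) \ {z}) := by
        rw [eD]
        exact mem_fill.mp hR'
      have hzR : ∀ k, z ∉ R' k := fun k h =>
        (mem_sdiff.mp (hR'1.subset k h)).2 (mem_singleton_self z)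
      have eY : (insert z Y) \ {z} = Y := by
        ext x
        simp only [mem_sdiff, mem_insert, mem_singleton]
        constructor
        · rintro ⟨h1 | h1, h2⟩
          · exact absurd h1 h2
          · exact h1
        · intro h
          exact ⟨Or.inr h, fun h' => hz (h' ▸ h)⟩
      rw [sum_fill_singleton (mem_insert_self z Y), eY]
      unfold collapseF
      rw [Finset.sum_comm]
      refine Finset.sum_congr rfl fun i _ => ?_
      have hfill : (fun k => R' k ∪ oneAt z i k) ∈ fill a (D \ Y) :=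
        mem_fill.mpr (isFill_union (singleton_subset_iff.mpr hzD) hR'1 (isFill_oneAt z i))
      rw [hG4 _ hfill, Finset.mul_sum]
      refine Finset.sum_congr rfl fun A hA => ?_
      have hzA : ∀ k, z ∉ A k := fun k h => hz ((mem_fill.mp hA).subset k h)
      rw [← mul_assoc, wt_step hzR hzA i]
      congr 2
      funext k
      rw [union_assoc, union_comm (oneAt z i k)]

/-- The relation on fillings with all rows of size `b`. -/
theorem relation_L {a b γ : ℕ} (ha : 0 < a) (hγ : a * a ≤ 2 * a + 2 * γ)
    (hbγ : γ ≤ b) (hτ : a ≤ (b - γ) + 1) {D : Finset ι} {F : (Fin a → Finset ι) → ℂ}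
    (hSy : Sy F) (hRB : RB b F) (hK : KQ b D F) {Y : Finset ι} (hY : Y ⊆ D)
    (hc : Y.card = a * γ) {R' : Fin a → Finset ι} (hR' : R' ∈ fill a (D \ Y))
    (hrows : ∀ i, (R' i).card = b - γ) :
    ∑ A ∈ fill a Y, ind (∀ i, (A i).card = γ) * F (fun i => R' i ∪ A i) = 0 := by
  obtain ⟨G, hG1, hG2, hG3, hG4⟩ := exists_collapse hSy hRB hK Y hY
  have e : b - γ + γ = b := by omega
  have hz := zlow (ι := ι) ha hγ (b - γ) hτ (D \ Y) G hG1 (by rw [e]; exact hG2)
    (by rw [e]; exact hG3) R' hR' (fun i => (hrows i).le)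
  rw [hG4 R' hR'] at hz
  have hne : ((γ.factorial : ℂ) ^ a) ≠ 0 :=
    pow_ne_zero _ (by exact_mod_cast γ.factorial_ne_zero)
  have hterm : ∀ A ∈ fill a Y, wt b R' A * F (fun i => R' i ∪ A i) =
      (γ.factorial : ℂ) ^ a * (ind (∀ i, (A i).card = γ) * F (fun i => R' i ∪ A i)) := by
    intro A hA
    have hA' := mem_fill.mp hA
    have hw : wt b R' A = ∏ i, ((γ.descFactorial (A i).card : ℕ) : ℂ) := by
      unfold wt
      refine Finset.prod_congr rfl fun i _ => ?_
      rw [hrows i]
      have : b - (b - γ) = γ := by omega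
      rw [this]
    by_cases hall : ∀ i, (A i).card = γ
    · rw [ind_true hall, one_mul, hw]
      congr 1
      rw [Finset.prod_congr rfl fun i _ => by rw [hall i, Nat.descFactorial_self]]
      simp
    · rw [ind_false hall, zero_mul, mul_zero]
      have hex : ∃ i, γ < (A i).card := by
        by_contra hno
        push Not at hno
        obtain ⟨i, hi⟩ := not_forall.mp hall
        have hlt : ∑ k, (A k).card < ∑ _k : Fin a, γ :=
          Finset.sum_lt_sum (fun k _ => hno k) ⟨i, mem_univ i, lt_of_le_of_ne (hno i) hi⟩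
        rw [← card_fill_row_le hA', hc] at hlt
        simp at hlt
      obtain ⟨i, hi⟩ := hex
      rw [hw, Finset.prod_eq_zero (mem_univ i), zero_mul]
      rw [Nat.descFactorial_eq_zero_iff_lt.mpr hi]
      simp
  rw [Finset.sum_congr rfl hterm, ← Finset.mul_sum] at hz
  exact (mul_eq_zero.mp hz).resolve_left hne

/-- The relations `LL`, the hypothesis for the peeling of all rows. -/
def LL (γ b n : ℕ) (D : Finset ι) (G : (Fin n → Finset ι) → ℂ) : Prop :=
  ∀ Y ⊆ D, Y.card = n * γ → ∀ R' ∈ fill n (D \ Y), (∀ i, (R' i).card = b - γ) →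
    ∑ A ∈ fill n Y, ind (∀ i, (A i).card = γ) * G (fun i => R' i ∪ A i) = 0

/-- One step of the peeling. -/
theorem peel_LL {γ b n : ℕ} (hn : (n + 1) * γ ≤ b) {D S : Finset ι}
    {G : (Fin (n + 1) → Finset ι) → ℂ} (hL : LL γ b (n + 1) D G) (hS : S ⊆ D)
    (hcS : S.card = b) : LL γ b n (D \ S) (fun R => G (Fin.cons S R)) := by
  intro Y' hY' hc R'' hR'' hrows
  have hdisj : Disjoint S Y' := Finset.disjoint_left.mpr fun x hx hxY =>
    (mem_sdiff.mp (hY' hxY)).2 hx
  set N := S ∪ Y' with hN
  have hcardN : N.card = b + n * γ := by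
    rw [hN, card_union_of_disjoint hdisj, hcS, hc]
  have hNY : N \ Y' = S := by
    rw [hN, union_sdiff_right]
    exact sdiff_eq_self_of_disjoint hdisj
  have hND : N ⊆ D := union_subset hS fun x hx => (mem_sdiff.mp (hY' hx)).1
  have e1 : (n + 1) * γ = n * γ + γ := by ring
  let u : Finset ι → ℂ := fun W => ∑ A ∈ fill n W, ind (∀ i, (A i).card = γ) *
    G (Fin.cons (N \ W) fun i => R'' i ∪ A i)
  have key := inclusion_lemma N u (n * γ) ((n + 1) * γ) (by omega) ?_ (by omega) Y'
    subset_union_right hc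
  · simpa [u, hNY] using key
  · intro U hU hcU
    have hUD := hU.trans hND
    have hfill : (Fin.cons (N \ U) R'' : Fin (n + 1) → Finset ι) ∈ fill (n + 1) (D \ U) := by
      rw [mem_fill, isFill_cons_iff]
      refine ⟨sdiff_subset_sdiff hND (Subset.refl _), ?_⟩
      have e : (D \ U) \ (N \ U) = (D \ S) \ Y' := by
        ext x
        simp only [mem_sdiff, hN, mem_union, not_and, not_not]
        constructor
        · rintro ⟨⟨hxD, hxU⟩, hx⟩
          by_cases hxS : x ∈ S
          · exact absurd (hx (Or.inl hxS)) hxU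
          · by_cases hxT : x ∈ Y'
            · exact absurd (hx (Or.inr hxT)) hxU
            · exact ⟨⟨hxD, hxS⟩, hxT⟩
        · rintro ⟨⟨hxD, hxS⟩, hxT⟩
          refine ⟨⟨hxD, fun hxU => ?_⟩, fun hx => ?_⟩
          · rcases mem_union.mp (hU hxU) with h | h
            · exact hxS h
            · exact hxT h
          · rcases hx with h | h
            · exact absurd h hxS
            · exact absurd h hxT
      rw [e]
      exact mem_fill.mp hR''
    have hr : ∀ i, ((Fin.cons (N \ U) R'' : Fin (n + 1) → Finset ι) i).card = b - γ := by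
      rw [Fin.forall_fin_succ]
      refine ⟨?_, fun i => by simpa using hrows i⟩
      simp only [Fin.cons_zero]
      rw [card_sdiff_of_subset hU]
      omega
    have h := hL U hUD hcU _ hfill hr
    rw [sum_fill_succ] at h
    have hcons : ∀ (A₀ : Finset ι) (A' : Fin n → Finset ι),
        (fun i => (Fin.cons (N \ U) R'' : Fin (n + 1) → Finset ι) i ∪
            (Fin.cons A₀ A' : Fin (n + 1) → Finset ι) i) =
          (Fin.cons ((N \ U) ∪ A₀) fun i => R'' i ∪ A' i : Fin (n + 1) → Finset ι) := by
      intro A₀ A'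
      funext i
      refine Fin.cases ?_ (fun i => ?_) i <;> simp
    have hforall : ∀ (A₀ : Finset ι) (A' : Fin n → Finset ι),
        (∀ i, ((Fin.cons A₀ A' : Fin (n + 1) → Finset ι) i).card = γ) ↔
          A₀.card = γ ∧ ∀ i, (A' i).card = γ := by
      intro A₀ A'
      rw [Fin.forall_fin_succ]
      simp
    have hinner : ∀ A₀ ∈ U.powerset, (∑ A' ∈ fill n (U \ A₀),
        ind (∀ i, ((Fin.cons A₀ A' : Fin (n + 1) → Finset ι) i).card = γ) *
          G (fun i => (Fin.cons (N \ U) R'' : Fin (n + 1) → Finset ι) i ∪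
            (Fin.cons A₀ A' : Fin (n + 1) → Finset ι) i)) =
        ind (A₀.card = γ) * u (U \ A₀) := by
      intro A₀ hA₀
      have hA₀U := mem_powerset.mp hA₀
      have eW : N \ (U \ A₀) = (N \ U) ∪ A₀ := by
        ext x
        simp only [mem_sdiff, mem_union, not_and, not_not]
        constructor
        · rintro ⟨hx, hx2⟩
          by_cases hxU : x ∈ U
          · exact Or.inr (hx2 hxU)
          · exact Or.inl ⟨hx, hxU⟩
        · rintro (⟨hx, hx2⟩ | hx)
          · exact ⟨hx, fun h => absurd h hx2⟩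
          · exact ⟨hU (hA₀U hx), fun _ => hx⟩
      simp only [u]
      rw [Finset.mul_sum]
      refine Finset.sum_congr rfl fun A' _ => ?_
      rw [hcons, ind_congr (hforall A₀ A'), ind_and, eW, mul_assoc]
    rw [Finset.sum_congr rfl hinner] at h
    rw [← h]
    symm
    have hfilter : ∑ A₀ ∈ U.powerset, ind (A₀.card = γ) * u (U \ A₀) =
        ∑ A₀ ∈ powersetCard γ U, u (U \ A₀) := by
      rw [powersetCard_eq_filter, Finset.sum_filter]
      refine Finset.sum_congr rfl fun A₀ _ => ?_
      by_cases hA : A₀.card = γ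
      · rw [if_pos hA, ind_true hA, one_mul]
      · rw [if_neg hA, ind_false hA, zero_mul]
    rw [hfilter]
    refine Finset.sum_nbij' (fun A₀ => U \ A₀) (fun W => U \ W) ?_ ?_ ?_ ?_ ?_
    · intro A₀ hA₀
      obtain ⟨h1, h2⟩ := mem_powersetCard.mp hA₀
      refine mem_powersetCard.mpr ⟨sdiff_subset, ?_⟩
      rw [card_sdiff_of_subset h1, hcU, h2]
      omega
    · intro W hW
      obtain ⟨h1, h2⟩ := mem_powersetCard.mp hW
      refine mem_powersetCard.mpr ⟨sdiff_subset, ?_⟩
      rw [card_sdiff_of_subset h1, hcU, h2]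
      omega
    · intro A₀ hA₀
      exact Finset.sdiff_sdiff_eq_self (mem_powersetCard.mp hA₀).1
    · intro W hW
      exact Finset.sdiff_sdiff_eq_self (mem_powersetCard.mp hW).1
    · intro A₀ _
      rfl

/-- The peeling of all rows. -/
theorem peel_all {γ b : ℕ} : ∀ (n : ℕ), n * γ ≤ b → ∀ (D : Finset ι)
    (G : (Fin n → Finset ι) → ℂ), LL γ b n D G →
    ∀ R ∈ fill n D, (∀ i, (R i).card = b) → G R = 0 := by
  intro n
  induction n with
  | zero =>
    intro _ D G hL R hR _
    have hD : D = ∅ := by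
      rw [← (mem_fill.mp hR).2]
      simp
    subst hD
    have hf : fill 0 (∅ : Finset ι) = {R} := by
      ext S
      rw [mem_singleton]
      constructor
      · intro _
        exact Subsingleton.elim _ _
      · rintro rfl
        exact hR
    have h := hL ∅ (Subset.refl _) (by simp) R (by simpa using hR) (fun i => i.elim0)
    rw [hf, sum_singleton, ind_true (fun i => i.elim0), one_mul] at h
    rwa [show (fun i => R i ∪ R i) = R from funext fun i => i.elim0] at h
  | succ n ih =>
    intro hn D G hL R hR hrows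
    have hR' := mem_fill.mp hR
    have hcons : (Fin.cons (R 0) (Fin.tail R) : Fin (n + 1) → Finset ι) = R :=
      Fin.cons_self_tail (α := fun _ => Finset ι) R
    have hc : IsFill (Fin.cons (R 0) (Fin.tail R) : Fin (n + 1) → Finset ι) D := by
      rwa [hcons]
    rw [isFill_cons_iff] at hc
    have hn' : n * γ ≤ b := by
      have : (n + 1) * γ = n * γ + γ := by ring
      omega
    have h := ih hn' (D \ R 0) (fun R'' => G (Fin.cons (R 0) R''))
      (peel_LL hn hL hc.1 (hrows 0)) (Fin.tail R) (mem_fill.mpr hc.2)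
      (fun i => hrows i.succ)
    simpa only [hcons] using h

/-- Injectivity in the rectangular case. -/
theorem cc_rect {a b γ : ℕ} (ha : 0 < a) (hγ : a * a ≤ 2 * a + 2 * γ) (hb : a * γ ≤ b)
    (hbγ : γ ≤ b) (hτ : a ≤ (b - γ) + 1) (D : Finset ι) (hD : D.card = a * b) : CC a b D := by
  intro F hSy hRB hK R hR
  have hR' := mem_fill.mp hR
  by_cases hall : ∀ i, (R i).card = b
  · refine peel_all a hb D F ?_ R hR hall
    intro Y hY hc R' hR' hrows
    exact relation_L ha hγ hbγ hτ hSy hRB hK hY hc hR' hrows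
  · have hex : ∃ i, b < (R i).card := by
      by_contra hno
      push Not at hno
      obtain ⟨i, hi⟩ := not_forall.mp hall
      have hlt : ∑ k, (R k).card < ∑ _k : Fin a, b :=
        Finset.sum_lt_sum (fun k _ => hno k) ⟨i, mem_univ i, lt_of_le_of_ne (hno i) hi⟩
      rw [← card_fill_row_le hR', hD] at hlt
      simp at hlt
    obtain ⟨i, hi⟩ := hex
    exact hRB R i hi

/-- The polynomial bound in combinatorial form. -/
theorem cc_cubic {a b : ℕ} (ha : 0 < a) (hb : a * ((a * (a - 2) + 1) / 2) ≤ b) (D : Finset ι)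
    (hD : D.card = a * b) : CC a b D := by
  rcases Nat.lt_or_ge a 3 with h | h
  · interval_cases a
    · exact full_one b D
    · exact full_two b D
  · set γ := (a * (a - 2) + 1) / 2 with hγdef
    have h2 : a * (a - 2) ≤ 2 * γ := by omega
    have h3 : a * a = a * (a - 2) + 2 * a := by
      obtain ⟨c, rfl⟩ : ∃ c, a = c + 2 := ⟨a - 2, by omega⟩
      simp only [Nat.add_sub_cancel]
      ring
    have hc1 : 3 ≤ a * (a - 2) := by
      obtain ⟨c, rfl⟩ : ∃ c, a = c + 3 := ⟨a - 3, by omega⟩
      have : c + 3 - 2 = c + 1 := by omega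
      rw [this]
      nlinarith
    have hγ1 : 1 ≤ γ := by omega
    have h4 : a * γ = (a - 1) * γ + γ := by
      obtain ⟨c, rfl⟩ : ∃ c, a = c + 1 := ⟨a - 1, by omega⟩
      simp only [Nat.add_sub_cancel]
      ring
    have h5 : a - 1 ≤ (a - 1) * γ := Nat.le_mul_of_pos_right _ (by omega)
    exact cc_rect ha (by omega) hb (by omega) (by omega) D hD

/-- The polynomial bound for the Foulkes-Howe map. -/
theorem cubic_injective (X : Type*) [Fintype X] [DecidableEq X] (a b : ℕ) (ha : 0 < a)
    (hb0 : 0 < b) (hb : a * ((a * (a - 2) + 1) / 2) ≤ b) :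
    ∃ Ψ : (Sym (Sym X b) a →₀ ℂ) →ₗ[ℂ] (Sym (Sym X a) b →₀ ℂ), IsFoulkesHowe Ψ ∧
      Function.Injective Ψ := by
  classical
  obtain ⟨Ψ, hΨ⟩ := exists_isFoulkesHowe X a b
  refine ⟨Ψ, hΨ, (injective_iff_map_eq_zero Ψ).mpr fun f hf => ?_⟩
  by_contra hne
  obtain ⟨P, hP⟩ : f.support.Nonempty := Finsupp.support_nonempty_iff.mpr hne
  obtain ⟨v, rfl⟩ := rowsOf_surjective P
  have := bridge hΨ hf v (v ⟨0, ha⟩ ⟨0, hb0⟩) (univ : Finset (Fin a × Fin b))
    (fun c hc => absurd (mem_univ c) hc) (cc_cubic ha hb _ (by simp))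
  exact (Finsupp.mem_support_iff.mp hP) this

end Vale.Agent.Lib.P181
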