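import Mathlib

/-!
The monomial model of the Foulkes-Howe map.
-/

namespace Vale.Agent.Lib.P181

/-- The multiset of entries of a tuple, as an element of the symmetric power of a type. -/
def symOf {α : Type*} {n : ℕ} (g : Fin n → α) : Sym α n :=
  ⟨Multiset.map g Finset.univ.val, by simp⟩

/-- The monomial of `Sym^a (Sym^b V)` given by the rows of an array of basis vectors. -/
def rowsOf {X : Type*} {a b : ℕ} (v : Fin a → Fin b → X) : Sym (Sym X b) a :=
  symOf fun i => symOf (v i)

/-- The monomial of `Sym^b (Sym^a V)` given by the columns of an array of basis vectors. -/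
def colsOf {X : Type*} {a b : ℕ} (v : Fin a → Fin b → X) : Sym (Sym X a) b :=
  symOf fun j => symOf fun i => v i j

/-- A linear map is the Foulkes-Howe map if it sends the monomial of an array to the sum over
all permutations within rows of the monomials of its columns. -/
def IsFoulkesHowe {X : Type*} {a b : ℕ}
    (Ψ : (Sym (Sym X b) a →₀ ℂ) →ₗ[ℂ] (Sym (Sym X a) b →₀ ℂ)) : Prop :=
  ∀ v : Fin a → Fin b → X,
    Ψ (Finsupp.single (rowsOf v) 1) =
      ∑ σ : Fin a → Equiv.Perm (Fin b), Finsupp.single (colsOf fun i j => v i (σ i j)) 1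

/-- The exponent of the letter `x₀` in a monomial of `Sym^a (Sym^b V)`. -/
def expo {X : Type*} [DecidableEq X] {a b : ℕ} (x₀ : X) (P : Sym (Sym X b) a) : ℕ :=
  (Multiset.map (fun m : Sym X b => Multiset.count x₀ m.1) P.1).sum

end Vale.Agent.Lib.P181
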