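import Vale.Agent.Lib.P181.Bridge

/-!
The first main theorem for the Foulkes-Howe map.
-/

open Finset

set_option linter.unusedSectionVars false

namespace Vale.Agent.Lib.P181

variable {X : Type*} [Fintype X] [DecidableEq X] {a b : ℕ}

theorem expo_rowsOf (x₀ : X) (v : Fin a → Fin b → X) :
    expo x₀ (rowsOf v) = (univ.filter fun c : Fin a × Fin b => v c.1 c.2 = x₀).card := by
  have h1 : expo x₀ (rowsOf v) = ∑ i, Multiset.count x₀ (Multiset.map (v i) univ.val) := by
    show (Multiset.map (fun m : Sym X b => Multiset.count x₀ m.1)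
      (Multiset.map (fun i => symOf (v i)) univ.val)).sum = _
    rw [Multiset.map_map]
    rfl
  rw [h1, Finset.card_filter, Fintype.sum_prod_type]
  refine Finset.sum_congr rfl fun i _ => ?_
  rw [Multiset.count_map, ← Finset.card_filter]
  show (univ.filter _).card = _
  congr 1
  ext j
  simp [eq_comm]

/-- Injectivity from the combinatorial statement, given a depth bound. -/
theorem inj_of_cc {Ψ : (Sym (Sym X b) a →₀ ℂ) →ₗ[ℂ] (Sym (Sym X a) b →₀ ℂ)} (hΨ : IsFoulkesHowe Ψ)
    (x₀ : X) (d : ℕ) (hC : ∀ D : Finset (Fin a × Fin b), D.card ≤ d → CC a b D)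
    {f : Sym (Sym X b) a →₀ ℂ} (hsupp : ∀ P ∈ f.support, a * b ≤ expo x₀ P + d)
    (hf : Ψ f = 0) : f = 0 := by
  classical
  by_contra hne
  obtain ⟨P, hP⟩ : f.support.Nonempty := Finsupp.support_nonempty_iff.mpr hne
  obtain ⟨v, rfl⟩ := rowsOf_surjective P
  have hb := hsupp _ hP
  rw [expo_rowsOf] at hb
  let D : Finset (Fin a × Fin b) := univ.filter fun c => ¬ v c.1 c.2 = x₀
  have hcard : D.card + (univ.filter fun c : Fin a × Fin b => v c.1 c.2 = x₀).card = a * b := by
    have := Finset.card_filter_add_card_filter_not (s := (univ : Finset (Fin a × Fin b)))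
      (fun c => v c.1 c.2 = x₀)
    rw [add_comm] at this
    simpa using this
  have hD : D.card ≤ d := by omega
  have := bridge hΨ hf v x₀ D (fun c hc => by
    by_contra h
    exact hc (mem_filter.mpr ⟨mem_univ _, h⟩)) (hC D hD)
  exact (Finsupp.mem_support_iff.mp hP) this

/-- The combinatorial statement in the range of the first main theorem. -/
theorem cc_range {ι : Type*} [DecidableEq ι] (a b : ℕ) (ha : 0 < a) (D : Finset ι)
    (hD : D.card ≤ max (b + 1) (2 * b + 2 - a)) : CC a b D := by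
  by_cases h : a ≤ b + 1
  · refine main_t1 b a D ha h ?_
    rcases le_max_iff.mp hD with h1 | h1 <;> omega
  · refine moebius a ha b D ?_
    rcases le_max_iff.mp hD with h1 | h1 <;> omega

/-- The Foulkes-Howe map is injective on monomials of small depth. -/
theorem depth_injective (x₀ : X) (a b : ℕ) (ha : 0 < a) :
    ∃ Ψ : (Sym (Sym X b) a →₀ ℂ) →ₗ[ℂ] (Sym (Sym X a) b →₀ ℂ), IsFoulkesHowe Ψ ∧
      ∀ f : Sym (Sym X b) a →₀ ℂ,
        (∀ P ∈ f.support, a * b ≤ expo x₀ P + max (b + 1) (2 * b + 2 - a)) →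
          Ψ f = 0 → f = 0 := by
  obtain ⟨Ψ, hΨ⟩ := exists_isFoulkesHowe X a b
  exact ⟨Ψ, hΨ, fun f hs hf =>
    inj_of_cc hΨ x₀ _ (fun D hD => cc_range a b ha D hD) hs hf⟩

end Vale.Agent.Lib.P181
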