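import Vale.Agent.Lib.P181.Newton

/-!
Exact vanishing: if `up F J` vanishes for `#J ≥ 2` then `F` vanishes on fillings
with at least two nonempty rows.
-/

open Finset

namespace Vale.Agent.Lib.P181

variable {ι : Type*} [DecidableEq ι] {n : ℕ}

/-- Symmetry under row permutations. -/
def Sy (F : (Fin n → Finset ι) → ℂ) : Prop :=
  ∀ (τ : Equiv.Perm (Fin n)) (R : Fin n → Finset ι), F (fun i => R (τ i)) = F R

/-- Number of nonempty rows. -/
def nne (R : Fin n → Finset ι) : ℕ := (univ.filter fun i => (R i).Nonempty).card

omit [DecidableEq ι] in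
theorem nne_le (R : Fin n → Finset ι) : nne R ≤ n := by
  unfold nne
  calc _ ≤ (univ : Finset (Fin n)).card := card_filter_le _ _
    _ = n := by simp

theorem coarsen {D : Finset ι} {R R₀ : Fin n → Finset ι} (hR : IsFill R D) (hR₀ : IsFill R₀ D)
    (h : ∀ i, KK (R₀ i) R) :
    nne R ≤ nne R₀ ∧ (nne R = nne R₀ → ∃ τ : Equiv.Perm (Fin n), ∀ i, R (τ i) = R₀ i) := by
  classical
  choose π hπ using h
  set P := univ.filter fun i => (R₀ i).Nonempty with hP
  set Q := univ.filter fun i => (R i).Nonempty with hQ
  have hmaps : ∀ i ∈ P, π i ∈ Q := by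
    intro i hi
    have := (mem_filter.mp hi).2
    exact mem_filter.mpr ⟨mem_univ _, this.mono (hπ i)⟩
  have hsurj : Set.SurjOn π P Q := by
    intro k hk
    obtain ⟨x, hx⟩ := (mem_filter.mp (Finset.mem_coe.mp hk)).2
    obtain ⟨i, hi⟩ := (hR₀.mem_iff x).mp ((hR.mem_iff x).mpr ⟨k, hx⟩)
    refine ⟨i, Finset.mem_coe.mpr (mem_filter.mpr ⟨mem_univ _, ⟨x, hi⟩⟩), ?_⟩
    exact hR.eq_of_mem (hπ i hi) hx
  refine ⟨card_le_card_of_surjOn π hsurj, fun heq => ?_⟩
  have hinj : Set.InjOn π P :=
    Finset.injOn_of_surjOn_of_card_le π hmaps hsurj (le_of_eq heq.symm)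
  have hrow : ∀ i ∈ P, R (π i) = R₀ i := by
    intro i hi
    refine Subset.antisymm (fun x hx => ?_) (hπ i)
    obtain ⟨i', hi'⟩ := (hR₀.mem_iff x).mp ((hR.mem_iff x).mpr ⟨π i, hx⟩)
    have h1 : π i' = π i := hR.eq_of_mem (hπ i' hi') hx
    have hi'P : i' ∈ P := mem_filter.mpr ⟨mem_univ _, ⟨x, hi'⟩⟩
    have h2 : i' = i := hinj (Finset.mem_coe.mpr hi'P) (Finset.mem_coe.mpr hi) h1
    exact h2 ▸ hi'
  let e : {i // i ∈ P} ≃ {k // k ∈ Q} :=
    Equiv.ofBijective (fun i => ⟨π i.1, hmaps i.1 i.2⟩) (by
      constructor
      · rintro ⟨i, hi⟩ ⟨j, hj⟩ hij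
        have : π i = π j := congrArg Subtype.val hij
        exact Subtype.ext (hinj (Finset.mem_coe.mpr hi) (Finset.mem_coe.mpr hj) this)
      · rintro ⟨k, hk⟩
        obtain ⟨i, hi, hik⟩ := hsurj (Finset.mem_coe.mpr hk)
        exact ⟨⟨i, Finset.mem_coe.mp hi⟩, Subtype.ext hik⟩)
  refine ⟨e.extendSubtype, fun i => ?_⟩
  by_cases hi : i ∈ P
  · rw [Equiv.extendSubtype_apply_of_mem e i hi]
    exact hrow i hi
  · have h1 : e.extendSubtype i ∉ Q := Equiv.extendSubtype_not_mem e i hi
    have h2 : ¬ (R (e.extendSubtype i)).Nonempty := fun h =>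
      h1 (mem_filter.mpr ⟨mem_univ _, h⟩)
    have h3 : ¬ (R₀ i).Nonempty := fun h => hi (mem_filter.mpr ⟨mem_univ _, h⟩)
    rw [not_nonempty_iff_eq_empty] at h2 h3
    rw [h2, h3]

theorem sum_prod_KK {D : Finset ι} {F : (Fin n → Finset ι) → ℂ} (hn : 0 < n) (hE : HE n 2 D F)
    {R₀ : Fin n → Finset ι} (hR₀ : IsFill R₀ D) (s : Finset (Fin n)) :
    ∑ R ∈ fill n D, (∏ i ∈ s, ind (KK (R₀ i) R)) * F R = ∑ R ∈ fill n D, F R := by
  classical
  induction s using Finset.induction_on with
  | empty => simp
  | insert i s hi ih =>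
    have hindep : Indep (n := n) (fun R => ∏ i' ∈ s, ind (KK (R₀ i') R)) (R₀ i) := by
      intro R
      refine Finset.prod_congr rfl fun i' hi' => ?_
      refine indep_ind_KK ?_ R
      exact hR₀.1 i' i (fun h => hi (h ▸ hi'))
    have := sum_KK hn hE _ (R₀ i) rfl (hR₀.subset i) _ hindep
    rw [← ih, ← this]
    refine Finset.sum_congr rfl fun R _ => ?_
    rw [Finset.prod_insert hi]

theorem kk_of_nne_le_one {D : Finset ι} {R : Fin n → Finset ι} (hn : 0 < n) (hR : IsFill R D)
    (h : nne R ≤ 1) : KK D R := by
  unfold nne at h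
  rcases Nat.le_one_iff_eq_zero_or_eq_one.mp h with h | h
  · refine ⟨⟨0, hn⟩, fun x hx => ?_⟩
    obtain ⟨i, hi⟩ := (hR.mem_iff x).mp hx
    have := Finset.card_eq_zero.mp h
    have hi' : i ∈ univ.filter fun i => (R i).Nonempty :=
      mem_filter.mpr ⟨mem_univ _, ⟨x, hi⟩⟩
    rw [this] at hi'
    simp at hi'
  · obtain ⟨k, hk⟩ := card_eq_one.mp h
    refine ⟨k, fun x hx => ?_⟩
    obtain ⟨i, hi⟩ := (hR.mem_iff x).mp hx
    have hi' : i ∈ univ.filter fun i => (R i).Nonempty :=
      mem_filter.mpr ⟨mem_univ _, ⟨x, hi⟩⟩
    rw [hk, mem_singleton] at hi'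
    exact hi' ▸ hi

theorem not_kk_of_two_le {D : Finset ι} {R : Fin n → Finset ι} (hR : IsFill R D)
    (h : 2 ≤ nne R) : ¬ KK D R := by
  rintro ⟨k, hk⟩
  have : (univ.filter fun i => (R i).Nonempty) ⊆ {k} := by
    intro i hi
    obtain ⟨x, hx⟩ := (mem_filter.mp hi).2
    have hxk : x ∈ R k := hk (hR.subset i hx)
    exact mem_singleton.mpr (hR.eq_of_mem hx hxk)
  have := card_le_card this
  unfold nne at h
  simp at this
  omega

theorem exact2 {D : Finset ι} {F : (Fin n → Finset ι) → ℂ} (hSy : Sy F) (hE : HE n 2 D F) :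
    ∀ R₀ ∈ fill n D, 2 ≤ nne R₀ → F R₀ = 0 := by
  classical
  suffices hmain : ∀ t : ℕ, ∀ R₀ ∈ fill n D, nne R₀ = t → 2 ≤ t → F R₀ = 0 from
    fun R₀ h1 h2 => hmain _ R₀ h1 rfl h2
  intro t
  induction t using Nat.strong_induction_on with
  | _ t ih =>
    intro R₀ hR₀ ht h2
    have hR₀' := mem_fill.mp hR₀
    have hn : 0 < n := by
      have := nne_le R₀
      omega
    have ha := sum_prod_KK hn hE hR₀' (univ : Finset (Fin n))
    have hb := sum_KK hn hE _ D rfl (Subset.refl _) (fun _ => 1) (fun _ => rfl)
    simp only [mul_one, one_mul] at hb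
    let Good : (Fin n → Finset ι) → Prop :=
      fun R => (∀ i, KK (R₀ i) R) ∧ ¬ KK D R ∧ nne R = t
    have hterm : ∀ R ∈ fill n D,
        (∏ i, ind (KK (R₀ i) R)) * F R - ind (KK D R) * F R =
          if Good R then F R₀ else 0 := by
      intro R hR
      have hR' := mem_fill.mp hR
      by_cases hall : ∀ i, KK (R₀ i) R
      · have hprod : (∏ i, ind (KK (R₀ i) R)) = 1 :=
          Finset.prod_eq_one fun i _ => ind_true (hall i)
        rw [hprod, one_mul]
        by_cases hD : KK D R
        · rw [ind_true hD, one_mul, sub_self, if_neg]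
          exact fun h => h.2.1 hD
        · rw [ind_false hD, zero_mul, sub_zero]
          have h2R : 2 ≤ nne R := by
            by_contra hlt
            exact hD (kk_of_nne_le_one hn hR' (by omega))
          obtain ⟨hle, himp⟩ := coarsen hR' hR₀' hall
          by_cases hEq : nne R = t
          · rw [if_pos ⟨hall, hD, hEq⟩]
            obtain ⟨τ, hτ⟩ := himp (hEq.trans ht.symm)
            have : R₀ = fun i => R (τ i) := by
              funext i
              exact (hτ i).symm
            rw [this, hSy τ R]
          · rw [if_neg (fun h => hEq h.2.2)]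
            exact ih (nne R) (by omega) R hR rfl h2R
      · obtain ⟨i, hi⟩ := not_forall.mp hall
        have hprod : (∏ i, ind (KK (R₀ i) R)) = 0 :=
          Finset.prod_eq_zero (mem_univ i) (ind_false hi)
        have hD : ¬ KK D R := by
          rintro ⟨k, hk⟩
          exact hi ⟨k, (hR₀'.subset i).trans hk⟩
        rw [hprod, ind_false hD, zero_mul, sub_zero, if_neg]
        exact fun h => hall h.1
    have hsum : ∑ R ∈ fill n D, (if Good R then F R₀ else 0) = 0 := by
      rw [← Finset.sum_congr rfl hterm, Finset.sum_sub_distrib, ha, hb, sub_self]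
    rw [← Finset.sum_filter, Finset.sum_const, nsmul_eq_mul] at hsum
    have hpos : ((fill n D).filter Good).Nonempty := by
      refine ⟨R₀, mem_filter.mpr ⟨hR₀, ?_, ?_, ht⟩⟩
      · intro i
        exact ⟨i, Subset.refl _⟩
      · exact not_kk_of_two_le hR₀' (ht ▸ h2)
    have hne : (((fill n D).filter Good).card : ℂ) ≠ 0 := by
      exact_mod_cast hpos.card_pos.ne'
    exact (mul_eq_zero.mp hsum).resolve_left hne

/-- The assignment of `x` to row `i`. -/
def oneAt (x : ι) (i : Fin n) : Fin n → Finset ι := fun k => if k = i then {x} else ∅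

theorem up_singleton (F : (Fin n → Finset ι) → ℂ) (x : ι) (R' : Fin n → Finset ι) :
    up F {x} R' = ∑ i, F (fun k => R' k ∪ oneAt x i k) := by
  classical
  unfold up
  symm
  refine Finset.sum_bij (fun i _ => oneAt x i) ?_ ?_ ?_ ?_
  · intro i _
    rw [mem_asg]
    constructor
    · rw [isFill_iff]
      constructor
      · intro y
        simp only [mem_singleton, oneAt]
        constructor
        · rintro rfl
          exact ⟨i, by simp⟩
        · rintro ⟨k, hk⟩
          split_ifs at hk
          · exact mem_singleton.mp hk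
          · simp at hk
      · intro y k l hk hl
        simp only [oneAt] at hk hl
        split_ifs at hk hl with h1 h2
        · rw [h1, h2]
        · simp at hl
        · simp at hk
        · simp at hl
    · intro k
      simp only [oneAt]
      split_ifs <;> simp
  · intro i _ j _ hij
    have := congrFun hij i
    simp only [oneAt, if_true] at this
    by_contra hne
    rw [if_neg hne] at this
    exact (singleton_ne_empty x) this
  · intro A hA
    obtain ⟨h1, h2⟩ := mem_asg.mp hA
    obtain ⟨i, hi⟩ := (h1.mem_iff x).mp (mem_singleton_self x)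
    refine ⟨i, mem_univ _, ?_⟩
    funext k
    simp only [oneAt]
    split_ifs with hk
    · subst hk
      refine (Finset.eq_of_subset_of_card_le (singleton_subset_iff.mpr hi) ?_)
      simpa using h2 k
    · symm
      rw [← not_nonempty_iff_eq_empty]
      rintro ⟨y, hy⟩
      have hy' : y = x := mem_singleton.mp (h1.subset k hy)
      subst hy'
      exact hk (h1.eq_of_mem hy hi)
  · intro i _
    rfl

/-- A Weyl-type theorem: if `up F J` vanishes for all nonempty `J` then `F` vanishes. -/
theorem weyl {D : Finset ι} {F : (Fin n → Finset ι) → ℂ} (hSy : Sy F) (hD : D.Nonempty)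
    (hE : HE n 1 D F) : ∀ R ∈ fill n D, F R = 0 := by
  classical
  have hE2 : HE n 2 D F := fun J hJ hc => hE J hJ (by omega)
  have hex := exact2 hSy hE2
  intro R hR
  have hR' := mem_fill.mp hR
  by_cases hnn : 2 ≤ nne R
  · exact hex R hR hnn
  · obtain ⟨x, hx⟩ := hD
    obtain ⟨k, hk⟩ := (hR'.mem_iff x).mp hx
    have hn : 0 < n := k.pos
    obtain ⟨k', hk'⟩ := kk_of_nne_le_one hn hR' (by omega)
    have hkk : k = k' := hR'.eq_of_mem hk (hk' hx)
    subst hkk
    have hRk : R k = D := Subset.antisymm (hR'.subset k) hk'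
    have hother : ∀ i, i ≠ k → R i = ∅ := by
      intro i hi
      rw [← not_nonempty_iff_eq_empty]
      rintro ⟨y, hy⟩
      exact hi (hR'.eq_of_mem hy (hk' (hR'.subset i hy)))
    set R' : Fin n → Finset ι := fun i => R i \ {x} with hR'def
    have hR'fill : R' ∈ fill n (D \ {x}) := mem_fill.mpr (isFill_sdiff {x} hR')
    have hup := hE {x} (singleton_subset_iff.mpr hx) (by simp) R' hR'fill
    rw [up_singleton] at hup
    have hRkeq : (fun i => R' i ∪ oneAt x k i) = R := by
      funext i
      by_cases hi : i = k
      · subst hi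
        simp only [oneAt, if_true, hR'def, hRk]
        exact sdiff_union_of_subset (singleton_subset_iff.mpr hx)
      · simp only [oneAt, if_neg hi, hR'def, hother i hi, union_empty, empty_sdiff]
    have hfillX : ∀ i, IsFill (fun l => R' l ∪ oneAt x i l) D := by
      intro i
      have hA : IsFill (oneAt (n := n) x i) {x} := by
        rw [isFill_iff]
        constructor
        · intro y
          simp only [mem_singleton, oneAt]
          constructor
          · rintro rfl
            exact ⟨i, by simp⟩
          · rintro ⟨l, hl⟩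
            split_ifs at hl
            · exact mem_singleton.mp hl
            · simp at hl
        · intro y l m hl hm
          simp only [oneAt] at hl hm
          split_ifs at hl hm with h1 h2
          · rw [h1, h2]
          · simp at hm
          · simp at hl
          · simp at hm
      exact isFill_union (singleton_subset_iff.mpr hx) (isFill_sdiff {x} hR') hA
    by_cases hDx : D = {x}
    · -- one element: all terms are equal
      have hall : ∀ i, F (fun l => R' l ∪ oneAt x i l) = F R := by
        intro i
        have hR'0 : ∀ l, R' l = ∅ := by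
          intro l
          simp only [hR'def]
          by_cases hl : l = k
          · subst hl; rw [hRk, hDx]; simp
          · rw [hother l hl]; simp
        have e : (fun l => R' l ∪ oneAt x i l) =
            fun l => R (Equiv.swap i k l) := by
          funext l
          simp only [hR'0, empty_union, oneAt]
          by_cases hl : l = i
          · subst hl
            simp [hRk, hDx]
          · rw [if_neg hl]
            by_cases hl2 : l = k
            · subst hl2
              rw [Equiv.swap_apply_right, hother i]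
              rintro rfl
              exact hl rfl
            · rw [Equiv.swap_apply_of_ne_of_ne hl hl2, hother l hl2]
        rw [e, hSy]
      rw [Finset.sum_congr rfl fun i _ => hall i, Finset.sum_const, nsmul_eq_mul] at hup
      have hne : (((univ : Finset (Fin n)).card : ℕ) : ℂ) ≠ 0 := by
        simp; omega
      exact (mul_eq_zero.mp hup).resolve_left hne
    · -- more elements: all other terms vanish
      rw [Finset.sum_eq_single k] at hup
      · rw [hRkeq] at hup
        exact hup
      · intro i _ hik
        refine hex _ (mem_fill.mpr (hfillX i)) ?_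
        -- two nonempty rows
        obtain ⟨y, hy, hyx⟩ : ∃ y ∈ D, y ≠ x := by
          by_contra hcon
          refine hDx (Subset.antisymm (fun y hy => mem_singleton.mpr ?_)
            (singleton_subset_iff.mpr hx))
          by_contra hyx
          exact hcon ⟨y, hy, hyx⟩
        have h1 : k ∈ univ.filter fun l => ((fun l => R' l ∪ oneAt x i l) l).Nonempty := by
          refine mem_filter.mpr ⟨mem_univ _, ⟨y, mem_union_left _ ?_⟩⟩
          simp only [hR'def, mem_sdiff, mem_singleton, hRk]
          exact ⟨hy, hyx⟩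
        have h2 : i ∈ univ.filter fun l => ((fun l => R' l ∪ oneAt x i l) l).Nonempty := by
          refine mem_filter.mpr ⟨mem_univ _, ⟨x, mem_union_right _ ?_⟩⟩
          simp [oneAt]
        unfold nne
        have : ({i, k} : Finset (Fin n)) ⊆
            univ.filter fun l => ((fun l => R' l ∪ oneAt x i l) l).Nonempty := by
          intro l hl
          simp only [mem_insert, mem_singleton] at hl
          rcases hl with rfl | rfl
          · exact h2
          · exact h1
        have hc := card_le_card this
        rw [card_pair hik] at hc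
        exact hc
      · intro h
        exact absurd (mem_univ k) h

end Vale.Agent.Lib.P181
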