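import Vale.Agent.Lib.P181.Collapse
import Vale.Agent.Lib.P181.Depth

/-!
The explicit bound: the numerical induction.
-/

open Finset

set_option linter.unusedSectionVars false

namespace Vale.Agent.Lib.P181

variable {ι : Type*} [DecidableEq ι]

theorem full_one (b : ℕ) (D : Finset ι) : CC 1 b D := by
  refine cc_full_of_depth (fun D hD => ?_) D
  have : D = ∅ := by
    rw [← card_eq_zero]
    simpa using hD
  rw [this]
  exact cc_empty 1 b

theorem full_two (b : ℕ) (D : Finset ι) : CC 2 b D := by
  refine cc_full_of_depth (fun D hD => ?_) D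
  exact moebius 2 (by norm_num) b D (by simp at hD; omega)

theorem full_three (b : ℕ) (hb : 4 ≤ b) (D : Finset ι) : CC 3 b D := by
  refine cc_full_of_depth (fun D hD => ?_) D
  simp only [show 3 - 1 = 2 from rfl] at hD
  by_cases hsmall : D.card + 3 ≤ 2 * b + 2
  · exact main_t1 b 3 D (by norm_num) (by omega) hsmall
  · obtain ⟨b', rfl⟩ : ∃ b', b = b' + 1 := ⟨b - 1, by omega⟩
    refine rec_step (a := 2) (b := b') (k := 0) (by omega) (by norm_num) (by simp; omega)
      (full_two _ D) ?_
    intro J hJ hc
    refine main_t1 b' 3 _ (by norm_num) (by omega) ?_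
    rw [card_sdiff_of_subset hJ]
    omega

/-- One level of the induction on the number of rows. -/
theorem level_step (B a : ℕ) (ha : 4 ≤ a) (hB : a * (a + 1) ≤ B)
    (hQ : ∀ (b i : ℕ), i + 4 ≤ a - 1 → ∀ D : Finset ι, D.card + 2 ^ (i + 1) * B ≤ (i + 4) * b →
      CC (a - 1) b D)
    (hF : ∀ b : ℕ, 2 ^ (a - 4) * B ≤ b → ∀ D : Finset ι, CC (a - 1) b D) :
    ∀ (b i : ℕ), i + 4 ≤ a → ∀ D : Finset ι, D.card + 2 ^ (i + 1) * B ≤ (i + 4) * b →
      CC a b D := by
  obtain ⟨a', rfl⟩ : ∃ a', a = a' + 1 := ⟨a - 1, by omega⟩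
  simp only [Nat.add_sub_cancel] at hQ hF
  have hB1 : (a' + 1) * a' + 2 * (a' + 1) ≤ B := by nlinarith
  have hB0 : 0 < B := by nlinarith
  intro b
  induction b with
  | zero =>
    intro i _ D hD
    have : 0 < 2 ^ (i + 1) * B := by positivity
    simp only [mul_zero] at hD
    omega
  | succ b ihb =>
    intro i
    induction i with
    | zero =>
      intro _ D hD
      simp only [zero_add, pow_one] at hD
      by_cases hsmall : D.card + (a' + 1) ≤ 2 * (b + 1) + 2
      · refine main_t1 (b + 1) (a' + 1) D (by omega) ?_ hsmall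
        nlinarith
      · have hbig : B ≤ b + 1 + a' := by omega
        have hB2 : (a' + 1) * a' + (a' + 1) + (a' + 1) ≤ B := by nlinarith
        refine rec_step (a := a') (b := b) (k := 1) (by nlinarith) (by omega) ?_ ?_ ?_
        · simp only [one_mul]
          nlinarith
        · by_cases h4 : 4 ≤ a'
          · exact hQ (b + 1) 0 (by omega) D (by simpa using hD)
          · have : a' = 3 := by omega
            subst this
            refine hF _ ?_ D
            simp only [Nat.sub_self, pow_zero, one_mul]
            omega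
        · intro J hJ hc
          refine ihb 0 (by omega) _ ?_
          rw [card_sdiff_of_subset hJ]
          simp only [zero_add, pow_one]
          omega
    | succ i ihi =>
      intro hi D hD
      by_cases hprev : D.card + 2 ^ (i + 1) * B ≤ (i + 4) * (b + 1)
      · exact ihi (by omega) D hprev
      · have hpow : 2 ^ (i + 1 + 1) * B = 2 * (2 ^ (i + 1) * B) := by ring
        have hmul1 : (i + 1 + 4) * (b + 1) = (i + 4) * (b + 1) + (b + 1) := by ring
        rw [hpow, hmul1] at hD
        have hb2 : 2 ^ (i + 1) * B ≤ b + 1 := by omega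
        have hBb : B ≤ b + 1 := by
          have : 1 ≤ 2 ^ (i + 1) := Nat.one_le_two_pow
          nlinarith
        refine rec_step (a := a') (b := b) (k := i + 2) (by nlinarith) (by omega) ?_ ?_ ?_
        · have e1 : (i + 4) * (b + 1) = (i + 2) * (b + 1) + 2 * (b + 1) := by ring
          omega
        · by_cases h5 : i + 1 + 4 ≤ a'
          · refine hQ (b + 1) (i + 1) h5 D ?_
            rw [hpow, hmul1]
            exact hD
          · refine hF _ ?_ D
            have e : a' + 1 - 4 = i + 1 := by omega
            rw [e]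
            exact hb2
        · intro J hJ hc
          refine ihb (i + 1) hi _ ?_
          rw [card_sdiff_of_subset hJ, hpow]
          have hmul2 : (i + 1 + 4) * b + (i + 1 + 4) = (i + 4) * (b + 1) + (b + 1) := by ring
          have := card_le_card hJ
          omega

/-- The induction on the number of rows. -/
theorem all_levels (B : ℕ) (a : ℕ) (ha : 3 ≤ a) (hB : a * (a + 1) ≤ B) :
    (∀ (b i : ℕ), i + 4 ≤ a → ∀ D : Finset ι, D.card + 2 ^ (i + 1) * B ≤ (i + 4) * b →
      CC a b D) ∧
    (∀ b : ℕ, 2 ^ (a - 3) * B ≤ b → ∀ D : Finset ι, CC a b D) := by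
  induction a, ha using Nat.le_induction with
  | base =>
    refine ⟨fun b i hi => by omega, fun b hb D => ?_⟩
    refine full_three b ?_ D
    simp only [Nat.sub_self, pow_zero, one_mul] at hb
    omega
  | succ a ha ih =>
    obtain ⟨ih1, ih2⟩ := ih (by nlinarith)
    have hQ := level_step (ι := ι) B (a + 1) (by
      rcases Nat.lt_or_ge a 3 with h | h
      · omega
      · omega) hB (by simpa using ih1) (by
        intro b hb D
        have e : a + 1 - 4 = a - 3 := by omega
        rw [e] at hb
        simpa using ih2 b hb D)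
    refine ⟨hQ, fun b hb D => ?_⟩
    refine cc_full_of_depth (fun D hD => ?_) D
    have e : a + 1 - 3 = (a - 3) + 1 := by omega
    refine hQ b (a - 3) (by omega) D ?_
    have e2 : a - 3 + 4 = a + 1 := by omega
    have e3 : a - 3 + 1 = a + 1 - 3 := by omega
    rw [e2, e3, add_mul, one_mul]
    simp only [Nat.add_sub_cancel] at hD
    omega

/-- The final form of the combinatorial theorem. -/
theorem cc_of_bound (a b : ℕ) (ha : 0 < a) (hb : a * (a + 1) * 2 ^ a ≤ 8 * b) (D : Finset ι) :
    CC a b D := by
  rcases Nat.lt_or_ge a 3 with h | h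
  · interval_cases a
    · exact full_one b D
    · exact full_two b D
  · have e : 2 ^ a = 2 ^ (a - 3) * 8 := by
      have : a = (a - 3) + 3 := by omega
      conv_lhs => rw [this, pow_add]
      norm_num
    refine (all_levels (a * (a + 1)) a h le_rfl).2 b ?_ D
    rw [e] at hb
    nlinarith

variable {X : Type*} [Fintype X] [DecidableEq X] {a b : ℕ}

/-- The explicit bound for the Foulkes-Howe map. -/
theorem explicit_injective (X : Type*) [Fintype X] [DecidableEq X] (a b : ℕ) (ha : 0 < a)
    (hb : a * (a + 1) * 2 ^ a ≤ 8 * b) :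
    ∃ Ψ : (Sym (Sym X b) a →₀ ℂ) →ₗ[ℂ] (Sym (Sym X a) b →₀ ℂ), IsFoulkesHowe Ψ ∧
      Function.Injective Ψ := by
  classical
  obtain ⟨Ψ, hΨ⟩ := exists_isFoulkesHowe X a b
  refine ⟨Ψ, hΨ, (injective_iff_map_eq_zero Ψ).mpr fun f hf => ?_⟩
  by_contra hne
  obtain ⟨P, hP⟩ : f.support.Nonempty := Finsupp.support_nonempty_iff.mpr hne
  obtain ⟨v, rfl⟩ := rowsOf_surjective P
  have hb0 : 0 < b := by
    by_contra h0
    have : b = 0 := by omega
    subst this
    have : 0 < a * (a + 1) * 2 ^ a := by positivity
    omega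
  have := bridge hΨ hf v (v ⟨0, ha⟩ ⟨0, hb0⟩) (univ : Finset (Fin a × Fin b))
    (fun c hc => absurd (mem_univ c) hc) (cc_of_bound a b ha hb _)
  exact (Finsupp.mem_support_iff.mp hP) this

end Vale.Agent.Lib.P181
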