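import Mathlib

/-!
Labelled rows: fillings of a finite set by pairwise disjoint rows, and the operators `up`.
-/

open Finset

namespace Vale.Agent.Lib.P181

variable {ι : Type*} [DecidableEq ι] {n : ℕ}

/-- `R` is a filling of `D` by `n` labelled rows. -/
def IsFill (R : Fin n → Finset ι) (D : Finset ι) : Prop :=
  (∀ i j, i ≠ j → Disjoint (R i) (R j)) ∧ univ.biUnion R = D

open Classical in
/-- The finite set of fillings. -/
noncomputable def fill (n : ℕ) (D : Finset ι) : Finset (Fin n → Finset ι) :=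
  (Fintype.piFinset fun _ => D.powerset).filter fun R => IsFill R D

theorem IsFill.subset {R : Fin n → Finset ι} {D : Finset ι} (h : IsFill R D) (i : Fin n) :
    R i ⊆ D := by
  rw [← h.2]
  exact subset_biUnion_of_mem R (mem_univ i)

theorem mem_fill {R : Fin n → Finset ι} {D : Finset ι} : R ∈ fill n D ↔ IsFill R D := by
  classical
  unfold fill
  simp only [mem_filter, Fintype.mem_piFinset, mem_powerset]
  exact ⟨fun h => h.2, fun h => ⟨h.subset, h⟩⟩

theorem IsFill.mem_iff {R : Fin n → Finset ι} {D : Finset ι} (h : IsFill R D) (x : ι) :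
    x ∈ D ↔ ∃ i, x ∈ R i := by
  rw [← h.2]; simp

theorem IsFill.eq_of_mem {R : Fin n → Finset ι} {D : Finset ι} (h : IsFill R D) {x : ι}
    {i j : Fin n} (hi : x ∈ R i) (hj : x ∈ R j) : i = j := by
  by_contra hne
  exact (Finset.disjoint_left.mp (h.1 i j hne)) hi hj

theorem isFill_iff {R : Fin n → Finset ι} {D : Finset ι} :
    IsFill R D ↔ (∀ x, x ∈ D ↔ ∃ i, x ∈ R i) ∧ ∀ x i j, x ∈ R i → x ∈ R j → i = j := by
  constructor
  · intro h
    exact ⟨h.mem_iff, fun x i j hi hj => h.eq_of_mem hi hj⟩
  · rintro ⟨h1, h2⟩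
    refine ⟨fun i j hij => Finset.disjoint_left.mpr fun x hi hj => hij (h2 x i j hi hj), ?_⟩
    ext x
    rw [h1]; simp

theorem card_fill_row_le {R : Fin n → Finset ι} {D : Finset ι} (h : IsFill R D) :
    D.card = ∑ i, (R i).card := by
  rw [← h.2]
  rw [card_biUnion]
  intro i _ j _ hij
  exact h.1 i j hij

theorem isFill_cons_iff {S : Finset ι} {R' : Fin n → Finset ι} {D : Finset ι} :
    IsFill (Fin.cons S R' : Fin (n + 1) → Finset ι) D ↔ S ⊆ D ∧ IsFill R' (D \ S) := by
  classical
  constructor
  · intro h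
    have h0 : S ⊆ D := by simpa using h.subset 0
    refine ⟨h0, ?_⟩
    rw [isFill_iff]
    refine ⟨fun x => ?_, fun x i j hi hj => ?_⟩
    · rw [mem_sdiff, h.mem_iff x]
      constructor
      · rintro ⟨⟨i, hi⟩, hS⟩
        refine Fin.cases (motive := fun i => x ∈ (Fin.cons S R' : Fin (n + 1) → Finset ι) i → _)
          (fun h' => ?_) (fun i h' => ?_) i hi
        · exact absurd (by simpa using h') hS
        · exact ⟨i, by simpa using h'⟩
      · rintro ⟨i, hi⟩
        refine ⟨⟨i.succ, by simpa using hi⟩, fun hS => ?_⟩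
        have := h.eq_of_mem (i := 0) (j := i.succ) (x := x) (by simpa using hS)
          (by simpa using hi)
        exact (Fin.succ_ne_zero i) this.symm
    · have := h.eq_of_mem (i := i.succ) (j := j.succ) (x := x) (by simpa using hi)
        (by simpa using hj)
      exact Fin.succ_injective _ this
  · rintro ⟨h0, h⟩
    rw [isFill_iff]
    refine ⟨fun x => ?_, fun x i j hi hj => ?_⟩
    · constructor
      · intro hx
        by_cases hS : x ∈ S
        · exact ⟨0, by simpa using hS⟩
        · obtain ⟨i, hi⟩ := (h.mem_iff x).mp (mem_sdiff.mpr ⟨hx, hS⟩)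
          exact ⟨i.succ, by simpa using hi⟩
      · rintro ⟨i, hi⟩
        refine Fin.cases (motive := fun i => x ∈ (Fin.cons S R' : Fin (n + 1) → Finset ι) i → _)
          (fun h' => ?_) (fun i h' => ?_) i hi
        · exact h0 (by simpa using h')
        · have : x ∈ D \ S := h.subset i (by simpa using h')
          exact (mem_sdiff.mp this).1
    · have key : ∀ k : Fin n, x ∈ R' k → x ∉ S := fun k hk =>
        (mem_sdiff.mp (h.subset k hk)).2
      revert hi hj
      refine Fin.cases ?_ (fun i => ?_) i <;> refine Fin.cases ?_ (fun j => ?_) j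
      · intros; rfl
      · intro hi hj
        exact absurd (by simpa using hi) (key j (by simpa using hj))
      · intro hi hj
        exact absurd (by simpa using hj) (key i (by simpa using hi))
      · intro hi hj
        have := h.eq_of_mem (x := x) (i := i) (j := j) (by simpa using hi) (by simpa using hj)
        rw [this]

/-- Sum over fillings with `n+1` rows: choose the first row. -/
theorem sum_fill_succ {β : Type*} [AddCommMonoid β] (D : Finset ι)
    (g : (Fin (n + 1) → Finset ι) → β) :
    ∑ R ∈ fill (n + 1) D, g R = ∑ S ∈ D.powerset, ∑ R' ∈ fill n (D \ S),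
      g (Fin.cons S R') := by
  rw [Finset.sum_sigma']
  refine Finset.sum_nbij' (fun R => ⟨R 0, Fin.tail R⟩)
    (fun p => (Fin.cons p.1 p.2 : Fin (n + 1) → Finset ι)) ?_ ?_ ?_ ?_ ?_
  · intro R hR
    have hR' := mem_fill.mp hR
    have hc : IsFill (Fin.cons (R 0) (Fin.tail R) : Fin (n + 1) → Finset ι) D := by
      rwa [Fin.cons_self_tail]
    rw [isFill_cons_iff] at hc
    simp only [mem_sigma, mem_powerset, mem_fill]
    exact hc
  · rintro ⟨S, R'⟩ hp
    simp only [mem_sigma, mem_powerset, mem_fill] at hp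
    exact mem_fill.mpr (isFill_cons_iff.mpr hp)
  · intro R _
    simp [Fin.cons_self_tail]
  · rintro ⟨S, R'⟩ _
    simp
  · intro R _
    simp [Fin.cons_self_tail]

theorem isFill_union {R' A : Fin n → Finset ι} {D J : Finset ι} (hJ : J ⊆ D)
    (hR' : IsFill R' (D \ J)) (hA : IsFill A J) :
    IsFill (fun i => R' i ∪ A i) D := by
  rw [isFill_iff]
  have hdis : ∀ x i j, x ∈ R' i → x ∈ A j → False := fun x i j h1 h2 =>
    (mem_sdiff.mp (hR'.subset i h1)).2 (hA.subset j h2)
  refine ⟨fun x => ?_, fun x i j hi hj => ?_⟩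
  · constructor
    · intro hx
      by_cases hxJ : x ∈ J
      · obtain ⟨i, hi⟩ := (hA.mem_iff x).mp hxJ
        exact ⟨i, mem_union_right _ hi⟩
      · obtain ⟨i, hi⟩ := (hR'.mem_iff x).mp (mem_sdiff.mpr ⟨hx, hxJ⟩)
        exact ⟨i, mem_union_left _ hi⟩
    · rintro ⟨i, hi⟩
      rcases mem_union.mp hi with h | h
      · exact (mem_sdiff.mp (hR'.subset i h)).1
      · exact hJ (hA.subset i h)
  · rcases mem_union.mp hi with h1 | h1 <;> rcases mem_union.mp hj with h2 | h2
    · exact hR'.eq_of_mem h1 h2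
    · exact (hdis x _ _ h1 h2).elim
    · exact (hdis x _ _ h2 h1).elim
    · exact hA.eq_of_mem h1 h2

theorem isFill_sdiff {R : Fin n → Finset ι} {D : Finset ι} (J : Finset ι) (hR : IsFill R D) :
    IsFill (fun i => R i \ J) (D \ J) := by
  rw [isFill_iff]
  refine ⟨fun x => ?_, fun x i j hi hj => ?_⟩
  · simp only [mem_sdiff, hR.mem_iff x]
    constructor
    · rintro ⟨⟨i, hi⟩, hx⟩
      exact ⟨i, hi, hx⟩
    · rintro ⟨i, hi, hx⟩
      exact ⟨⟨i, hi⟩, hx⟩
  · exact hR.eq_of_mem (mem_sdiff.mp hi).1 (mem_sdiff.mp hj).1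

theorem isFill_inter {R : Fin n → Finset ι} {D J : Finset ι} (hJ : J ⊆ D) (hR : IsFill R D) :
    IsFill (fun i => R i ∩ J) J := by
  rw [isFill_iff]
  refine ⟨fun x => ?_, fun x i j hi hj => ?_⟩
  · simp only [mem_inter]
    constructor
    · intro hx
      obtain ⟨i, hi⟩ := (hR.mem_iff x).mp (hJ hx)
      exact ⟨i, hi, hx⟩
    · rintro ⟨i, _, hx⟩
      exact hx
  · exact hR.eq_of_mem (mem_inter.mp hi).1 (mem_inter.mp hj).1

/-- Sum over fillings of `D`: split off the part inside `J`. -/
theorem sum_fill_split {β : Type*} [AddCommMonoid β] {D J : Finset ι} (hJ : J ⊆ D)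
    (g : (Fin n → Finset ι) → β) :
    ∑ R ∈ fill n D, g R =
      ∑ R' ∈ fill n (D \ J), ∑ A ∈ fill n J, g (fun i => R' i ∪ A i) := by
  rw [← Finset.sum_product']
  refine Finset.sum_nbij' (fun R => (fun i => R i \ J, fun i => R i ∩ J))
    (fun p i => p.1 i ∪ p.2 i) ?_ ?_ ?_ ?_ ?_
  · intro R hR
    have hR' := mem_fill.mp hR
    simp only [mem_product, mem_fill]
    exact ⟨isFill_sdiff J hR', isFill_inter hJ hR'⟩
  · rintro ⟨R', A⟩ hp
    simp only [mem_product, mem_fill] at hp
    exact mem_fill.mpr (isFill_union hJ hp.1 hp.2)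
  · intro R _
    funext i
    exact sdiff_union_inter (R i) J
  · rintro ⟨R', A⟩ hp
    simp only [mem_product, mem_fill] at hp
    have h1 : ∀ i, R' i ∩ J = ∅ := fun i => by
      ext x
      simp only [mem_inter, notMem_empty, iff_false, not_and]
      exact fun hx => (mem_sdiff.mp (hp.1.subset i hx)).2
    have h2 : ∀ i, A i ⊆ J := hp.2.subset
    ext i x
    · simp only [mem_sdiff, mem_union]
      constructor
      · rintro ⟨h | h, hx⟩
        · exact h
        · exact absurd (h2 i h) hx
      · intro h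
        exact ⟨Or.inl h, (mem_sdiff.mp (hp.1.subset i h)).2⟩
    · simp only [mem_inter, mem_union]
      constructor
      · rintro ⟨h | h, hx⟩
        · have := (mem_sdiff.mp (hp.1.subset i h)).2
          exact absurd hx this
        · exact h
      · intro h
        exact ⟨Or.inr h, h2 i h⟩
  · intro R _
    have : (fun i => (fun i => R i \ J) i ∪ (fun i => R i ∩ J) i) = R := by
      funext i
      exact sdiff_union_inter (R i) J
    simp only [this]

open Classical in
/-- Fillings of `J` with rows of size at most one. -/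
noncomputable def asg (n : ℕ) (J : Finset ι) : Finset (Fin n → Finset ι) :=
  (fill n J).filter fun A => ∀ i, (A i).card ≤ 1

theorem mem_asg {A : Fin n → Finset ι} {J : Finset ι} :
    A ∈ asg n J ↔ IsFill A J ∧ ∀ i, (A i).card ≤ 1 := by
  classical
  simp [asg, mem_filter, mem_fill]

/-- The operator `e_J`. -/
noncomputable def up (F : (Fin n → Finset ι) → ℂ) (J : Finset ι) (R' : Fin n → Finset ι) : ℂ :=
  ∑ A ∈ asg n J, F (fun i => R' i ∪ A i)

theorem sum_asg_eq_filter {β : Type*} [AddCommMonoid β] (J : Finset ι)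
    (g : (Fin n → Finset ι) → β) [∀ A : Fin n → Finset ι, Decidable (∀ i, (A i).card ≤ 1)] :
    ∑ A ∈ asg n J, g A = ∑ A ∈ fill n J, if (∀ i, (A i).card ≤ 1) then g A else 0 := by
  classical
  unfold asg
  rw [Finset.sum_filter]
  refine Finset.sum_congr rfl fun A _ => ?_
  congr 1

theorem asg_empty : asg n (∅ : Finset ι) = {fun _ => ∅} := by
  ext A
  simp only [mem_asg, mem_singleton]
  constructor
  · rintro ⟨h, -⟩
    funext i
    exact Finset.subset_empty.mp (h.subset i)
  · rintro rfl
    refine ⟨?_, fun i => by simp⟩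
    rw [isFill_iff]
    simp

theorem up_empty (F : (Fin n → Finset ι) → ℂ) (R' : Fin n → Finset ι) :
    up F ∅ R' = F R' := by
  simp [up, asg_empty]

theorem card_le_of_mem_asg {A : Fin n → Finset ι} {J : Finset ι} (h : A ∈ asg n J) :
    J.card ≤ n := by
  obtain ⟨h1, h2⟩ := mem_asg.mp h
  rw [card_fill_row_le h1]
  calc ∑ i, (A i).card ≤ ∑ _i : Fin n, 1 := Finset.sum_le_sum fun i _ => h2 i
    _ = n := by simp

theorem up_eq_zero_of_card (F : (Fin n → Finset ι) → ℂ) {J : Finset ι} (hJ : n < J.card)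
    (R' : Fin n → Finset ι) : up F J R' = 0 := by
  unfold up
  refine Finset.sum_eq_zero fun A hA => ?_
  exact absurd (card_le_of_mem_asg hA) (not_le.mpr hJ)

/-- Sum over subsets of size at most one. -/
theorem sum_powerset_card_le_one {β : Type*} [AddCommMonoid β] (J : Finset ι)
    (h : Finset ι → β) [DecidablePred fun S : Finset ι => S.card ≤ 1] :
    ∑ S ∈ J.powerset, (if S.card ≤ 1 then h S else 0) =
      h ∅ + ∑ x ∈ J, h {x} := by
  classical
  rw [← Finset.sum_filter]
  have : J.powerset.filter (fun S => S.card ≤ 1) = insert ∅ (J.image fun x => {x}) := by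
    ext S
    simp only [mem_filter, mem_powerset, mem_insert, mem_image]
    constructor
    · rintro ⟨hS, hc⟩
      rcases Nat.le_one_iff_eq_zero_or_eq_one.mp hc with h | h
      · exact Or.inl (Finset.card_eq_zero.mp h)
      · obtain ⟨x, rfl⟩ := Finset.card_eq_one.mp h
        exact Or.inr ⟨x, hS (mem_singleton_self x), rfl⟩
    · rintro (rfl | ⟨x, hx, rfl⟩)
      · simp
      · simp [hx]
  rw [this, Finset.sum_insert, Finset.sum_image]
  · intro x _ y _ hxy
    simpa using hxy
  · simp

/-- Recursion for `up` on the first row. -/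
theorem up_cons (F : (Fin (n + 1) → Finset ι) → ℂ) (J S : Finset ι) (R'' : Fin n → Finset ι) :
    up F J (Fin.cons S R'') =
      up (fun R => F (Fin.cons S R)) J R'' +
        ∑ x ∈ J, up (fun R => F (Fin.cons (insert x S) R)) (J.erase x) R'' := by
  classical
  unfold up
  rw [sum_asg_eq_filter, sum_fill_succ]
  have key : ∀ S' ∈ J.powerset,
      (∑ A' ∈ fill n (J \ S'),
        (if ∀ i, ((Fin.cons S' A' : Fin (n + 1) → Finset ι) i).card ≤ 1 then
          F (fun i => (Fin.cons S R'' : Fin (n + 1) → Finset ι) i ∪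
            (Fin.cons S' A' : Fin (n + 1) → Finset ι) i) else 0)) =
      if S'.card ≤ 1 then ∑ A' ∈ asg n (J \ S'),
          F (Fin.cons (S ∪ S') fun i => R'' i ∪ A' i) else 0 := by
    intro S' _
    have hcons : ∀ A' : Fin n → Finset ι,
        (fun i => (Fin.cons S R'' : Fin (n + 1) → Finset ι) i ∪
            (Fin.cons S' A' : Fin (n + 1) → Finset ι) i) =
          (Fin.cons (S ∪ S') fun i => R'' i ∪ A' i : Fin (n + 1) → Finset ι) := by
      intro A'
      funext i
      refine Fin.cases ?_ (fun i => ?_) i <;> simp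
    have hforall : ∀ A' : Fin n → Finset ι,
        (∀ i, ((Fin.cons S' A' : Fin (n + 1) → Finset ι) i).card ≤ 1) ↔
          S'.card ≤ 1 ∧ ∀ i, (A' i).card ≤ 1 := by
      intro A'
      rw [Fin.forall_fin_succ]
      simp
    by_cases hS' : S'.card ≤ 1
    · rw [if_pos hS', sum_asg_eq_filter]
      refine Finset.sum_congr rfl fun A' _ => ?_
      by_cases hA' : ∀ i, (A' i).card ≤ 1
      · rw [if_pos ((hforall A').mpr ⟨hS', hA'⟩), if_pos hA', hcons]
      · rw [if_neg (fun h => hA' ((hforall A').mp h).2), if_neg hA']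
    · rw [if_neg hS']
      refine Finset.sum_eq_zero fun A' _ => ?_
      rw [if_neg (fun h => hS' ((hforall A').mp h).1)]
  rw [Finset.sum_congr rfl key]
  rw [sum_powerset_card_le_one]
  congr 1
  · simp
  · refine Finset.sum_congr rfl fun x _ => ?_
    have h1 : J \ {x} = J.erase x := by
      ext y; simp [mem_sdiff, mem_erase, and_comm]
    have h2 : S ∪ {x} = insert x S := by
      ext y; simp
    rw [h1, h2]

end Vale.Agent.Lib.P181
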