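import Vale.Agent.Lib.P181.Defs

/-!
The Foulkes-Howe map as a sum over arrays.
-/

open Finset

namespace Vale.Agent.Lib.P181

variable {α : Type*} {n : ℕ}

theorem symOf_eq_iff {g g' : Fin n → α} :
    symOf g = symOf g' ↔ Multiset.map g univ.val = Multiset.map g' univ.val := by
  unfold symOf
  exact Subtype.ext_iff

theorem symOf_comp_perm (g : Fin n → α) (τ : Equiv.Perm (Fin n)) :
    symOf (fun i => g (τ i)) = symOf g := by
  rw [symOf_eq_iff]
  have : Multiset.map (fun i => g (τ i)) univ.val =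
      Multiset.map g (Multiset.map τ univ.val) := by
    rw [Multiset.map_map]
    rfl
  rw [this]
  congr 1
  have := Finset.map_univ_equiv τ
  have h2 := congrArg Finset.val this
  rwa [Finset.map_val] at h2

theorem exists_perm_of_symOf_eq {g g' : Fin n → α} (h : symOf g = symOf g') :
    ∃ ρ : Equiv.Perm (Fin n), ∀ k, g' k = g (ρ k) := by
  classical
  rw [symOf_eq_iff] at h
  have hc : ∀ c, Fintype.card {k // g' k = c} = Fintype.card {k // g k = c} := by
    intro c
    have := congrArg (Multiset.count c) h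
    rw [Multiset.count_map, Multiset.count_map] at this
    rw [Fintype.card_subtype, Fintype.card_subtype]
    simp only [Finset.card, Finset.filter_val]
    have e1 : ∀ f : Fin n → α, Multiset.filter (fun a => f a = c) univ.val =
        Multiset.filter (fun a => c = f a) univ.val := by
      intro f
      refine Multiset.filter_congr fun a _ => ?_
      exact eq_comm
    rw [e1, e1]
    exact this.symm
  let e : ∀ c, {k // g' k = c} ≃ {k // g k = c} := fun c => Fintype.equivOfCardEq (hc c)
  refine ⟨Equiv.ofFiberEquiv e, fun k => ?_⟩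
  exact (Equiv.ofFiberEquiv_map e k).symm

theorem symOf_surjective (P : Sym α n) : ∃ g : Fin n → α, symOf g = P := by
  obtain ⟨M, hM⟩ := P
  obtain ⟨l, rfl⟩ := Quotient.exists_rep M
  have hl : l.length = n := by simpa using hM
  subst hl
  refine ⟨l.get, Subtype.ext ?_⟩
  show Multiset.map l.get univ.val = _
  rw [Fin.univ_val_map]
  simp only [List.ofFn_get]
  rfl

variable {X : Type*} {a b : ℕ}

theorem rowsOf_surjective (P : Sym (Sym X b) a) : ∃ v : Fin a → Fin b → X, rowsOf v = P := by
  obtain ⟨g, rfl⟩ := symOf_surjective P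
  choose v hv using fun i => symOf_surjective (g i)
  refine ⟨v, ?_⟩
  unfold rowsOf
  congr 1
  funext i
  exact hv i

theorem rowsOf_comp_perm (v : Fin a → Fin b → X) (σ : Fin a → Equiv.Perm (Fin b)) :
    rowsOf (fun i j => v i (σ i j)) = rowsOf v := by
  unfold rowsOf
  congr 1
  funext i
  exact symOf_comp_perm (v i) (σ i)

theorem colsOf_comp_perm_rows (v : Fin a → Fin b → X) (τ : Equiv.Perm (Fin a)) :
    colsOf (fun i j => v (τ i) j) = colsOf v := by
  unfold colsOf
  congr 1
  funext j
  exact symOf_comp_perm (fun i => v i j) τ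

/-- The array sum defining the map. -/
noncomputable def wSum (v : Fin a → Fin b → X) : Sym (Sym X a) b →₀ ℂ :=
  ∑ σ : Fin a → Equiv.Perm (Fin b), Finsupp.single (colsOf fun i j => v i (σ i j)) 1

/-- Well-definedness of the array sum. -/
theorem wSum_eq_of_rowsOf_eq {v v' : Fin a → Fin b → X} (h : rowsOf v = rowsOf v') :
    wSum v = wSum v' := by
  classical
  obtain ⟨τ, hτ⟩ := exists_perm_of_symOf_eq h
  have hτ' : ∀ i, symOf (v (τ i)) = symOf (v' i) := fun i => (hτ i).symm
  choose σ₀ hσ₀ using fun i => exists_perm_of_symOf_eq (hτ' i)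
  -- v' i j = v (τ i) (σ₀ i j)
  unfold wSum
  symm
  refine Fintype.sum_equiv
    { toFun := fun σ i => σ₀ (τ.symm i) * σ (τ.symm i)
      invFun := fun σ i => (σ₀ i)⁻¹ * σ (τ i)
      left_inv := fun σ => by
        funext i
        simp
      right_inv := fun σ => by
        funext i
        simp } _ _ ?_
  intro σ
  congr 1
  have := colsOf_comp_perm_rows (fun i j => v i (σ₀ (τ.symm i) (σ (τ.symm i) j))) τ
  simp only [Equiv.symm_apply_apply] at this
  simp only [Equiv.coe_fn_mk, Equiv.Perm.coe_mul, Function.comp_apply]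
  rw [← this]
  unfold colsOf
  congr 1
  funext j
  congr 1
  funext i
  exact hσ₀ i _

/-- The Foulkes-Howe map exists. -/
theorem exists_isFoulkesHowe (X : Type*) (a b : ℕ) :
    ∃ Ψ : (Sym (Sym X b) a →₀ ℂ) →ₗ[ℂ] (Sym (Sym X a) b →₀ ℂ), IsFoulkesHowe Ψ := by
  classical
  choose rep hrep using rowsOf_surjective (X := X) (a := a) (b := b)
  refine ⟨Finsupp.linearCombination ℂ fun P => wSum (rep P), fun v => ?_⟩
  rw [Finsupp.linearCombination_single, one_smul]
  exact wSum_eq_of_rowsOf_eq (hrep _)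

section Formula

variable [Fintype X] [DecidableEq X]

open Classical in
/-- The arrays with given rows. -/
noncomputable def arrs (P : Sym (Sym X b) a) : Finset (Fin a → Fin b → X) :=
  univ.filter fun T => rowsOf T = P

open Classical in
theorem card_smul_wSum (v : Fin a → Fin b → X) :
    ((arrs (rowsOf v)).card : ℂ) • wSum v =
      ((Fintype.card (Fin a → Equiv.Perm (Fin b)) : ℕ) : ℂ) •
        ∑ T ∈ arrs (rowsOf v), (Finsupp.single (colsOf T) 1 : Sym (Sym X a) b →₀ ℂ) := by
  have h1 : ((arrs (rowsOf v)).card : ℂ) • wSum v = ∑ T ∈ arrs (rowsOf v), wSum T := by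
    rw [Finset.sum_congr rfl (fun T hT => wSum_eq_of_rowsOf_eq
      ((mem_filter.mp hT).2.trans rfl : rowsOf T = rowsOf v))]
    rw [Finset.sum_const]
    exact Nat.cast_smul_eq_nsmul ℂ _ _
  rw [h1]
  unfold wSum
  rw [Finset.sum_comm]
  have h2 : ∀ σ : Fin a → Equiv.Perm (Fin b),
      ∑ T ∈ arrs (rowsOf v), (Finsupp.single (colsOf fun i j => T i (σ i j)) 1 :
        Sym (Sym X a) b →₀ ℂ) =
      ∑ T ∈ arrs (rowsOf v), (Finsupp.single (colsOf T) 1 : Sym (Sym X a) b →₀ ℂ) := by
    intro σ
    refine Finset.sum_nbij' (fun T i j => T i (σ i j)) (fun T i j => T i ((σ i).symm j))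
      ?_ ?_ ?_ ?_ ?_
    · intro T hT
      refine mem_filter.mpr ⟨mem_univ _, ?_⟩
      rw [rowsOf_comp_perm]
      exact (mem_filter.mp hT).2
    · intro T hT
      refine mem_filter.mpr ⟨mem_univ _, ?_⟩
      rw [rowsOf_comp_perm T (fun i => (σ i).symm)]
      exact (mem_filter.mp hT).2
    · intro T _
      funext i j
      simp
    · intro T _
      funext i j
      simp
    · intro T _
      rfl
  rw [Finset.sum_congr rfl fun σ _ => h2 σ, Finset.sum_const, Finset.card_univ]
  exact (Nat.cast_smul_eq_nsmul ℂ _ _).symm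

theorem arrs_card_ne_zero (P : Sym (Sym X b) a) : ((arrs P).card : ℂ) ≠ 0 := by
  obtain ⟨v, hv⟩ := rowsOf_surjective P
  have : (arrs P).Nonempty := ⟨v, mem_filter.mpr ⟨mem_univ _, hv⟩⟩
  exact_mod_cast this.card_pos.ne'

/-- The scalar relating the map with the sum over arrays. -/
noncomputable def sc (P : Sym (Sym X b) a) : ℂ :=
  ((Fintype.card (Fin a → Equiv.Perm (Fin b)) : ℕ) : ℂ) / ((arrs P).card : ℂ)

theorem sc_ne_zero (P : Sym (Sym X b) a) : sc P ≠ 0 := by
  unfold sc
  refine div_ne_zero ?_ (arrs_card_ne_zero P)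
  have : Nonempty (Fin a → Equiv.Perm (Fin b)) := inferInstance
  exact_mod_cast Fintype.card_ne_zero

theorem psi_single {Ψ : (Sym (Sym X b) a →₀ ℂ) →ₗ[ℂ] (Sym (Sym X a) b →₀ ℂ)}
    (hΨ : IsFoulkesHowe Ψ) (P : Sym (Sym X b) a) :
    Ψ (Finsupp.single P 1) = sc P •
      ∑ T ∈ arrs P, (Finsupp.single (colsOf T) 1 : Sym (Sym X a) b →₀ ℂ) := by
  obtain ⟨v, rfl⟩ := rowsOf_surjective P
  rw [hΨ v]
  have h := card_smul_wSum v
  have hne := arrs_card_ne_zero (rowsOf v)
  unfold wSum at h
  unfold sc
  rw [div_eq_inv_mul, mul_smul, ← h, smul_smul, inv_mul_cancel₀ hne, one_smul]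

/-- The value of the map as a sum over arrays. -/
theorem psi_apply {Ψ : (Sym (Sym X b) a →₀ ℂ) →ₗ[ℂ] (Sym (Sym X a) b →₀ ℂ)}
    (hΨ : IsFoulkesHowe Ψ) (f : Sym (Sym X b) a →₀ ℂ) (P' : Sym (Sym X a) b) :
    Ψ f P' = ∑ T : Fin a → Fin b → X,
      if colsOf T = P' then sc (rowsOf T) * f (rowsOf T) else 0 := by
  classical
  have key : Ψ f = ∑ T : Fin a → Fin b → X,
      (sc (rowsOf T) * f (rowsOf T)) •
        (Finsupp.single (colsOf T) 1 : Sym (Sym X a) b →₀ ℂ) := by
    induction f using Finsupp.induction_linear with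
    | zero => simp
    | add f g hf hg =>
      rw [map_add, hf, hg, ← Finset.sum_add_distrib]
      refine Finset.sum_congr rfl fun T _ => ?_
      rw [Finsupp.add_apply, mul_add, add_smul]
    | single P c =>
      have h1 : (Finsupp.single P c : Sym (Sym X b) a →₀ ℂ) = c • Finsupp.single P 1 := by
        simp
      rw [h1, map_smul, psi_single hΨ]
      have h2 : ∀ T : Fin a → Fin b → X,
          (sc (rowsOf T) * (c • (Finsupp.single P 1 : Sym (Sym X b) a →₀ ℂ)) (rowsOf T)) •
            (Finsupp.single (colsOf T) 1 : Sym (Sym X a) b →₀ ℂ) =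
          if T ∈ arrs P then (c * sc P) •
            (Finsupp.single (colsOf T) 1 : Sym (Sym X a) b →₀ ℂ) else 0 := by
        intro T
        by_cases hT : rowsOf T = P
        · have hm : T ∈ arrs P := mem_filter.mpr ⟨mem_univ _, hT⟩
          rw [if_pos hm, hT]
          simp [mul_comm]
        · have hm : T ∉ arrs P := fun h => hT (mem_filter.mp h).2
          rw [if_neg hm]
          simp [hT]
      rw [Finset.sum_congr rfl fun T _ => h2 T]
      rw [Finset.sum_ite_mem, Finset.univ_inter, ← Finset.smul_sum, smul_smul]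
  rw [key, Finsupp.finsetSum_apply]
  refine Finset.sum_congr rfl fun T _ => ?_
  rw [Finsupp.smul_apply, Finsupp.single_apply]
  split_ifs <;> simp

end Formula

end Vale.Agent.Lib.P181
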