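import Vale.Agent.Lib.P181.Claim

/-!
Reduction of the number of rows, and the recursion step.
-/

open Finset

set_option linter.unusedSectionVars false

namespace Vale.Agent.Lib.P181

variable {ι : Type*} [DecidableEq ι] {n : ℕ}

/-- The number of empty rows. -/
def nem (R : Fin n → Finset ι) : ℕ := (univ.filter fun i => R i = ∅).card

theorem nem_comp_perm (R : Fin n → Finset ι) (τ : Equiv.Perm (Fin n)) :
    nem (fun i => R (τ i)) = nem R := by
  unfold nem
  refine Finset.card_nbij' τ τ.symm ?_ ?_ ?_ ?_
  · intro i hi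
    exact Finset.mem_coe.mpr (mem_filter.mpr ⟨mem_univ _, (mem_filter.mp (Finset.mem_coe.mp hi)).2⟩)
  · intro i hi
    refine Finset.mem_coe.mpr (mem_filter.mpr ⟨mem_univ _, ?_⟩)
    simpa using (mem_filter.mp (Finset.mem_coe.mp hi)).2
  · intro i _
    simp
  · intro i _
    simp

theorem perp_comp_perm {m : ℕ} (R : Fin n → Finset ι) (Q : Fin m → Finset ι)
    (τ : Equiv.Perm (Fin n)) : Perp (fun i => R (τ i)) Q ↔ Perp R Q := by
  unfold Perp
  constructor
  · intro h i j
    simpa using h (τ.symm i) j
  · intro h i j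
    exact h (τ i) j

theorem perp_cons_empty {m : ℕ} (R' : Fin n → Finset ι) (Q : Fin m → Finset ι) :
    Perp (Fin.cons ∅ R' : Fin (n + 1) → Finset ι) Q ↔ Perp R' Q := by
  unfold Perp
  constructor
  · intro h i j
    simpa using h i.succ j
  · intro h i j
    refine Fin.cases ?_ (fun i => ?_) i
    · simp
    · simpa using h i j

/-- Reduction of the number of rows. -/
theorem level_down {a b : ℕ} {D : Finset ι} {F : (Fin (a + 1) → Finset ι) → ℂ} (hSy : Sy F)
    (hRB : RB b F) (hK : KQ b D F)
    (hno : ∀ R ∈ fill (a + 1) D, (∀ i, R i ≠ ∅) → F R = 0) (hC : CC a b D) :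
    ∀ R ∈ fill (a + 1) D, F R = 0 := by
  classical
  let w : (Fin (a + 1) → Finset ι) → ℂ := fun R => ((nem R : ℕ) : ℂ)⁻¹
  have hw : ∀ (τ : Equiv.Perm (Fin (a + 1))) R, w (fun i => R (τ i)) = w R := by
    intro τ R
    simp only [w]
    rw [nem_comp_perm]
  let F' : (Fin (a + 1) → Finset ι) → ℂ := fun R => w R * F R
  have hF'Sy : Sy F' := by
    intro τ R
    simp only [F']
    rw [hw, hSy]
  have hF'RB : RB b F' := by
    intro R i hi
    simp only [F']
    rw [hRB R i hi, mul_zero]
  have hnem : ∀ R' : Fin a → Finset ι,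
      nem (Fin.cons ∅ R' : Fin (a + 1) → Finset ι) ≠ 0 := by
    intro R'
    unfold nem
    rw [Finset.card_ne_zero]
    exact ⟨0, mem_filter.mpr ⟨mem_univ _, by simp⟩⟩
  have hKG : KQ b D (fun R' => F' (Fin.cons ∅ R') : (Fin a → Finset ι) → ℂ) := by
    intro Q hQ
    let g : (Fin (a + 1) → Finset ι) → ℂ := fun R => ind (Perp R Q) * F R
    have hg : ∀ (τ : Equiv.Perm (Fin (a + 1))) R, g (fun i => R (τ i)) = g R := by
      intro τ R
      simp only [g]
      rw [ind_congr (perp_comp_perm R Q τ), hSy]
    have h0 : ∑ R ∈ fill (a + 1) D, g R = 0 := hK Q hQ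
    -- insert the number of empty rows
    have h1 : ∀ R ∈ fill (a + 1) D,
        g R = ∑ i, (if R i = ∅ then w R * g R else 0) := by
      intro R hR
      by_cases hall : ∀ i, R i ≠ ∅
      · simp only [g]
        rw [hno R hR hall]
        simp [hall]
      · obtain ⟨i, hi⟩ := not_forall.mp hall
        have hne : nem R ≠ 0 := by
          unfold nem
          rw [Finset.card_ne_zero]
          exact ⟨i, mem_filter.mpr ⟨mem_univ _, not_not.mp hi⟩⟩
        rw [← Finset.sum_filter, Finset.sum_const, nsmul_eq_mul]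
        simp only [w]
        have : (((univ.filter fun i => R i = ∅).card : ℕ) : ℂ) = ((nem R : ℕ) : ℂ) := rfl
        rw [this, ← mul_assoc, mul_inv_cancel₀ (by exact_mod_cast hne), one_mul]
    rw [Finset.sum_congr rfl h1, Finset.sum_comm] at h0
    -- each row gives the same sum
    have h2 : ∀ i : Fin (a + 1), ∑ R ∈ fill (a + 1) D, (if R i = ∅ then w R * g R else 0) =
        ∑ R ∈ fill (a + 1) D, (if R 0 = ∅ then w R * g R else 0) := by
      intro i
      refine Finset.sum_nbij' (fun R k => R (Equiv.swap 0 i k))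
        (fun R k => R (Equiv.swap 0 i k)) ?_ ?_ ?_ ?_ ?_
      · intro R hR
        exact mem_fill.mpr (isFill_comp_perm (mem_fill.mp hR) _)
      · intro R hR
        exact mem_fill.mpr (isFill_comp_perm (mem_fill.mp hR) _)
      · intro R _
        funext k
        simp
      · intro R _
        funext k
        simp
      · intro R _
        simp only [Equiv.swap_apply_left]
        rw [hw, hg]
    rw [Finset.sum_congr rfl fun i _ => h2 i, Finset.sum_const, Finset.card_univ,
      Fintype.card_fin, nsmul_eq_mul] at h0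
    have h3 : ∑ R ∈ fill (a + 1) D, (if R 0 = ∅ then w R * g R else 0) = 0 := by
      refine (mul_eq_zero.mp h0).resolve_left ?_
      exact_mod_cast Nat.succ_ne_zero a
    rw [sum_fill_succ, Finset.sum_eq_single ∅] at h3
    · rw [← h3]
      simp only [sdiff_empty]
      refine Finset.sum_congr rfl fun R' _ => ?_
      simp only [Fin.cons_zero, if_true, g, F']
      rw [ind_congr (perp_cons_empty R' Q)]
      ring
    · intro S _ hS
      refine Finset.sum_eq_zero fun R' _ => ?_
      simp [hS]
    · intro h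
      exact absurd (empty_mem_powerset D) h
  have hG := hC _ (sy_cons hF'Sy) (rb_cons hF'RB) hKG
  have hvan : ∀ R' ∈ fill a D, F (Fin.cons ∅ R') = 0 := by
    intro R' hR'
    have := hG R' hR'
    simp only [F', w] at this
    refine (mul_eq_zero.mp this).resolve_left ?_
    exact inv_ne_zero (by exact_mod_cast hnem R')
  intro R hR
  by_cases hall : ∀ i, R i ≠ ∅
  · exact hno R hR hall
  · obtain ⟨i, hi⟩ := not_forall.mp hall
    have hi' : R i = ∅ := not_not.mp hi
    obtain ⟨R'', hR'', _, hF⟩ := exists_cons_of_row' hSy (mem_fill.mp hR) i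
    rw [← hF, hi']
    rw [hi', sdiff_empty] at hR''
    exact hvan R'' hR''

theorem nne_of_all_ne {R : Fin n → Finset ι} (h : ∀ i, R i ≠ ∅) : nne R = n := by
  unfold nne
  have : (univ.filter fun i => (R i).Nonempty) = univ := by
    ext i
    simp [nonempty_iff_ne_empty, h i]
  rw [this]
  simp

/-- The recursion step with `k + 3` letters. -/
theorem rec_step {a b k : ℕ} (hab : a ≤ b) (hk : k + 3 ≤ a + 1) {D : Finset ι}
    (hD : k * (b + 1) + (a + 1) * a < D.card) (hlow : CC a (b + 1) D)
    (hhigh : ∀ J ⊆ D, k + 3 ≤ J.card → CC (a + 1) b (D \ J)) : CC (a + 1) (b + 1) D := by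
  intro F hSy hRB hK
  have hH : HH (a + 1) (b + 1) D (k + 3) F := by
    intro J hJ hc R' hR' hrows
    have := hhigh J hJ hc (trunc b (up F J)) (sy_trunc (sy_up hSy)) (rb_trunc _ _)
      (kq_trunc hJ hK) R' hR'
    rwa [trunc_of_le fun i => by have := hrows i; omega] at this
  have hc := claimK k (a + 1) (by omega) D F hSy hRB hH (by simpa using hD)
  refine level_down hSy hRB hK ?_ hlow
  intro R hR hall
  exact hc R hR (by rw [nne_of_all_ne hall]; omega)

end Vale.Agent.Lib.P181
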