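import Vale.Agent.Lib.P181.Main
import Vale.Agent.Lib.P181.Formula

/-!
Lifting columns and rows to partial injections: the multiset `hatM`, the function `el`.
-/

open Finset

set_option linter.unusedSectionVars false

namespace Vale.Agent.Lib.P181

variable {ι : Type*} [DecidableEq ι]

/-- The unique element of a set of size at most one, as an option. -/
noncomputable def el (S : Finset ι) : Option ι :=
  open Classical in if h : S.Nonempty then some h.choose else none

omit [DecidableEq ι] in
theorem el_empty : el (∅ : Finset ι) = none := by
  simp [el]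

theorem el_singleton (x : ι) : el ({x} : Finset ι) = some x := by
  have h : ({x} : Finset ι).Nonempty := singleton_nonempty x
  unfold el
  rw [dif_pos h]
  exact congrArg some (mem_singleton.mp h.choose_spec)

omit [DecidableEq ι] in
theorem mem_of_el_eq_some {S : Finset ι} {x : ι} (h : el S = some x) : x ∈ S := by
  unfold el at h
  split_ifs at h with hS
  have := hS.choose_spec
  rw [Option.some.inj h] at this
  exact this

theorem eq_or_of_card_le_one {S : Finset ι} (h : S.card ≤ 1) : S = ∅ ∨ ∃ x, S = {x} := by
  rcases Nat.le_one_iff_eq_zero_or_eq_one.mp h with h | h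
  · exact Or.inl (card_eq_zero.mp h)
  · exact Or.inr (card_eq_one.mp h)

/-- The multiset with the elements of `S`, filled up with `none` to size `n`. -/
def hatM (S : Finset ι) (n : ℕ) : Multiset (Option ι) :=
  Multiset.map some S.val + Multiset.replicate (n - S.card) none

theorem map_el_aux {m : ℕ} (S : Fin m → Finset ι) (hd : ∀ k l, k ≠ l → Disjoint (S k) (S l))
    (h1 : ∀ k, (S k).card ≤ 1) (s : Finset (Fin m)) :
    (s.biUnion S).card ≤ s.card ∧
    Multiset.map (fun k => el (S k)) s.val = hatM (s.biUnion S) s.card := by
  classical
  induction s using Finset.induction_on with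
  | empty => simp [hatM]
  | insert k s hk ih =>
    obtain ⟨ih1, ih2⟩ := ih
    rw [biUnion_insert, card_insert_of_notMem hk, insert_val_of_notMem hk, Multiset.map_cons, ih2]
    rcases eq_or_of_card_le_one (h1 k) with h | ⟨x, h⟩
    · rw [h, empty_union]
      refine ⟨by omega, ?_⟩
      rw [el_empty]
      unfold hatM
      have : s.card + 1 - (s.biUnion S).card = (s.card - (s.biUnion S).card) + 1 := by omega
      rw [this, Multiset.replicate_succ, Multiset.add_cons]
    · have hx : x ∉ s.biUnion S := by
        intro hx
        obtain ⟨l, hl, hxl⟩ := mem_biUnion.mp hx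
        have hne : k ≠ l := fun e => hk (e ▸ hl)
        have := hd k l hne
        rw [h] at this
        exact (Finset.disjoint_left.mp this (mem_singleton_self x)) hxl
      have e : {x} ∪ s.biUnion S = insert x (s.biUnion S) := rfl
      rw [h, e, card_insert_of_notMem hx]
      refine ⟨by omega, ?_⟩
      rw [el_singleton]
      unfold hatM
      rw [insert_val_of_notMem hx, Multiset.map_cons, card_insert_of_notMem hx,
        Nat.add_sub_add_right, Multiset.cons_add]

/-- The multiset of the `el` of a disjoint family of sets of size at most one. -/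
theorem map_el {m : ℕ} (S : Fin m → Finset ι) (hd : ∀ k l, k ≠ l → Disjoint (S k) (S l))
    (h1 : ∀ k, (S k).card ≤ 1) :
    Multiset.map (fun k => el (S k)) univ.val = hatM (univ.biUnion S) m := by
  have := (map_el_aux S hd h1 univ).2
  simpa using this

theorem card_hatM (S : Finset ι) (n : ℕ) (h : S.card ≤ n) : Multiset.card (hatM S n) = n := by
  unfold hatM
  simp only [Multiset.card_add, Multiset.card_map, Multiset.card_replicate, card_val]
  omega

theorem some_mem_hatM {S : Finset ι} {n : ℕ} {x : ι} : some x ∈ hatM S n ↔ x ∈ S := by
  unfold hatM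
  simp [Multiset.mem_add, Multiset.mem_map, Multiset.mem_replicate]

theorem count_some_hatM {S : Finset ι} {n : ℕ} {x : ι} (hx : x ∈ S) :
    Multiset.count (some x) (hatM S n) = 1 := by
  unfold hatM
  rw [Multiset.count_add, Multiset.count_map_eq_count' _ _ (Option.some_injective ι) x,
    Multiset.count_eq_one_of_mem S.nodup (by simpa using hx)]
  simp [Multiset.count_replicate]

variable {n : ℕ}

/-- Properties of an arrangement of `hatM S n`. -/
theorem arr_mem {u : Fin n → Option ι} {S : Finset ι}
    (hu : Multiset.map u univ.val = hatM S n) {i : Fin n} {x : ι} (h : u i = some x) : x ∈ S := by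
  rw [← some_mem_hatM (n := n), ← hu]
  exact Multiset.mem_map.mpr ⟨i, mem_univ i, h⟩

theorem arr_exists {u : Fin n → Option ι} {S : Finset ι}
    (hu : Multiset.map u univ.val = hatM S n) {x : ι} (hx : x ∈ S) : ∃ i, u i = some x := by
  have : some x ∈ Multiset.map u univ.val := by
    rw [hu, some_mem_hatM]
    exact hx
  obtain ⟨i, _, hi⟩ := Multiset.mem_map.mp this
  exact ⟨i, hi⟩

theorem arr_unique {u : Fin n → Option ι} {S : Finset ι}
    (hu : Multiset.map u univ.val = hatM S n) {i i' : Fin n} {x : ι} (h : u i = some x)
    (h' : u i' = some x) : i = i' := by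
  classical
  have hx := arr_mem hu h
  have hc := count_some_hatM (n := n) hx
  rw [← hu, Multiset.count_map] at hc
  have : (univ.filter fun k => some x = u k).card ≤ 1 := by
    have h2 : (univ.filter fun k => some x = u k).card =
        Multiset.card (Multiset.filter (fun k => some x = u k) univ.val) := rfl
    rw [h2, hc]
  rw [Finset.card_le_one] at this
  exact this i (mem_filter.mpr ⟨mem_univ _, h.symm⟩) i' (mem_filter.mpr ⟨mem_univ _, h'.symm⟩)

end Vale.Agent.Lib.P181
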