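import Vale.Agent.Lib.P181.Exact

/-!
The combinatorial injectivity statement `CC a b D`, the base lemmas and the first main theorem.
-/

open Finset

namespace Vale.Agent.Lib.P181

variable {ι : Type*} [DecidableEq ι] {n : ℕ}

/-- Vanishing when a row is longer than `b`. -/
def RB (b : ℕ) (F : (Fin n → Finset ι) → ℂ) : Prop :=
  ∀ (R : Fin n → Finset ι) (i : Fin n), b < (R i).card → F R = 0

/-- Rows and columns meet in at most one point. -/
def Perp {m : ℕ} (R : Fin n → Finset ι) (Q : Fin m → Finset ι) : Prop :=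
  ∀ i j, (R i ∩ Q j).card ≤ 1

/-- The kernel condition. -/
def KQ (b : ℕ) (D : Finset ι) (F : (Fin n → Finset ι) → ℂ) : Prop :=
  ∀ Q ∈ fill b D, ∑ R ∈ fill n D, ind (Perp R Q) * F R = 0

/-- The combinatorial injectivity statement. -/
def CC (a b : ℕ) (D : Finset ι) : Prop :=
  ∀ F : (Fin a → Finset ι) → ℂ, Sy F → RB b F → KQ b D F → ∀ R ∈ fill a D, F R = 0

open Classical in
/-- Truncation to rows of size at most `b`. -/
noncomputable def trunc (b : ℕ) (G : (Fin n → Finset ι) → ℂ) : (Fin n → Finset ι) → ℂ :=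
  fun R => if ∀ i, (R i).card ≤ b then G R else 0

omit [DecidableEq ι] in
theorem trunc_of_le {b : ℕ} {G : (Fin n → Finset ι) → ℂ} {R : Fin n → Finset ι}
    (h : ∀ i, (R i).card ≤ b) : trunc b G R = G R := by
  simp [trunc, h]

omit [DecidableEq ι] in
theorem rb_trunc (b : ℕ) (G : (Fin n → Finset ι) → ℂ) : RB b (trunc b G) := by
  intro R i hi
  unfold trunc
  rw [if_neg]
  intro h
  exact absurd (h i) (not_le.mpr hi)

theorem isFill_comp_perm {D : Finset ι} {R : Fin n → Finset ι} (hR : IsFill R D)
    (τ : Equiv.Perm (Fin n)) : IsFill (fun i => R (τ i)) D := by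
  rw [isFill_iff]
  refine ⟨fun x => ?_, fun x i j hi hj => ?_⟩
  · rw [hR.mem_iff x]
    constructor
    · rintro ⟨i, hi⟩
      exact ⟨τ.symm i, by simpa using hi⟩
    · rintro ⟨i, hi⟩
      exact ⟨τ i, hi⟩
  · exact τ.injective (hR.eq_of_mem hi hj)

omit [DecidableEq ι] in
theorem sy_trunc {b : ℕ} {G : (Fin n → Finset ι) → ℂ} (h : Sy G) : Sy (trunc b G) := by
  intro τ R
  unfold trunc
  have : (∀ i, (R (τ i)).card ≤ b) ↔ ∀ i, (R i).card ≤ b :=
    ⟨fun h' i => by simpa using h' (τ.symm i), fun h' i => h' (τ i)⟩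
  simp only [this]
  rw [h τ R]

theorem mem_asg_comp_perm {J : Finset ι} {A : Fin n → Finset ι} (hA : A ∈ asg n J)
    (τ : Equiv.Perm (Fin n)) : (fun i => A (τ i)) ∈ asg n J := by
  obtain ⟨h1, h2⟩ := mem_asg.mp hA
  exact mem_asg.mpr ⟨isFill_comp_perm h1 τ, fun i => h2 _⟩

theorem sy_up {J : Finset ι} {F : (Fin n → Finset ι) → ℂ} (h : Sy F) : Sy (up F J) := by
  intro τ R
  unfold up
  refine Finset.sum_nbij' (fun A i => A (τ.symm i)) (fun A i => A (τ i)) ?_ ?_ ?_ ?_ ?_
  · intro A hA
    exact mem_asg_comp_perm hA τ.symm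
  · intro A hA
    exact mem_asg_comp_perm hA τ
  · intro A _
    funext i
    simp
  · intro A _
    funext i
    simp
  · intro A _
    rw [← h τ (fun i => R i ∪ A (τ.symm i))]
    congr 1
    funext i
    simp

theorem sy_cons {S : Finset ι} {F : (Fin (n + 1) → Finset ι) → ℂ} (h : Sy F) :
    Sy (fun R => F (Fin.cons S R)) := by
  intro τ R
  have := h (Equiv.Perm.decomposeFin.symm (0, τ)) (Fin.cons S R)
  show F (Fin.cons S _) = F (Fin.cons S R)
  rw [← this]
  congr 1
  funext i
  refine Fin.cases ?_ (fun i => ?_) i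
  · simp
  · simp

omit [DecidableEq ι] in
theorem rb_cons {b : ℕ} {S : Finset ι} {F : (Fin (n + 1) → Finset ι) → ℂ} (h : RB b F) :
    RB b (fun R => F (Fin.cons S R)) := by
  intro R i hi
  exact h _ i.succ (by simpa using hi)

theorem kq_trunc {b : ℕ} {D J : Finset ι} {F : (Fin n → Finset ι) → ℂ} (hJ : J ⊆ D)
    (hK : KQ (b + 1) D F) : KQ b (D \ J) (trunc b (up F J)) := by
  intro Q' hQ'
  have hQ'' := mem_fill.mp hQ'
  have hc : (Fin.cons J Q' : Fin (b + 1) → Finset ι) ∈ fill (b + 1) D := by
    rw [mem_fill, isFill_cons_iff]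
    exact ⟨hJ, hQ''⟩
  have h := hK _ hc
  have hperp : ∀ R : Fin n → Finset ι,
      Perp R (Fin.cons J Q' : Fin (b + 1) → Finset ι) ↔ II J R ∧ Perp R Q' := by
    intro R
    unfold Perp II
    constructor
    · intro h'
      exact ⟨fun i => by simpa using h' i 0, fun i j => by simpa using h' i j.succ⟩
    · rintro ⟨h1, h2⟩ i j
      refine Fin.cases ?_ (fun j => ?_) j
      · simpa using h1 i
      · simpa using h2 i j
  have hindep : Indep (fun R : Fin n → Finset ι => ind (Perp R Q')) J := by
    intro R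
    refine ind_congr ?_
    refine forall_congr' fun i => forall_congr' fun j => ?_
    have : (R i \ J) ∩ Q' j = R i ∩ Q' j := by
      ext y
      simp only [mem_inter, mem_sdiff]
      constructor
      · rintro ⟨⟨h1, _⟩, h2⟩
        exact ⟨h1, h2⟩
      · rintro ⟨h1, h2⟩
        exact ⟨⟨h1, (mem_sdiff.mp (hQ''.subset j h2)).2⟩, h2⟩
    rw [this]
  have h2 : ∑ R ∈ fill n D, ind (II J R) * ind (Perp R Q') * F R = 0 := by
    rw [← h]
    refine Finset.sum_congr rfl fun R _ => ?_
    rw [ind_congr (hperp R), ind_and]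
  rw [sum_ind_II hJ _ hindep F] at h2
  rw [← h2]
  refine Finset.sum_congr rfl fun R' hR' => ?_
  by_cases hp : Perp R' Q'
  · rw [ind_true hp]
    congr 1
    refine trunc_of_le fun i => ?_
    have hR'' := mem_fill.mp hR'
    -- the row is covered by the columns
    have : (R' i) = univ.biUnion fun j => R' i ∩ Q' j := by
      ext y
      simp only [mem_biUnion, mem_univ, true_and, mem_inter]
      constructor
      · intro hy
        obtain ⟨j, hj⟩ := (hQ''.mem_iff y).mp (hR''.subset i hy)
        exact ⟨j, hy, hj⟩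
      · rintro ⟨j, hy, _⟩
        exact hy
    rw [this]
    calc _ ≤ ∑ j : Fin b, (R' i ∩ Q' j).card := card_biUnion_le
      _ ≤ ∑ _j : Fin b, 1 := Finset.sum_le_sum fun j _ => hp i j
      _ = b := by simp
  · rw [ind_false hp, zero_mul, zero_mul]

/-- All rows of a filling are at most the whole set. -/
theorem IsFill.card_row_le {R : Fin n → Finset ι} {D : Finset ι} (h : IsFill R D) (i : Fin n) :
    (R i).card ≤ D.card := card_le_card (h.subset i)

theorem cc_empty (a b : ℕ) : CC a b (∅ : Finset ι) := by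
  intro F _ _ hK R hR
  have hQ : (fun _ => ∅ : Fin b → Finset ι) ∈ fill b (∅ : Finset ι) := by
    rw [mem_fill, isFill_iff]
    simp
  have h := hK _ hQ
  have hall : ∀ S : Fin a → Finset ι, S ∈ fill a (∅ : Finset ι) → S = fun _ => ∅ := by
    intro S hS
    funext i
    exact Finset.subset_empty.mp ((mem_fill.mp hS).subset i)
  have hf : fill a (∅ : Finset ι) = {fun _ => ∅} := by
    ext S
    rw [mem_singleton]
    constructor
    · exact hall S
    · rintro rfl
      rw [mem_fill, isFill_iff]
      simp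
  rw [hall R hR]
  rw [hf, sum_singleton, ind_true] at h
  · simpa using h
  · intro i j
    simp

/-- Rows can be moved to the first place. -/
theorem exists_cons_of_row {D : Finset ι} {F : (Fin (n + 1) → Finset ι) → ℂ} (hSy : Sy F)
    {R : Fin (n + 1) → Finset ι} (hR : IsFill R D) (i : Fin (n + 1)) :
    ∃ R'' ∈ fill n (D \ R i), (∀ k, ∃ l, R'' k = R l) ∧ F (Fin.cons (R i) R'') = F R := by
  have hR1 := isFill_comp_perm hR (Equiv.swap 0 i)
  have hcons : (Fin.cons (R i) (Fin.tail fun k => R (Equiv.swap 0 i k)) :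
      Fin (n + 1) → Finset ι) = fun k => R (Equiv.swap 0 i k) := by
    have : R i = (fun k => R (Equiv.swap 0 i k)) 0 := by simp
    rw [this]
    exact Fin.cons_self_tail (α := fun _ => Finset ι) (fun k => R (Equiv.swap 0 i k))
  have h2 : IsFill (Fin.cons (R i) (Fin.tail fun k => R (Equiv.swap 0 i k)) :
      Fin (n + 1) → Finset ι) D := by
    rw [hcons]; exact hR1
  rw [isFill_cons_iff] at h2
  refine ⟨_, mem_fill.mpr h2.2, ?_, ?_⟩
  · intro k
    exact ⟨_, rfl⟩
  · rw [hcons, hSy]

theorem t0 {b : ℕ} : ∀ (n : ℕ), n ≤ b → ∀ (D : Finset ι) (F : (Fin n → Finset ι) → ℂ),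
    Sy F → RB b F → HH n b D 0 F → ∀ R ∈ fill n D, F R = 0 := by
  intro n
  induction n with
  | zero =>
    intro _ D F _ _ hH R hR
    have := hH ∅ (empty_subset _) (by simp) R (by simpa using hR) (fun i => i.elim0)
    rwa [up_empty] at this
  | succ n ih =>
    intro hn D F hSy hRB hH R hR
    have hR' := mem_fill.mp hR
    by_cases hall : ∀ i, (R i).card < b
    · have := hH ∅ (empty_subset _) (by simp) R (by simpa using hR) hall
      rwa [up_empty] at this
    · obtain ⟨i, hi⟩ := not_forall.mp hall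
      by_cases hgt : b < (R i).card
      · exact hRB R i hgt
      · have hcard : (R i).card = b := by omega
        obtain ⟨R'', hR'', _, hF⟩ := exists_cons_of_row hSy hR' i
        rw [← hF]
        have hH1 : HH (n + 1) b D (0 + 1) F := fun J hJ _ R' hR1 hr => hH J hJ (by simp) R' hR1 hr
        have hp := peel hH1 (hR'.subset i) (by omega) (le_of_eq hcard)
        exact ih (by omega) _ _ (sy_cons hSy) (rb_cons hRB) hp R'' hR''

/-- Vanishing on rows of full size turns `HH` into exactness. -/
theorem he_of_full {b j : ℕ} {D : Finset ι} {F : (Fin n → Finset ι) → ℂ}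
    (hfull : ∀ R ∈ fill n D, ∀ i, b ≤ (R i).card → F R = 0)
    (hH : HH n b D j F) : HE n j D F := by
  intro J hJ hc R' hR'
  by_cases hall : ∀ i, (R' i).card < b
  · exact hH J hJ hc R' hR' hall
  · obtain ⟨i, hi⟩ := not_forall.mp hall
    unfold up
    refine Finset.sum_eq_zero fun A hA => ?_
    refine hfull _ (mem_fill.mpr (isFill_union hJ (mem_fill.mp hR') (mem_asg.mp hA).1)) i ?_
    calc b ≤ (R' i).card := by omega
      _ ≤ _ := card_le_card subset_union_left

theorem t1' {b n : ℕ} (hn : n ≤ b) {D : Finset ι} (hD : D.Nonempty)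
    {F : (Fin n → Finset ι) → ℂ} (hSy : Sy F) (hRB : RB b F) (hH : HH n b D 1 F) :
    ∀ R ∈ fill n D, F R = 0 := by
  have hfull : ∀ R ∈ fill n D, ∀ i, b ≤ (R i).card → F R = 0 := by
    intro R hR i hi
    by_cases hgt : b < (R i).card
    · exact hRB R i hgt
    · have hcard : (R i).card = b := by omega
      cases n with
      | zero => exact i.elim0
      | succ n =>
        have hR' := mem_fill.mp hR
        obtain ⟨R'', hR'', _, hF⟩ := exists_cons_of_row hSy hR' i
        rw [← hF]
        have hp := peel (j := 0) hH (hR'.subset i) (by omega) (le_of_eq hcard)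
        exact t0 n (by omega) _ _ (sy_cons hSy) (rb_cons hRB) hp R'' hR''
  exact weyl hSy hD (he_of_full hfull hH)

theorem l2 {a b : ℕ} (hab : a ≤ b) {D : Finset ι} (hDb : b < D.card)
    {F : (Fin a → Finset ι) → ℂ} (hSy : Sy F) (hRB : RB b F) (hH : HH a b D 2 F) :
    ∀ R ∈ fill a D, F R = 0 := by
  have hfull : ∀ R ∈ fill a D, ∀ i, b ≤ (R i).card → F R = 0 := by
    intro R hR i hi
    by_cases hgt : b < (R i).card
    · exact hRB R i hgt
    · have hcard : (R i).card = b := by omega
      cases a with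
      | zero => exact i.elim0
      | succ a =>
        have hR' := mem_fill.mp hR
        obtain ⟨R'', hR'', _, hF⟩ := exists_cons_of_row hSy hR' i
        rw [← hF]
        have hp := peel (j := 1) hH (hR'.subset i) (by omega) (le_of_eq hcard)
        have hne : (D \ R i).Nonempty := by
          rw [← Finset.card_pos, card_sdiff_of_subset (hR'.subset i)]
          omega
        exact t1' (by omega) hne (sy_cons hSy) (rb_cons hRB) hp R'' hR''
  have hE := he_of_full hfull hH
  intro R hR
  have hR' := mem_fill.mp hR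
  by_cases h2 : 2 ≤ nne R
  · exact exact2 hSy hE R hR h2
  · have ha : 0 < a := by
      by_contra h0
      have : a = 0 := by omega
      subst this
      have : D = ∅ := by
        rw [← hR'.2]; simp
      rw [this] at hDb
      simp at hDb
    obtain ⟨k, hk⟩ := kk_of_nne_le_one ha hR' (by omega)
    exact hRB R k (lt_of_lt_of_le hDb (card_le_card hk))

theorem moebius (a : ℕ) (ha : 0 < a) : ∀ (b : ℕ) (D : Finset ι), D.card ≤ b + 1 → CC a b D := by
  intro b
  induction b with
  | zero =>
    intro D hD F hSy hRB hK R hR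
    rcases D.eq_empty_or_nonempty with rfl | ⟨x, hx⟩
    · exact cc_empty a 0 F hSy hRB hK R hR
    · obtain ⟨i, hi⟩ := ((mem_fill.mp hR).mem_iff x).mp hx
      exact hRB R i (card_pos.mpr ⟨x, hi⟩)
  | succ b ih =>
    intro D hD F hSy hRB hK R hR
    rcases D.eq_empty_or_nonempty with rfl | hne
    · exact cc_empty a (b + 1) F hSy hRB hK R hR
    · have hIH : ∀ J ⊆ D, (D \ J).card ≤ b → ∀ R' ∈ fill a (D \ J), up F J R' = 0 := by
        intro J hJ hc R' hR'
        have := ih (D \ J) (by omega) (trunc b (up F J)) (sy_trunc (sy_up hSy)) (rb_trunc _ _)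
          (kq_trunc hJ hK) R' hR'
        rwa [trunc_of_le fun i => ((mem_fill.mp hR').card_row_le i).trans hc] at this
      by_cases hsmall : D.card ≤ b + 1
      · refine weyl hSy hne ?_ R hR
        intro J hJ hc R' hR'
        refine hIH J hJ ?_ R' hR'
        rw [card_sdiff_of_subset hJ]
        omega
      · have hE : HE a 2 D F := by
          intro J hJ hc R' hR'
          refine hIH J hJ ?_ R' hR'
          rw [card_sdiff_of_subset hJ]
          omega
        have hR' := mem_fill.mp hR
        by_cases h2 : 2 ≤ nne R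
        · exact exact2 hSy hE R hR h2
        · obtain ⟨k, hk⟩ := kk_of_nne_le_one ha hR' (by omega)
          refine hRB R k (lt_of_lt_of_le ?_ (card_le_card hk))
          omega

/-- First main theorem in combinatorial form. -/
theorem main_t1 : ∀ (b a : ℕ) (D : Finset ι), 0 < a → a ≤ b + 1 → D.card + a ≤ 2 * b + 2 →
    CC a b D := by
  intro b
  induction b with
  | zero =>
    intro a D ha _ hD
    exact moebius a ha 0 D (by omega)
  | succ b ih =>
    intro a D ha hab hD
    by_cases hsmall : D.card ≤ b + 2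
    · exact moebius a ha (b + 1) D hsmall
    · intro F hSy hRB hK
      refine l2 (by omega) (by omega) hSy hRB ?_
      intro J hJ hc R' hR' hrows
      have hcard : (D \ J).card + 2 ≤ D.card := by
        rw [card_sdiff_of_subset hJ]
        have := card_le_card hJ
        omega
      have := ih a (D \ J) ha (by omega) (by omega) (trunc b (up F J)) (sy_trunc (sy_up hSy))
        (rb_trunc _ _) (kq_trunc hJ hK) R' hR'
      rwa [trunc_of_le fun i => by have := hrows i; omega] at this

end Vale.Agent.Lib.P181
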