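import Vale.Agent.Lib.P181.Peel

/-!
The polarized Newton identity and the exact vanishing theorem.
-/

open Finset

namespace Vale.Agent.Lib.P181

variable {ι : Type*} [DecidableEq ι] {n : ℕ}

open Classical in
/-- Indicator of a proposition with complex values. -/
noncomputable def ind (p : Prop) : ℂ := if p then 1 else 0

theorem ind_true {p : Prop} (h : p) : ind p = 1 := by simp [ind, h]
theorem ind_false {p : Prop} (h : ¬ p) : ind p = 0 := by simp [ind, h]
theorem ind_and (p q : Prop) : ind (p ∧ q) = ind p * ind q := by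
  by_cases hp : p <;> by_cases hq : q <;> simp [ind, hp, hq]
theorem ind_congr {p q : Prop} (h : p ↔ q) : ind p = ind q := by
  rw [propext h]

/-- The rows of `R` meet `J` in at most one element each. -/
def II (J : Finset ι) (R : Fin n → Finset ι) : Prop := ∀ i, (R i ∩ J).card ≤ 1

/-- Some row of `R` contains `B`. -/
def KK (B : Finset ι) (R : Fin n → Finset ι) : Prop := ∃ i, B ⊆ R i

/-- The coefficients of the polarized Newton identity. -/
noncomputable def cc : ℕ → ℂ
  | 0 => 1
  | k + 1 => -((k + 1 : ℕ) : ℂ) * cc k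

theorem cc_ne_zero (k : ℕ) : cc k ≠ 0 := by
  induction k with
  | zero => simp [cc]
  | succ k ih =>
    simp only [cc]
    refine mul_ne_zero (neg_ne_zero.mpr ?_) ih
    exact_mod_cast Nat.succ_ne_zero k

omit [DecidableEq ι] in
/-- Sum over the powerset when only the top two levels contribute. -/
theorem sum_powerset_two (A : Finset ι) (m : ℕ) (hm : A.card = m + 1) (g : ℕ → ℂ)
    (hg : ∀ k, k < m → g k = 0) :
    ∑ B ∈ A.powerset, g B.card = g (m + 1) + ((m + 1 : ℕ) : ℂ) * g m := by
  rw [Finset.sum_powerset_apply_card, hm, Finset.sum_range_succ, Finset.sum_range_succ]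
  rw [Finset.sum_eq_zero (fun k hk => by rw [hg k (mem_range.mp hk), smul_zero])]
  simp only [zero_add, Nat.choose_self, one_smul]
  rw [Nat.choose_succ_self_right, add_comm, nsmul_eq_mul]

theorem sum_cc_powerset (A : Finset ι) :
    ∑ B ∈ A.powerset, cc B.card * ind ((A \ B).card ≤ 1) = ind (A = ∅) := by
  rcases A.eq_empty_or_nonempty with rfl | hA
  · simp [cc, ind]
  · obtain ⟨m, hm⟩ : ∃ m, A.card = m + 1 :=
      ⟨A.card - 1, by have := hA.card_pos; omega⟩
    have hA' : A ≠ ∅ := hA.ne_empty
    rw [ind_false hA']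
    have : ∀ B ∈ A.powerset, cc B.card * ind ((A \ B).card ≤ 1) =
        (fun k => cc k * ind (m + 1 - k ≤ 1)) B.card := by
      intro B hB
      simp only []
      rw [card_sdiff_of_subset (mem_powerset.mp hB), hm]
    rw [Finset.sum_congr rfl this]
    rw [sum_powerset_two A m hm (fun k => cc k * ind (m + 1 - k ≤ 1))]
    · simp only [Nat.sub_self, zero_le, ind_true]
      rw [ind_true (by omega : m + 1 - m ≤ 1)]
      simp only [cc]
      ring
    · intro k hk
      rw [ind_false (by omega), mul_zero]

/-- Pointwise polarized Newton identity. -/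
theorem newton_pointwise {R : Fin n → Finset ι} {D J : Finset ι} (hR : IsFill R D)
    (hJ : J ⊆ D) {x : ι} (hx : x ∈ J) :
    ind (II J R) = ∑ B ∈ (J.erase x).powerset,
      cc B.card * ind (KK (insert x B) R) * ind (II (J.erase x \ B) R) := by
  classical
  obtain ⟨i₀, hi₀⟩ := (hR.mem_iff x).mp (hJ hx)
  set A := R i₀ ∩ J.erase x with hAdef
  set Z : Prop := ∀ i, i ≠ i₀ → (R i ∩ J).card ≤ 1 with hZ
  have hAsub : A ⊆ J.erase x := inter_subset_right
  have hK : ∀ B ⊆ J.erase x, KK (insert x B) R ↔ B ⊆ A := by
    intro B hB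
    constructor
    · rintro ⟨i, hi⟩
      have hxi := hi (mem_insert_self x B)
      have : i = i₀ := hR.eq_of_mem hxi hi₀
      subst this
      intro y hy
      exact mem_inter.mpr ⟨hi (mem_insert_of_mem hy), hB hy⟩
    · intro hB'
      refine ⟨i₀, insert_subset hi₀ fun y hy => (mem_inter.mp (hB' hy)).1⟩
  have hI : ∀ B ⊆ A, II (J.erase x \ B) R ↔ Z ∧ (A \ B).card ≤ 1 := by
    intro B hB
    have e1 : R i₀ ∩ (J.erase x \ B) = A \ B := by
      ext y
      simp only [mem_inter, mem_sdiff, hAdef]
      tauto
    have e2 : ∀ i, i ≠ i₀ → R i ∩ (J.erase x \ B) = R i ∩ J := by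
      intro i hi
      ext y
      simp only [mem_inter, mem_sdiff, mem_erase]
      constructor
      · rintro ⟨h1, ⟨_, h2⟩, _⟩
        exact ⟨h1, h2⟩
      · rintro ⟨h1, h2⟩
        refine ⟨h1, ⟨fun hyx => ?_, h2⟩, fun hyB => ?_⟩
        · subst hyx
          exact hi (hR.eq_of_mem h1 hi₀)
        · exact hi (hR.eq_of_mem h1 (mem_inter.mp (hB hyB)).1)
    constructor
    · intro h
      refine ⟨fun i hi => ?_, ?_⟩
      · rw [← e2 i hi]; exact h i
      · rw [← e1]; exact h i₀
    · rintro ⟨h1, h2⟩ i
      by_cases hi : i = i₀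
      · subst hi; rw [e1]; exact h2
      · rw [e2 i hi]; exact h1 i hi
  have hIJ : II J R ↔ Z ∧ A = ∅ := by
    have e : R i₀ ∩ J = insert x A := by
      ext y
      simp only [mem_inter, mem_insert, hAdef, mem_erase]
      constructor
      · rintro ⟨h1, h2⟩
        by_cases hy : y = x
        · exact Or.inl hy
        · exact Or.inr ⟨h1, hy, h2⟩
      · rintro (rfl | ⟨h1, _, h2⟩)
        · exact ⟨hi₀, hx⟩
        · exact ⟨h1, h2⟩
    have hxA : x ∉ A := fun h => (mem_erase.mp (mem_inter.mp h).2).1 rfl
    constructor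
    · intro h
      refine ⟨fun i _ => h i, ?_⟩
      have := h i₀
      rw [e, card_insert_of_notMem hxA] at this
      exact card_eq_zero.mp (by omega)
    · rintro ⟨h1, h2⟩ i
      by_cases hi : i = i₀
      · subst hi; rw [e, h2]; simp
      · exact h1 i hi
  -- rewrite the right side
  have hterm : ∀ B ∈ (J.erase x).powerset,
      cc B.card * ind (KK (insert x B) R) * ind (II (J.erase x \ B) R) =
        if B ⊆ A then ind Z * (cc B.card * ind ((A \ B).card ≤ 1)) else 0 := by
    intro B hB
    by_cases hBA : B ⊆ A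
    · rw [if_pos hBA, ind_true ((hK B (mem_powerset.mp hB)).mpr hBA), ind_congr (hI B hBA),
        ind_and]
      ring
    · rw [if_neg hBA, ind_false (fun h => hBA ((hK B (mem_powerset.mp hB)).mp h))]
      ring
  rw [Finset.sum_congr rfl hterm, ← Finset.sum_filter]
  have hfil : (J.erase x).powerset.filter (fun B => B ⊆ A) = A.powerset := by
    ext B
    simp only [mem_filter, mem_powerset]
    exact ⟨fun h => h.2, fun h => ⟨h.trans hAsub, h⟩⟩
  rw [hfil, ← Finset.mul_sum, sum_cc_powerset, ← ind_and]
  exact ind_congr hIJ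

/-- Independence of a test function from the letters in `J`. -/
def Indep (ψ : (Fin n → Finset ι) → ℂ) (J : Finset ι) : Prop :=
  ∀ R, ψ R = ψ (fun i => R i \ J)

theorem Indep.mono {ψ : (Fin n → Finset ι) → ℂ} {J J' : Finset ι} (h : Indep ψ J) (hJ : J' ⊆ J) :
    Indep ψ J' := by
  intro R
  rw [h R, h (fun i => R i \ J')]
  congr 1
  funext i
  ext x
  simp only [mem_sdiff]
  constructor
  · rintro ⟨h1, h2⟩
    exact ⟨⟨h1, fun h' => h2 (hJ h')⟩, h2⟩
  · rintro ⟨⟨h1, _⟩, h2⟩
    exact ⟨h1, h2⟩

/-- Sum against `II J` in terms of the operator `up`. -/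
theorem sum_ind_II {D J : Finset ι} (hJ : J ⊆ D) (ψ : (Fin n → Finset ι) → ℂ) (hψ : Indep ψ J)
    (F : (Fin n → Finset ι) → ℂ) :
    ∑ R ∈ fill n D, ind (II J R) * ψ R * F R = ∑ R' ∈ fill n (D \ J), ψ R' * up F J R' := by
  classical
  rw [sum_fill_split hJ]
  refine Finset.sum_congr rfl fun R' hR' => ?_
  have hR'' := mem_fill.mp hR'
  unfold up
  rw [sum_asg_eq_filter, Finset.mul_sum]
  refine Finset.sum_congr rfl fun A hA => ?_
  have hA' := mem_fill.mp hA
  have e1 : ∀ i, (R' i ∪ A i) ∩ J = A i := by
    intro i
    rw [union_inter_distrib_right]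
    have h1 : R' i ∩ J = ∅ := by
      ext y
      simp only [mem_inter, notMem_empty, iff_false, not_and]
      exact fun hy => (mem_sdiff.mp (hR''.subset i hy)).2
    rw [h1, empty_union]
    exact inter_eq_left.mpr (hA'.subset i)
  have e2 : (fun i => (R' i ∪ A i) \ J) = R' := by
    funext i
    ext y
    simp only [mem_sdiff, mem_union]
    constructor
    · rintro ⟨h | h, hy⟩
      · exact h
      · exact absurd (hA'.subset i h) hy
    · intro h
      exact ⟨Or.inl h, (mem_sdiff.mp (hR''.subset i h)).2⟩
  have e3 : ψ (fun i => R' i ∪ A i) = ψ R' := by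
    rw [hψ, e2]
  have e4 : II J (fun i => R' i ∪ A i) ↔ ∀ i, (A i).card ≤ 1 := by
    unfold II
    simp only [e1]
  rw [ind_congr e4, e3]
  by_cases hc : ∀ i, (A i).card ≤ 1
  · rw [ind_true hc, if_pos hc]; ring
  · rw [ind_false hc, if_neg hc]; ring

/-- The exactness hypothesis in depth two. -/
def HE (n : ℕ) (j : ℕ) (D : Finset ι) (F : (Fin n → Finset ι) → ℂ) : Prop :=
  ∀ J ⊆ D, j ≤ J.card → ∀ R' ∈ fill n (D \ J), up F J R' = 0

theorem indep_ind_KK {B J : Finset ι} (h : Disjoint B J) : Indep (n := n) (fun R => ind (KK B R)) J := by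
  intro R
  refine ind_congr ?_
  unfold KK
  refine exists_congr fun i => ?_
  constructor
  · intro hB y hy
    exact mem_sdiff.mpr ⟨hB hy, Finset.disjoint_left.mp h hy⟩
  · intro hB y hy
    exact (mem_sdiff.mp (hB hy)).1

theorem Indep.mul {ψ φ : (Fin n → Finset ι) → ℂ} {J : Finset ι} (h1 : Indep ψ J) (h2 : Indep φ J) :
    Indep (fun R => ψ R * φ R) J := by
  intro R
  simp only []
  rw [← h1 R, ← h2 R]

/-- Each block can be forced into one row. -/
theorem sum_KK {D : Finset ι} {F : (Fin n → Finset ι) → ℂ} (hn : 0 < n) (hE : HE n 2 D F) :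
    ∀ (k : ℕ) (J : Finset ι), J.card = k → J ⊆ D → ∀ ψ : (Fin n → Finset ι) → ℂ, Indep ψ J →
      ∑ R ∈ fill n D, ind (KK J R) * ψ R * F R = ∑ R ∈ fill n D, ψ R * F R := by
  intro k
  induction k using Nat.strong_induction_on with
  | _ k ih =>
    intro J hk hJ ψ hψ
    by_cases hcard : J.card ≤ 1
    · refine Finset.sum_congr rfl fun R hR => ?_
      have hR' := mem_fill.mp hR
      have : KK J R := by
        rcases Nat.le_one_iff_eq_zero_or_eq_one.mp hcard with h | h
        · rw [card_eq_zero.mp h]
          exact ⟨⟨0, hn⟩, empty_subset _⟩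
        · obtain ⟨x, rfl⟩ := card_eq_one.mp h
          obtain ⟨i, hi⟩ := (hR'.mem_iff x).mp (hJ (mem_singleton_self x))
          exact ⟨i, singleton_subset_iff.mpr hi⟩
      rw [ind_true this, one_mul]
    · have h2 : 2 ≤ J.card := by omega
      obtain ⟨x, hx⟩ : J.Nonempty := card_pos.mp (by omega)
      set J₀ := J.erase x with hJ₀
      have hJ₀c : J₀.card = J.card - 1 := card_erase_of_mem hx
      obtain ⟨m, hm⟩ : ∃ m, J₀.card = m + 1 := ⟨J.card - 2, by omega⟩
      have hJ₀sub : J₀ ⊆ J := erase_subset _ _
      -- the vanishing sum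
      have h0 : ∑ R ∈ fill n D, ind (II J R) * ψ R * F R = 0 := by
        rw [sum_ind_II hJ ψ hψ F]
        refine Finset.sum_eq_zero fun R' hR' => ?_
        rw [hE J hJ h2 R' hR', mul_zero]
      -- expand with Newton
      have h1 : ∑ R ∈ fill n D, ind (II J R) * ψ R * F R =
          ∑ B ∈ J₀.powerset, cc B.card *
            ∑ R ∈ fill n D, ind (II (J₀ \ B) R) * (ind (KK (insert x B) R) * ψ R) * F R := by
        simp only [Finset.mul_sum]
        rw [Finset.sum_comm]
        refine Finset.sum_congr rfl fun R hR => ?_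
        rw [newton_pointwise (mem_fill.mp hR) hJ hx, Finset.sum_mul, Finset.sum_mul]
        refine Finset.sum_congr rfl fun B _ => ?_
        ring
      set LJ := ∑ R ∈ fill n D, ind (KK J R) * ψ R * F R with hLJ
      set L0 := ∑ R ∈ fill n D, ψ R * F R with hL0
      have hterm : ∀ B ∈ J₀.powerset, cc B.card *
          ∑ R ∈ fill n D, ind (II (J₀ \ B) R) * (ind (KK (insert x B) R) * ψ R) * F R =
          (fun k => if k = m + 1 then cc k * LJ else if k = m then cc k * L0 else 0) B.card := by
        intro B hB
        have hB' := mem_powerset.mp hB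
        have hxB : x ∉ B := fun h => (mem_erase.mp (hB' h)).1 rfl
        have hc : (J₀ \ B).card = m + 1 - B.card := by
          rw [card_sdiff_of_subset hB', hm]
        have hBc : B.card ≤ m + 1 := by
          have := card_le_card hB'
          omega
        have hsub : J₀ \ B ⊆ D := sdiff_subset.trans (hJ₀sub.trans hJ)
        have hins : insert x B ⊆ J := insert_subset hx (hB'.trans hJ₀sub)
        have hdisj : Disjoint (insert x B) (J₀ \ B) := by
          refine Finset.disjoint_left.mpr fun y hy hy' => ?_
          obtain ⟨h1, h2⟩ := mem_sdiff.mp hy'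
          rcases mem_insert.mp hy with h | h
          · subst h
            exact (mem_erase.mp h1).1 rfl
          · exact h2 h
        have hψ2 : Indep (fun R => ind (KK (insert x B) R) * ψ R) (J₀ \ B) :=
          (indep_ind_KK hdisj).mul (hψ.mono (sdiff_subset.trans hJ₀sub))
        simp only []
        split_ifs with hk1 hk2
        · -- B is everything
          have hBJ : B = J₀ := Finset.eq_of_subset_of_card_le hB' (by omega)
          subst hBJ
          have hins' : insert x J₀ = J := insert_erase hx
          rw [hins', Finset.sdiff_self]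
          congr 1
          refine Finset.sum_congr rfl fun R _ => ?_
          have : II (∅ : Finset ι) R := fun i => by simp
          rw [ind_true this]
          ring
        · -- one element left
          have hc1 : (J₀ \ B).card = 1 := by omega
          congr 1
          have hII : ∀ R : Fin n → Finset ι, II (J₀ \ B) R := fun R i => by
            calc (R i ∩ (J₀ \ B)).card ≤ (J₀ \ B).card := card_le_card inter_subset_right
              _ = 1 := hc1
          have hlt : (insert x B).card < k := by
            rw [card_insert_of_notMem hxB]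
            omega
          have := ih _ hlt (insert x B) rfl (hins.trans hJ) ψ (hψ.mono hins)
          rw [hL0, ← this]
          refine Finset.sum_congr rfl fun R _ => ?_
          rw [ind_true (hII R)]
          ring
        · -- at least two left
          have hc2 : 2 ≤ (J₀ \ B).card := by omega
          rw [sum_ind_II hsub _ hψ2 F]
          rw [Finset.sum_eq_zero, mul_zero]
          intro R' hR'
          rw [hE _ hsub hc2 R' hR', mul_zero]
      rw [Finset.sum_congr rfl hterm, sum_powerset_two J₀ m hm
        (fun k => if k = m + 1 then cc k * LJ else if k = m then cc k * L0 else 0)] at h1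
      · have hne : m ≠ m + 1 := by omega
        simp only [if_true, if_neg hne] at h1
        rw [h0] at h1
        have hc : cc (m + 1) = -((m + 1 : ℕ) : ℂ) * cc m := rfl
        have hmain : cc (m + 1) * (LJ - L0) = 0 := by
          rw [mul_sub, hc]
          rw [hc] at h1
          linear_combination -h1
        exact sub_eq_zero.mp ((mul_eq_zero.mp hmain).resolve_left (cc_ne_zero _))
      · intro k hk
        rw [if_neg (by omega), if_neg (by omega)]

end Vale.Agent.Lib.P181
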