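import Vale.Agent.Lib.P181.Fill

/-!
A Boolean lattice lemma and the peeling of a row.
-/

open Finset

namespace Vale.Agent.Lib.P181

variable {ι : Type*} [DecidableEq ι] {n : ℕ}

theorem boolean_lemma (N : Finset ι) (u : Finset ι → ℂ) (t m : ℕ)
    (h1 : ∀ U ⊆ N, t < U.card → u U + ∑ x ∈ U, u (U.erase x) = 0)
    (h2 : ∀ U ⊆ N, m ≤ U.card → u U = 0)
    (htm : t + m ≤ N.card) : ∀ T ⊆ N, T.card = t → u T = 0 := by
  classical
  -- the level sums
  let G : Finset ι → ℂ := fun U => ∑ W ∈ powersetCard t U, u W
  have hdouble : ∀ U : Finset ι, ∑ x ∈ U, G (U.erase x) = ((U.card - t : ℕ) : ℂ) * G U := by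
    intro U
    simp only [G]
    rw [Finset.sum_comm' (t' := powersetCard t U) (s' := fun W => U \ W)]
    · rw [Finset.mul_sum]
      refine Finset.sum_congr rfl fun W hW => ?_
      rw [Finset.sum_const, nsmul_eq_mul]
      obtain ⟨hW1, hW2⟩ := mem_powersetCard.mp hW
      rw [card_sdiff_of_subset hW1, hW2]
    · intro x W
      simp only [mem_powersetCard, mem_sdiff]
      constructor
      · rintro ⟨hx, hW, hc⟩
        refine ⟨⟨?_, fun hxW => ?_⟩, hW.trans (erase_subset _ _), hc⟩
        · exact hx
        · exact (mem_erase.mp (hW hxW)).1 rfl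
      · rintro ⟨⟨hx, hxW⟩, hW, hc⟩
        exact ⟨hx, fun y hy => mem_erase.mpr ⟨fun h => hxW (h ▸ hy), hW hy⟩, hc⟩
  have hform : ∀ s : ℕ, ∀ U ⊆ N, U.card = t + s →
      u U = (-1 : ℂ) ^ s * (s.factorial : ℂ) * G U := by
    intro s
    induction s with
    | zero =>
      intro U _ hU
      have : powersetCard t U = {U} := by
        rw [add_zero] at hU
        rw [← hU, powersetCard_self]
      simp [G, this]
    | succ s ih =>
      intro U hU hcard
      have hlt : t < U.card := by omega
      have h := h1 U hU hlt
      have hsum : ∑ x ∈ U, u (U.erase x) =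
          (-1 : ℂ) ^ s * (s.factorial : ℂ) * ∑ x ∈ U, G (U.erase x) := by
        rw [Finset.mul_sum]
        refine Finset.sum_congr rfl fun x hx => ?_
        refine ih _ ((erase_subset _ _).trans hU) ?_
        rw [card_erase_of_mem hx]
        omega
      rw [hsum, hdouble] at h
      have hc : U.card - t = s + 1 := by omega
      rw [hc] at h
      have : u U = -((-1 : ℂ) ^ s * (s.factorial : ℂ) * (((s + 1 : ℕ) : ℂ) * G U)) := by
        linear_combination h
      rw [this, Nat.factorial_succ]
      push_cast
      ring
  have hG0 : ∀ U ⊆ N, m ≤ U.card → G U = 0 := by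
    intro U hU hm
    by_cases hlt : t ≤ U.card
    · obtain ⟨s, hs⟩ := Nat.exists_eq_add_of_le hlt
      have := hform s U hU hs
      rw [h2 U hU hm] at this
      have hne : (-1 : ℂ) ^ s * (s.factorial : ℂ) ≠ 0 :=
        mul_ne_zero (pow_ne_zero _ (by norm_num)) (by exact_mod_cast s.factorial_ne_zero)
      exact (mul_eq_zero.mp this.symm).resolve_left hne
    · simp only [G]
      rw [powersetCard_eq_empty.mpr (not_le.mp hlt), sum_empty]
  -- inclusion-exclusion
  have hg : ∀ A : Finset ι, A ⊆ N → ∀ B : Finset ι, B ⊆ N → Disjoint A B →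
      A.card + B.card + m ≤ N.card →
      ∑ W ∈ (powersetCard t N).filter (fun W => A ⊆ W ∧ Disjoint W B), u W = 0 := by
    intro A
    induction A using Finset.induction_on with
    | empty =>
      intro _ B hB _ hc
      have : (powersetCard t N).filter (fun W => ∅ ⊆ W ∧ Disjoint W B) =
          powersetCard t (N \ B) := by
        ext W
        simp only [mem_filter, mem_powersetCard, empty_subset, true_and]
        constructor
        · rintro ⟨⟨h1, h2⟩, h3⟩
          refine ⟨fun x hx => mem_sdiff.mpr ⟨h1 hx, Finset.disjoint_left.mp h3 hx⟩, h2⟩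
        · rintro ⟨h1, h2⟩
          refine ⟨⟨h1.trans sdiff_subset, h2⟩, Finset.disjoint_left.mpr fun x hx hxB => ?_⟩
          exact (mem_sdiff.mp (h1 hx)).2 hxB
      rw [this]
      refine hG0 (N \ B) sdiff_subset ?_
      rw [card_sdiff_of_subset hB]
      simp only [card_empty] at hc
      omega
    | insert x A' hx ih =>
      intro hA B hB hd hc
      have hxN : x ∈ N := hA (mem_insert_self x A')
      have hxB : x ∉ B := Finset.disjoint_left.mp hd (mem_insert_self x A')
      have hA'N : A' ⊆ N := (subset_insert x A').trans hA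
      have hd' : Disjoint A' B :=
        Finset.disjoint_of_subset_left (subset_insert x A') hd
      have hd2 : Disjoint A' (insert x B) := by
        rw [Finset.disjoint_insert_right]
        exact ⟨hx, hd'⟩
      rw [card_insert_of_notMem hx] at hc
      have e1 := ih hA'N B hB hd' (by omega)
      have e2 := ih hA'N (insert x B) (insert_subset hxN hB) hd2
        (by rw [card_insert_of_notMem hxB]; omega)
      rw [← Finset.sum_filter_add_sum_filter_not _ (fun W => x ∈ W)] at e1
      have f1 : ((powersetCard t N).filter (fun W => A' ⊆ W ∧ Disjoint W B)).filter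
          (fun W => x ∈ W) =
          (powersetCard t N).filter (fun W => insert x A' ⊆ W ∧ Disjoint W B) := by
        ext W
        simp only [mem_filter, insert_subset_iff]
        tauto
      have f2 : ((powersetCard t N).filter (fun W => A' ⊆ W ∧ Disjoint W B)).filter
          (fun W => ¬ x ∈ W) =
          (powersetCard t N).filter (fun W => A' ⊆ W ∧ Disjoint W (insert x B)) := by
        ext W
        simp only [mem_filter, Finset.disjoint_insert_right]
        tauto
      rw [f1, f2, e2, add_zero] at e1
      exact e1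
  intro T hT hc
  have := hg T hT ∅ (empty_subset _) (disjoint_empty_right _) (by simp; omega)
  have e : (powersetCard t N).filter (fun W => T ⊆ W ∧ Disjoint W ∅) = {T} := by
    ext W
    simp only [mem_filter, mem_powersetCard, disjoint_empty_right, and_true, mem_singleton]
    constructor
    · rintro ⟨⟨_, h2⟩, h3⟩
      exact (Finset.eq_of_subset_of_card_le h3 (by omega)).symm
    · rintro rfl
      exact ⟨⟨hT, hc⟩, Subset.refl _⟩
  rw [e, sum_singleton] at this
  exact this

/-- The hypothesis `H(n,b,D,j,F)`. -/
def HH (n b : ℕ) (D : Finset ι) (j : ℕ) (F : (Fin n → Finset ι) → ℂ) : Prop :=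
  ∀ J ⊆ D, j ≤ J.card → ∀ R' ∈ fill n (D \ J), (∀ i, (R' i).card < b) → up F J R' = 0

theorem peel {b j : ℕ} {D S : Finset ι} {F : (Fin (n + 1) → Finset ι) → ℂ}
    (h : HH (n + 1) b D (j + 1) F) (hS : S ⊆ D) (h1 : n + 1 ≤ S.card) (h2 : S.card ≤ b) :
    HH n b (D \ S) j (fun R => F (Fin.cons S R)) := by
  intro T hT hjT R'' hR'' hrows
  have hTS : Disjoint S T := Finset.disjoint_left.mpr fun x hx hxT =>
    (mem_sdiff.mp (hT hxT)).2 hx
  set N := S ∪ T with hN
  have hcardN : N.card = S.card + T.card := card_union_of_disjoint hTS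
  have hNT : N \ T = S := by
    rw [hN, union_sdiff_right]
    exact sdiff_eq_self_of_disjoint hTS
  let u : Finset ι → ℂ := fun U => up (fun R => F (Fin.cons (N \ U) R)) U R''
  have hND : N ⊆ D := union_subset hS fun x hx => (mem_sdiff.mp (hT hx)).1
  have key := boolean_lemma N u T.card (n + 1) ?_ ?_ (by omega) T subset_union_right rfl
  · simpa [u, hNT] using key
  · intro U hU hlt
    have hfill : (Fin.cons (N \ U) R'' : Fin (n + 1) → Finset ι) ∈ fill (n + 1) (D \ U) := by
      rw [mem_fill, isFill_cons_iff]
      refine ⟨sdiff_subset_sdiff hND (Subset.refl _), ?_⟩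
      have e : (D \ U) \ (N \ U) = (D \ S) \ T := by
        ext x
        simp only [mem_sdiff, hN, mem_union, not_and, not_not]
        constructor
        · rintro ⟨⟨hxD, hxU⟩, hx⟩
          by_cases hxS : x ∈ S
          · exact absurd (hx (Or.inl hxS)) hxU
          · by_cases hxT : x ∈ T
            · exact absurd (hx (Or.inr hxT)) hxU
            · exact ⟨⟨hxD, hxS⟩, hxT⟩
        · rintro ⟨⟨hxD, hxS⟩, hxT⟩
          refine ⟨⟨hxD, fun hxU => ?_⟩, fun hx => ?_⟩
          · rcases mem_union.mp (hU hxU) with h | h
            · exact hxS h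
            · exact hxT h
          · rcases hx with h | h
            · exact absurd h hxS
            · exact absurd h hxT
      rw [e]
      exact mem_fill.mp hR''
    have hr : ∀ i, ((Fin.cons (N \ U) R'' : Fin (n + 1) → Finset ι) i).card < b := by
      rw [Fin.forall_fin_succ]
      refine ⟨?_, fun i => by simpa using hrows i⟩
      simp only [Fin.cons_zero]
      rw [card_sdiff_of_subset hU]
      omega
    have := h U (hU.trans hND) (by omega) _ hfill hr
    rw [up_cons] at this
    convert this using 2
    refine Finset.sum_congr rfl fun x hx => ?_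
    have e : N \ U.erase x = insert x (N \ U) := by
      ext y
      simp only [mem_sdiff, mem_erase, mem_insert, not_and]
      constructor
      · rintro ⟨h1, h2⟩
        by_cases hy : y = x
        · exact Or.inl hy
        · exact Or.inr ⟨h1, h2 hy⟩
      · rintro (rfl | ⟨h1, h2⟩)
        · exact ⟨hU hx, fun h => absurd rfl h⟩
        · exact ⟨h1, fun _ hyU => absurd hyU h2⟩
    simp only [u, e]
  · intro U _ hm
    exact up_eq_zero_of_card _ (by omega) _

end Vale.Agent.Lib.P181
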