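import Vale.Agent.Lib.P181.Explicit

/-!
The combined depth range.
-/

open Finset

set_option linter.unusedSectionVars false

namespace Vale.Agent.Lib.P181

/-- The depths covered by the combinatorial theorems. -/
def Admissible (a b d : ℕ) : Prop :=
  d ≤ max (b + 1) (2 * b + 2 - a) ∨
    ∃ i : ℕ, i + 4 ≤ a ∧ d + 2 ^ (i + 1) * (a * (a + 1)) ≤ (i + 4) * b

theorem cc_of_admissible {ι : Type*} [DecidableEq ι] {a b d : ℕ} (ha : 0 < a)
    (h : Admissible a b d) (D : Finset ι) (hD : D.card ≤ d) : CC a b D := by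
  rcases h with h | ⟨i, hi, h⟩
  · exact cc_range a b ha D (hD.trans h)
  · refine (all_levels (a * (a + 1)) a (by omega) le_rfl).1 b i hi D ?_
    omega

/-- The combined statement: the Foulkes-Howe map is injective for large `b`, and on all monomials
of admissible depth. -/
theorem combined_range (X : Type*) [Fintype X] [DecidableEq X] (x₀ : X) (a b : ℕ) (ha : 0 < a) :
    ∃ Ψ : (Sym (Sym X b) a →₀ ℂ) →ₗ[ℂ] (Sym (Sym X a) b →₀ ℂ), IsFoulkesHowe Ψ ∧
      (a * (a + 1) * 2 ^ a ≤ 8 * b → Function.Injective Ψ) ∧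
      ∀ d : ℕ, Admissible a b d → ∀ f : Sym (Sym X b) a →₀ ℂ,
        (∀ P ∈ f.support, a * b ≤ expo x₀ P + d) → Ψ f = 0 → f = 0 := by
  classical
  obtain ⟨Ψ, hΨ⟩ := exists_isFoulkesHowe X a b
  refine ⟨Ψ, hΨ, fun hb => (injective_iff_map_eq_zero Ψ).mpr fun f hf => ?_, fun d hd f hs hf => ?_⟩
  · by_contra hne
    obtain ⟨P, hP⟩ : f.support.Nonempty := Finsupp.support_nonempty_iff.mpr hne
    obtain ⟨v, rfl⟩ := rowsOf_surjective P
    have := bridge hΨ hf v x₀ (univ : Finset (Fin a × Fin b))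
      (fun c hc => absurd (mem_univ c) hc) (cc_of_bound a b ha hb _)
    exact (Finsupp.mem_support_iff.mp hP) this
  · exact inj_of_cc hΨ x₀ d (fun D hD => cc_of_admissible ha hd D hD) hs hf

end Vale.Agent.Lib.P181
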